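import Vale.Agent.P129.Basic

/-! `ℓ¹` averages and the basic inequality. -/

namespace Vale.Agent.P129

open Finset

variable {ι : Type} [LinearOrder ι] {K : Cod ι}

theorem IsBlock.exists_seq {v : ℕ → ι →₀ ℝ} (hv : IsBlock v) (n₀ : ℕ) {P : (ι →₀ ℝ) → Prop}
    (h : ∀ n, ∃ y ∈ tailSp v n, P y) :
    ∃ z : ℕ → ι →₀ ℝ, (∀ i, z i ∈ tailSp v n₀ ∧ P (z i)) ∧ ∀ i i', i < i' → Lt (z i) (z i') := by
  refine exists_seq_of_forall_finset_exists (fun y => y ∈ tailSp v n₀ ∧ P y) Lt fun s hs => ?_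
  choose! n hn1 hn2 using fun y (hy : y ∈ s) => hv.exists_lt_tailSp (hs y hy).1 n₀
  obtain ⟨y, hy1, hy2⟩ := h (max n₀ (s.sup n))
  exact ⟨y, ⟨tailSp_anti v (le_max_left _ _) hy1, hy2⟩, fun x hx => hn2 x hx y
    (tailSp_anti v ((Finset.le_sup hx).trans (le_max_right _ _)) hy1)⟩

theorem Cod.exists_l1 {v : ℕ → ι →₀ ℝ} (hv : IsBlock v) (M n₀ : ℕ) (hM : 0 < M) :
    ∃ z : ℕ → ι →₀ ℝ, (∀ i, z i ∈ tailSp v n₀ ∧ K.N (z i) ≤ 1) ∧
      (∀ i i', i < i' → Lt (z i) (z i')) ∧ (M : ℝ) / 2 ≤ K.N (∑ i ∈ range M, z i) := by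
  by_contra hneg
  push Not at hneg
  have hM' : (0 : ℝ) < M := by exact_mod_cast hM
  have key : ∀ r : ℕ, ∀ n, ∃ y ∈ tailSp v n, K.N y ≤ 1 ∧ ∃ h, Sm K.G (M ^ r) h ∧
      (h.support : Set ι) ⊆ hull y ∧ (2 : ℝ) ^ r / 2 ≤ ev h y := by
    intro r
    induction r with
    | zero =>
      intro n
      have hp := Cod.N_pos (K := K) (hv.1 n)
      have h1 : K.N ((K.N (v n))⁻¹ • v n) = 1 := by
        rw [Cod.N_smul, abs_of_pos (inv_pos.2 hp), inv_mul_cancel₀ hp.ne']
      obtain ⟨g, hg, hs, hev⟩ := Cod.exists_norming (K := K) ((K.N (v n))⁻¹ • v n)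
        (ε := 1 / 2) (by norm_num)
      refine ⟨_, Submodule.smul_mem _ _ (mem_tailSp v le_rfl), h1.le, g, by simpa using Sm.one hg,
        hs, ?_⟩
      rw [h1] at hev
      norm_num at hev ⊢
      linarith
    | succ r ih =>
      intro n
      obtain ⟨z, hz1, hz2⟩ := hv.exists_seq (max n n₀) ih
      choose h hh1 hh2 hh3 using fun i => (hz1 i).2.2
      have hlt := hneg z (fun i => ⟨tailSp_anti v (le_max_right _ _) (hz1 i).1, (hz1 i).2.1⟩) hz2
      have hc : (0 : ℝ) < 2 / M := by positivity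
      refine ⟨(2 / M : ℝ) • ∑ i ∈ range M, z i, Submodule.smul_mem _ _ (Submodule.sum_mem _
        fun i _ => tailSp_anti v (le_max_left _ _) (hz1 i).1), ?_, ∑ i ∈ range M, h i, ?_, ?_, ?_⟩
      · rw [Cod.N_smul, abs_of_pos hc, div_mul_eq_mul_div, div_le_one hM']
        linarith
      · rw [pow_succ']
        exact Sm.sum (fun i _ => hh1 i) fun i i' a _ => (hz2 i i' a).of_hull (hh2 i) (hh2 i')
      · intro ξ hξ
        obtain ⟨i, hi, hξ⟩ := exists_of_mem_support_sum hξ
        refine hull_mono ?_ (hh2 i hξ)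
        rw [Finsupp.support_smul_eq hc.ne']
        exact support_subset_sum_of_succ (fun l _ l' _ h => hz2 l l' h) hi
      · rw [map_smul, smul_eq_mul, ev_sum_left]
        have : ∀ i ∈ range M, (2 : ℝ) ^ r / 2 ≤ ev (h i) (∑ i ∈ range M, z i) := fun i hi => by
          rw [map_sum, Finset.sum_eq_single i]
          · exact hh3 i
          · intro b _ hne
            rcases lt_or_gt_of_ne hne with a | a
            · exact ((hz2 b i a).of_hull (support_subset_hull _) (hh2 i)).ev_eq_zero'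
            · exact ((hz2 i b a).of_hull (hh2 i) (support_subset_hull _)).ev_eq_zero
          · exact fun a => absurd hi a
        have h2 := Finset.card_nsmul_le_sum _ _ _ this
        rw [Finset.card_range, nsmul_eq_mul] at h2
        calc (2 : ℝ) ^ (r + 1) / 2 = 2 / M * (M * (2 ^ r / 2)) := by field_simp; ring
          _ ≤ _ := mul_le_mul_of_nonneg_left h2 hc.le
  obtain ⟨y, -, hy, h, hh, -, hev⟩ := key (M + 4) 0
  have h1 : M ^ (M + 4) ≤ nn M := by
    have := le_SS M
    calc M ^ (M + 4) ≤ (SS M + 2) ^ (M + 4) := Nat.pow_le_pow_left (by omega) _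
      _ ≤ _ := Nat.le_mul_of_pos_left _ (by positivity)
  have h2 := (le_abs_self _).trans (Cod.sm_ev_le (hh.of_le h1) y)
  have h3 : (2 : ℝ) ^ (M + 4) / 2 = 2 * mm M := by unfold mm; ring
  have := mm_pos M
  nlinarith

theorem Cod.exists_avg {v : ℕ → ι →₀ ℝ} (hv : IsBlock v) (J n₀ : ℕ) :
    ∃ x ∈ tailSp v n₀, 1 / 2 ≤ K.N x ∧ K.N x ≤ 1 ∧ K.R2 x J := by
  obtain ⟨z, hz1, hz2, hz3⟩ := Cod.exists_l1 (K := K) hv (SS J + 1) n₀ (Nat.succ_pos _)
  have hM' : (0 : ℝ) < (SS J + 1 : ℕ) := by exact_mod_cast Nat.succ_pos _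
  refine ⟨((SS J + 1 : ℕ) : ℝ)⁻¹ • ∑ i ∈ range (SS J + 1), z i,
    Submodule.smul_mem _ _ (Submodule.sum_mem _ fun i _ => (hz1 i).1), ?_,
    Cod.N_avg_le (Nat.succ_pos _) fun i _ => (hz1 i).2,
    Cod.R2_avg (Nat.succ_pos _) (Nat.le_succ _) (fun i i' a _ => hz2 i i' a) fun i _ => (hz1 i).2⟩
  rw [Cod.N_smul, abs_of_pos (inv_pos.2 hM'), le_inv_mul_iff₀ hM']
  linarith

/-- the basic inequality -/
theorem Cod.basic_ineq (j : ℕ) (x : ℕ → ι →₀ ℝ) (J J' : ℕ → ℕ)
    (hx : ∀ i i', i < i' → Lt (x i) (x i')) (h1 : ∀ k, K.N (x k) ≤ 1) (hJ : Monotone J)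
    (h3 : ∀ k, l1 (x k) * (2 / mm (J (k + 1))) ≤ (mm j)⁻¹) (h2 : ∀ k, K.R2 (x k) (J' k))
    (h4 : ∀ k, K.R4 (x k) (J' k) ((mm j)⁻¹ / (J k + 1))) (r : ℕ) :
    ∀ g ∈ K.G, ∀ I : Finset ℕ, ∑ k ∈ I, |ev g (x k)| ≤
      ((1 / 2) ^ r + 10 / mm j) * I.card + (((SS j : ℝ) + 2) ^ r - 1) := by
  have hm := mm_pos j
  have hm4 := four_le_mm j
  have hS : (0 : ℝ) ≤ SS j := Nat.cast_nonneg _
  have hone : ∀ g ∈ K.G, ∀ k, |ev g (x k)| ≤ 1 := fun g hg k => (Cod.abs_ev_le_N hg _).trans (h1 k)
  induction r with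
  | zero =>
    intro g hg I
    have := Finset.sum_le_card_nsmul I (fun k => |ev g (x k)|) 1 fun k _ => hone g hg k
    have h0 : (0 : ℝ) ≤ 10 / mm j * I.card := by positivity
    simp only [nsmul_eq_mul, mul_one] at this
    simp only [pow_zero, add_mul]
    linarith
  | succ r ih =>
    set a : ℝ := (1 / 2) ^ r + 10 / mm j with ha
    set b : ℝ := ((SS j : ℝ) + 2) ^ r - 1 with hb
    have ha0 : 0 ≤ a := by positivity
    have ha4 : a ≤ 4 := by
      have e1 : ((1 : ℝ) / 2) ^ r ≤ 1 := pow_le_one₀ (by norm_num) (by norm_num)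
      have e2 : 10 / mm j ≤ 10 / 4 := div_le_div_of_nonneg_left (by norm_num) (by norm_num) hm4
      linarith
    have hb0 : 0 ≤ b := sub_nonneg.2 (one_le_pow₀ (by linarith))
    have ha' : (1 / 2 : ℝ) ^ (r + 1) + 10 / mm j = a / 2 + 5 / mm j := by rw [ha]; ring
    have hb' : ((SS j : ℝ) + 2) ^ (r + 1) - 1 = (SS j + 2) * (1 + b) - 1 := by rw [hb]; ring
    rw [ha', hb']
    intro g hg I
    have hI0 : (0 : ℝ) ≤ I.card := Nat.cast_nonneg _
    have hpos : 0 ≤ (a / 2 + 5 / mm j) * I.card := by positivity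
    rcases Cod.mem_G_iff.1 hg with ⟨ξ, hξ⟩ | ⟨d, s, ε, hs1, hs2, hs3, hs4, hs5⟩
    · -- a coordinate functional acts on at most one vector
      have e1 : ∑ k ∈ I, |ev g (x k)| ≤ 1 := by
        by_cases hex : ∃ k ∈ I, ξ ∈ (x k).support
        · obtain ⟨k, hk, hk'⟩ := hex
          rw [Finset.sum_eq_single k]
          · exact hone g hg k
          · intro k' _ hne
            have : x k' ξ = 0 := by
              rcases lt_or_gt_of_ne hne with h | h
              exacts [(hx k' k h).apply_left hk', (hx k k' h).apply_right hk']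
            rcases hξ with rfl | rfl <;> rw [ev_single_left, this] <;> simp
          · exact fun h => absurd hk h
        · push Not at hex
          rw [Finset.sum_eq_zero]
          · norm_num
          · intro k hk
            have := Finsupp.notMem_support_iff.1 (hex k hk)
            rcases hξ with rfl | rfl <;> rw [ev_single_left, this] <;> simp
      nlinarith
    · classical
      have hv : ∀ i ∈ range d, K.Valid K.G (s i) := fun i hi => hs1 i (Finset.mem_range.1 hi)
      have hd : ∀ i ∈ range d, ∀ i' ∈ range d, i ≠ i' → Disjoint (s i).wts (s i').wts :=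
        fun i hi i' hi' => hs3 i (Finset.mem_range.1 hi) i' (Finset.mem_range.1 hi')
      have habs : ∀ y, |ev g y| ≤ ∑ i ∈ range d, |ev (s i).val y| := fun y => by
        rw [hs5, ev_sum_left]
        refine (Finset.abs_sum_le_sum_abs _ _).trans (le_of_eq (Finset.sum_congr rfl fun i hi => ?_))
        rw [ev_smul_left, abs_mul]
        rcases hs2 i (Finset.mem_range.1 hi) with h | h <;> simp [h]
      -- the low part of the family
      let low : ℕ → ℝ := fun k => ∑ i ∈ range d, ∑ l ∈ (s i).idx.filter (fun l => (s i).w l < j),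
        |ev (res (s i).E ((s i).f l)) (x k)|
      have hlow0 : ∀ k, 0 ≤ low k := fun k =>
        Finset.sum_nonneg fun _ _ => Finset.sum_nonneg fun _ _ => abs_nonneg _
      have hlow : ∑ k ∈ I, low k ≤ a / 2 * I.card + SS j * (1 + b) := by
        obtain ⟨Ω, hΩ1, hΩ2⟩ := Cod.exists_sum_wts (range d) s hv hd (fun w => w < j)
        have e1 : ∑ k ∈ I, low k ≤ ∑ i ∈ range d, ∑ l ∈ (s i).idx.filter (fun l => (s i).w l < j),
            ((mm ((s i).w l))⁻¹ * (a * I.card) + nn ((s i).w l) * (1 + b)) := by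
          rw [Finset.sum_comm]
          refine Finset.sum_le_sum fun i hi => ?_
          rw [Finset.sum_comm]
          refine Finset.sum_le_sum fun l hl => ?_
          have hw := (hv i hi).wt_term (Seg.mem_idx.1 (Finset.mem_filter.1 hl).1).1
          refine (Cod.wt_step (I₀ := I) (fun i _ i' _ h => hx i i' h) ha0 hb0
            (fun g hg I' _ => ih g hg I') hw subset_rfl).trans ?_
          have e2 := four_le_mm ((s i).w l)
          have e3 : (mm ((s i).w l))⁻¹ ≤ 4⁻¹ := inv_anti₀ (by norm_num) e2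
          have e4 : (0 : ℝ) ≤ nn ((s i).w l) := Nat.cast_nonneg _
          have e5 : 0 < (mm ((s i).w l))⁻¹ := inv_pos.2 (mm_pos _)
          have e6 : (mm ((s i).w l))⁻¹ * (a + b) ≤ 1 + b := by nlinarith
          nlinarith [mul_le_mul_of_nonneg_left e6 e4]
        rw [hΩ2 fun w => (mm w)⁻¹ * (a * I.card) + nn w * (1 + b), Finset.sum_add_distrib,
          ← Finset.sum_mul, ← Finset.sum_mul] at e1
        have e2 := sum_inv_mm_le_half Ω
        have e3 : ∑ w ∈ Ω, (nn w : ℝ) ≤ SS j := by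
          exact_mod_cast sum_nn_le fun w hw => (hΩ1 w hw).1
        have e4 : 0 ≤ a * I.card := by positivity
        nlinarith [mul_le_mul_of_nonneg_right e2 e4,
          mul_le_mul_of_nonneg_right e3 (by linarith : 0 ≤ 1 + b)]
      have hk : ∀ k, |ev g (x k)| ≤ low k + 5 / mm j + if J k < d ∧ d ≤ J (k + 1) then 1 else 0 := by
        intro k
        have e0 : 0 < 5 / mm j := by positivity
        split_ifs with hc
        · linarith [hone g hg k, hlow0 k]
        rcases le_or_gt d (J k) with hc1 | hc1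
        · -- many thresholds below
          have hv' : ∀ i ∈ range d, K.Valid K.G ((s i).raise j) := fun i hi => (hv i hi).raise j
          have e1 := (h2 k).low_le (range d) (fun i => (s i).raise j) hv'
            (fun i hi i' hi' hne => Finset.disjoint_of_subset_left (Seg.wts_raise_subset _ _)
              (Finset.disjoint_of_subset_right (Seg.wts_raise_subset _ _) (hd i hi i' hi' hne)))
            (j := j) (fun i _ w hw => (Seg.le_raise_θ _ _).trans (Seg.le_of_mem_wts hw))
          have e2 : ∑ i ∈ range d, |ev (((s i).raise j).raise (J' k)).val (x k)| ≤ (mm j)⁻¹ := by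
            have := Finset.sum_le_card_nsmul (range d)
              (fun i => |ev (((s i).raise j).raise (J' k)).val (x k)|) _
              fun i hi => h4 k _ ((hv' i hi).raise _) (Seg.le_raise_θ _ _)
            rw [Finset.card_range, nsmul_eq_mul] at this
            refine this.trans ?_
            have e3 : (d : ℝ) ≤ J k + 1 := by exact_mod_cast hc1.trans (Nat.le_succ _)
            have e4 : (0 : ℝ) < J k + 1 := by positivity
            rw [mul_div_assoc', div_le_iff₀ e4, mul_comm]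
            exact mul_le_mul_of_nonneg_left e3 (inv_pos.2 hm).le
          have e3 : ∑ i ∈ range d, |ev (s i).val (x k)| ≤ low k +
              ∑ i ∈ range d, |ev ((s i).raise j).val (x k) -
                ev (((s i).raise j).raise (J' k)).val (x k)| +
              ∑ i ∈ range d, |ev (((s i).raise j).raise (J' k)).val (x k)| := by
            rw [← Finset.sum_add_distrib, ← Finset.sum_add_distrib]
            refine Finset.sum_le_sum fun i _ => ?_
            conv_lhs => rw [(s i).val_split j, ev_add_left, ev_sum_left]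
            refine (abs_add_le _ _).trans ?_
            rw [add_assoc]
            refine add_le_add (Finset.abs_sum_le_sum_abs _ _) ?_
            simpa using abs_add_le (ev ((s i).raise j).val (x k) -
              ev (((s i).raise j).raise (J' k)).val (x k))
              (ev (((s i).raise j).raise (J' k)).val (x k))
          have e4 : 5 / mm j = 4 / mm j + (mm j)⁻¹ := by field_simp; ring
          linarith [habs (x k)]
        · have hc2 : J (k + 1) < d := by
            by_contra h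
            exact hc ⟨hc1, not_lt.1 h⟩
          have e1 : ∀ ξ, |g ξ| ≤ 2 / mm (J (k + 1)) := fun ξ => by
            refine le_trans ?_ (Cod.abs_family_le (fun _ hg => Cod.abs_le_one hg) (range d) s hv hd
              (J := J (k + 1)) (fun i hi w hw => by
                have := hs4 i (Finset.mem_range.1 hi) w hw; omega) ξ)
            rw [hs5, Finsupp.finsetSum_apply]
            refine (Finset.abs_sum_le_sum_abs _ _).trans
              (le_of_eq (Finset.sum_congr rfl fun i hi => ?_))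
            rcases hs2 i (Finset.mem_range.1 hi) with h | h <;> simp [h]
          have e2 := abs_ev_le_l1 e1 (x k)
          have e4 : 5 / mm j = 4 / mm j + (mm j)⁻¹ := by field_simp; ring
          have e5 : 0 < 4 / mm j := by positivity
          have := h3 k
          rw [mul_comm] at this
          linarith [hlow0 k]
      have hind : ∑ k ∈ I, (if J k < d ∧ d ≤ J (k + 1) then (1 : ℝ) else 0) ≤ 1 := by
        rw [Finset.sum_boole]
        have : (I.filter fun k => J k < d ∧ d ≤ J (k + 1)).card ≤ 1 := by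
          refine Finset.card_le_one.2 fun k hk k' hk' => ?_
          have e1 := (Finset.mem_filter.1 hk).2
          have e2 := (Finset.mem_filter.1 hk').2
          by_contra hne
          rcases lt_or_gt_of_ne hne with h | h
          · have : J (k + 1) ≤ J k' := hJ h
            omega
          · have : J (k' + 1) ≤ J k := hJ h
            omega
        exact_mod_cast this
      have := Finset.sum_le_sum fun k (_ : k ∈ I) => hk k
      rw [Finset.sum_add_distrib, Finset.sum_add_distrib, Finset.sum_const, nsmul_eq_mul] at this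
      nlinarith

/-- exact pairs from good vectors -/
theorem Cod.exists_exact_of_good {v : ℕ → ι →₀ ℝ} (hv : IsBlock v) {c : ℝ} (hc : 0 < c)
    (hgood : ∀ J n₀ : ℕ, ∀ ε : ℝ, 0 < ε → ∃ x ∈ tailSp v n₀, ∃ J', J ≤ J' ∧ c ≤ K.N x ∧
      K.N x ≤ 1 ∧ K.R2 x J' ∧ K.R4 x J' ε) (j n₀ : ℕ) :
    ∃ u ∈ tailSp v n₀, ∃ f, Wt K.G j f ∧ (f.support : Set ι) ⊆ hull u ∧ ev f u = 1 ∧
      K.N u ≤ 24 / c := by
  have hm := mm_pos j
  obtain ⟨a, ha1, ha2⟩ := exists_seq_of_forall_finset_exists
    (fun a : (ι →₀ ℝ) × ℕ × ℕ => a.1 ∈ tailSp v n₀ ∧ c ≤ K.N a.1 ∧ K.N a.1 ≤ 1 ∧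
      K.R2 a.1 a.2.2 ∧ K.R4 a.1 a.2.2 ((mm j)⁻¹ / (a.2.1 + 1)))
    (fun a a' => Lt a.1 a'.1 ∧ a.2.1 ≤ a'.2.1 ∧ l1 a.1 * (2 / mm a'.2.1) ≤ (mm j)⁻¹)
    (fun s hs => by
      choose! n hn1 hn2 using fun a (ha : a ∈ s) => hv.exists_lt_tailSp (hs a ha).1 n₀
      choose J hJ1 hJ2 using fun a : (ι →₀ ℝ) × ℕ × ℕ =>
        exists_two_div_mm_le (l1 a.1) (mm j)⁻¹ (inv_pos.2 hm) a.2.1
      obtain ⟨x, hx, J', -, h1, h2, h3, h4⟩ := hgood 0 (max n₀ (s.sup n))
        ((mm j)⁻¹ / ((s.sup J : ℕ) + 1)) (by positivity)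
      refine ⟨(x, s.sup J, J'), ⟨tailSp_anti v (le_max_left _ _) hx, h1, h2, h3, h4⟩,
        fun a ha => ⟨hn2 a ha x (tailSp_anti v ((Finset.le_sup ha).trans (le_max_right _ _)) hx),
          (hJ1 a).trans (Finset.le_sup ha), le_trans ?_ (hJ2 a)⟩⟩
      exact mul_le_mul_of_nonneg_left (div_le_div_of_nonneg_left (by norm_num) (mm_pos _)
        (mm_mono (Finset.le_sup ha))) (l1_nonneg _))
  set x : ℕ → ι →₀ ℝ := fun k => (a k).1
  have hx : ∀ i i', i < i' → Lt (x i) (x i') := fun i i' h => (ha2 i i' h).1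
  have hBI := Cod.basic_ineq (K := K) j x (fun k => (a k).2.1) (fun k => (a k).2.2) hx
    (fun k => (ha1 k).2.2.1) (monotone_nat_of_le_succ fun k => (ha2 k _ (Nat.lt_succ_self k)).2.1)
    (fun k => (ha2 k _ (Nat.lt_succ_self k)).2.2) (fun k => (ha1 k).2.2.2.1)
    (fun k => (ha1 k).2.2.2.2) (j + 2)
  have hn : (0 : ℝ) < nn j := by exact_mod_cast nn_pos j
  have hN : K.N (∑ k ∈ range (nn j), x k) ≤ 12 * (nn j / mm j) := by
    refine Cod.N_le fun g hg => ?_
    rw [map_sum]
    refine ((le_abs_self _).trans (Finset.abs_sum_le_sum_abs _ _)).trans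
      ((hBI g hg _).trans ?_)
    rw [Finset.card_range, ← inv_mm]
    have e1 : ((SS j : ℝ) + 2) ^ (j + 2) ≤ nn j / mm j := by
      rw [nn_cast, mul_div_cancel_left₀ _ hm.ne']
      have : (0 : ℝ) ≤ SS j := Nat.cast_nonneg _
      exact pow_le_pow_right₀ (by linarith) (by omega)
    have e2 : ((mm j)⁻¹ + 10 / mm j) * nn j = 11 * (nn j / mm j) := by field_simp; ring
    linarith
  obtain ⟨h, hh1, hh2, hh3⟩ := Cod.exists_sm_norming (K := K) (M := nn j) (x := x)
    (fun i i' h _ => hx i i' h) (half_pos hc)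
  have hh4 : nn j * (c / 2) ≤ ev h (∑ k ∈ range (nn j), x k) := by
    refine le_trans ?_ hh3
    have := Finset.card_nsmul_le_sum (range (nn j)) (fun i => K.N (x i) - c / 2) (c / 2)
      fun i _ => by have := (ha1 i).2.1; simp only [x]; linarith
    simpa using this
  set t := (mm j)⁻¹ * ev h (∑ k ∈ range (nn j), x k) with ht
  have ht1 : nn j / mm j * (c / 2) ≤ t := by
    rw [ht, div_mul_eq_mul_div, div_eq_inv_mul]
    exact mul_le_mul_of_nonneg_left hh4 (inv_pos.2 hm).le
  have ht0 : 0 < t := lt_of_lt_of_le (by positivity) ht1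
  refine ⟨t⁻¹ • ∑ k ∈ range (nn j), x k, Submodule.smul_mem _ _ (Submodule.sum_mem _
    fun k _ => (ha1 k).1), (mm j)⁻¹ • h, ⟨h, hh1, rfl⟩, ?_, ?_, ?_⟩
  · refine (Finset.coe_subset.2 Finsupp.support_smul).trans (hh2.trans (hull_mono ?_))
    rw [Finsupp.support_smul_eq (inv_pos.2 ht0).ne']
  · rw [map_smul, ev_smul_left, smul_eq_mul, ← ht, inv_mul_cancel₀ ht0.ne']
  · rw [Cod.N_smul, abs_of_pos (inv_pos.2 ht0), inv_mul_le_iff₀ ht0]
    refine hN.trans ?_
    have e1 : 12 * (nn j / mm j) = nn j / mm j * (c / 2) * (24 / c) := by field_simp; ring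
    rw [e1]
    exact mul_le_mul_of_nonneg_right ht1 (by positivity)

end Vale.Agent.P129
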