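import Vale.Agent.P129.Pre

/-! Basic properties of the norming set and of the norm. -/

namespace Vale.Agent.P129

open Finset

/-! ### parameters -/

theorem mm_pos (j : ℕ) : 0 < mm j := by unfold mm; positivity

theorem four_le_mm (j : ℕ) : 4 ≤ mm j := by
  unfold mm
  calc (4 : ℝ) = 2 ^ 2 := by norm_num
    _ ≤ 2 ^ (j + 2) := pow_le_pow_right₀ (by norm_num) (by omega)

theorem mm_succ (j : ℕ) : mm (j + 1) = 2 * mm j := by unfold mm; ring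

theorem mm_mono {j j' : ℕ} (h : j ≤ j') : mm j ≤ mm j' :=
  pow_le_pow_right₀ (by norm_num) (by omega)

theorem inv_mm (j : ℕ) : (mm j)⁻¹ = (1 / 2) ^ (j + 2) := by
  unfold mm; rw [one_div, inv_pow]

theorem le_mm (j : ℕ) : (j : ℝ) ≤ mm j := by
  unfold mm
  have : j < 2 ^ (j + 2) := (Nat.lt_two_pow_self).trans_le
    (Nat.pow_le_pow_right (by norm_num) (by omega))
  exact_mod_cast this.le

theorem sum_Ico_inv_mm (J n : ℕ) : ∑ w ∈ Ico J (J + n), (mm w)⁻¹ = 2 / mm J - 2 / mm (J + n) := by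
  induction n with
  | zero => simp
  | succ n ih =>
    rw [← add_assoc, Finset.sum_Ico_succ_top (by omega), ih, mm_succ]
    have := mm_pos (J + n)
    field_simp
    ring

theorem sum_inv_mm_le {Ω : Finset ℕ} {J : ℕ} (h : ∀ w ∈ Ω, J ≤ w) :
    ∑ w ∈ Ω, (mm w)⁻¹ ≤ 2 / mm J := by
  have h1 : Ω ⊆ Ico J (J + (Ω.sup id + 1)) := fun w hw => by
    have := Finset.le_sup (f := id) hw
    simp only [id] at this
    rw [Finset.mem_Ico]
    exact ⟨h w hw, by omega⟩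
  refine (Finset.sum_le_sum_of_subset_of_nonneg h1 fun w _ _ => (inv_pos.2 (mm_pos w)).le).trans ?_
  rw [sum_Ico_inv_mm]
  have := mm_pos (J + (Ω.sup id + 1))
  have : 0 ≤ 2 / mm (J + (Ω.sup id + 1)) := by positivity
  linarith

theorem sum_inv_mm_le_half (Ω : Finset ℕ) : ∑ w ∈ Ω, (mm w)⁻¹ ≤ 1 / 2 := by
  have := sum_inv_mm_le (Ω := Ω) (J := 0) fun _ _ => Nat.zero_le _
  have h : mm 0 = 4 := by norm_num [mm]
  rw [h] at this
  linarith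

theorem SS_succ (j : ℕ) : SS (j + 1) = SS j + nn j := rfl

theorem SS_eq (j : ℕ) : SS j = ∑ w ∈ range j, nn w := by
  induction j with
  | zero => rfl
  | succ j ih => rw [SS_succ, Finset.sum_range_succ, ih]

theorem sum_nn_le {Ω : Finset ℕ} {j : ℕ} (h : ∀ w ∈ Ω, w < j) : ∑ w ∈ Ω, nn w ≤ SS j := by
  rw [SS_eq]
  exact Finset.sum_le_sum_of_subset fun w hw => Finset.mem_range.2 (h w hw)

theorem nn_le_SS {w j : ℕ} (h : w < j) : nn w ≤ SS j := by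
  simpa using sum_nn_le (Ω := {w}) (j := j) (by simpa using h)

theorem nn_pos (j : ℕ) : 0 < nn j := by unfold nn; positivity

theorem le_SS (j : ℕ) : j ≤ SS j := by
  induction j with
  | zero => exact Nat.zero_le _
  | succ j ih => have := nn_pos j; rw [SS_succ]; omega

theorem nn_cast (j : ℕ) : (nn j : ℝ) = mm j * ((SS j : ℝ) + 2) ^ (j + 4) := by
  simp [nn, mm]

theorem exists_two_div_mm_le (a ε : ℝ) (hε : 0 < ε) (J₀ : ℕ) :
    ∃ J, J₀ ≤ J ∧ a * (2 / mm J) ≤ ε := by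
  obtain ⟨n, hn⟩ := exists_nat_ge (2 * |a| / ε)
  refine ⟨max J₀ n, le_max_left _ _, ?_⟩
  have h1 : (n : ℝ) ≤ mm (max J₀ n) := (le_mm n).trans (mm_mono (le_max_right _ _))
  have h2 := mm_pos (max J₀ n)
  rw [div_le_iff₀ hε] at hn
  rw [← mul_div_assoc, div_le_iff₀ h2]
  nlinarith [le_abs_self a]

variable {ι : Type} [LinearOrder ι]

/-! ### sums of successive functionals -/

theorem Sm.mono {𝒢 𝒢' : Set (ι →₀ ℝ)} (h : 𝒢 ⊆ 𝒢') : ∀ {n : ℕ} {f : ι →₀ ℝ}, Sm 𝒢 n f → Sm 𝒢' n f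
  | 0, _, hf => hf
  | _ + 1, _, ⟨h', g, h1, h2, h3, h4⟩ => ⟨h', g, Sm.mono h h1, h2.imp_left (@h g), h3, h4⟩

theorem Sm.zero (𝒢 : Set (ι →₀ ℝ)) : ∀ n, Sm 𝒢 n 0
  | 0 => rfl
  | n + 1 => ⟨0, 0, Sm.zero 𝒢 n, Or.inr rfl, Lt.zero_left _, (add_zero _).symm⟩

theorem Sm.succ {𝒢 : Set (ι →₀ ℝ)} {n : ℕ} {f : ι →₀ ℝ} (h : Sm 𝒢 n f) : Sm 𝒢 (n + 1) f :=
  ⟨f, 0, h, Or.inr rfl, Lt.zero_right _, (add_zero _).symm⟩

theorem Sm.of_le {𝒢 : Set (ι →₀ ℝ)} {n n' : ℕ} {f : ι →₀ ℝ} (h : Sm 𝒢 n f) (hn : n ≤ n') :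
    Sm 𝒢 n' f := by
  induction hn with
  | refl => exact h
  | step _ ih => exact ih.succ

theorem Sm.one {𝒢 : Set (ι →₀ ℝ)} {g : ι →₀ ℝ} (h : g ∈ 𝒢) : Sm 𝒢 1 g :=
  ⟨0, g, rfl, Or.inl h, Lt.zero_left _, (zero_add _).symm⟩

theorem Sm.add {𝒢 : Set (ι →₀ ℝ)} {n : ℕ} {f : ι →₀ ℝ} (hf : Sm 𝒢 n f) :
    ∀ {n' : ℕ} {f' : ι →₀ ℝ}, Sm 𝒢 n' f' → Lt f f' → Sm 𝒢 (n + n') (f + f')
  | 0, _, h, _ => by cases h; simpa using hf
  | _ + 1, _, ⟨h', g, h1, h2, h3, h4⟩, hlt => by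
    subst h4
    exact ⟨f + h', g, Sm.add hf h1 (hlt.mono subset_rfl h3.support_left), h2,
      (hlt.mono subset_rfl h3.support_right).add_left h3, (add_assoc _ _ _).symm⟩

theorem Sm.sum {𝒢 : Set (ι →₀ ℝ)} {n : ℕ} {h : ℕ → ι →₀ ℝ} : ∀ {M : ℕ},
    (∀ s < M, Sm 𝒢 n (h s)) → (∀ s s', s < s' → s' < M → Lt (h s) (h s')) →
      Sm 𝒢 (M * n) (∑ s ∈ range M, h s)
  | 0, _, _ => by simpa using Sm.zero 𝒢 0
  | M + 1, h1, h2 => by
    rw [Finset.sum_range_succ, Nat.succ_mul]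
    exact (Sm.sum (fun s hs => h1 s (by omega)) fun s s' a b => h2 s s' a (by omega)).add
      (h1 M (by omega)) (Lt.sum_left fun s hs => h2 s M (Finset.mem_range.1 hs) (by omega))

theorem Sm.map {𝒢 : Set (ι →₀ ℝ)} (T : (ι →₀ ℝ) →ₗ[ℝ] (ι →₀ ℝ))
    (hT : ∀ g, (T g).support ⊆ g.support) (hG : ∀ g ∈ 𝒢, T g ∈ 𝒢) :
    ∀ {n : ℕ} {f : ι →₀ ℝ}, Sm 𝒢 n f → Sm 𝒢 n (T f)
  | 0, _, h => by cases h; exact map_zero T
  | _ + 1, _, ⟨h', g, h1, h2, h3, h4⟩ =>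
    ⟨T h', T g, Sm.map T hT hG h1, h2.imp (hG g) (fun h => by rw [h, map_zero]),
      h3.mono (hT _) (hT _), by rw [h4, map_add]⟩

theorem Sm.abs_le {𝒢 : Set (ι →₀ ℝ)} (hG : ∀ g ∈ 𝒢, ∀ ξ, |g ξ| ≤ 1) :
    ∀ {n : ℕ} {f : ι →₀ ℝ}, Sm 𝒢 n f → ∀ ξ, |f ξ| ≤ 1
  | 0, _, h, ξ => by cases h; simp
  | _ + 1, _, ⟨h', g, h1, h2, h3, h4⟩, ξ => by
    subst h4
    by_cases hξ : ξ ∈ g.support
    · rw [Finsupp.add_apply, h3.apply_left hξ, zero_add]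
      rcases h2 with h2 | h2
      · exact hG g h2 ξ
      · simp [h2]
    · rw [Finsupp.add_apply, Finsupp.notMem_support_iff.1 hξ, add_zero]
      exact Sm.abs_le hG h1 ξ

theorem Sm.isRat {𝒢 : Set (ι →₀ ℝ)} (hG : ∀ g ∈ 𝒢, IsRat g) :
    ∀ {n : ℕ} {f : ι →₀ ℝ}, Sm 𝒢 n f → IsRat f
  | 0, _, h => by cases h; exact IsRat.zero
  | _ + 1, _, ⟨h', g, h1, h2, _, h4⟩ => by
    subst h4
    refine (Sm.isRat hG h1).add ?_
    rcases h2 with h2 | h2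
    · exact hG g h2
    · rw [h2]; exact IsRat.zero

theorem Wt.mono {𝒢 𝒢' : Set (ι →₀ ℝ)} (h : 𝒢 ⊆ 𝒢') {j : ℕ} {f : ι →₀ ℝ} (hf : Wt 𝒢 j f) :
    Wt 𝒢' j f := by
  obtain ⟨g, h1, h2⟩ := hf
  exact ⟨g, h1.mono h, h2⟩

theorem Wt.zero (𝒢 : Set (ι →₀ ℝ)) (j : ℕ) : Wt 𝒢 j 0 := ⟨0, Sm.zero _ _, (smul_zero _).symm⟩

theorem Wt.map {𝒢 : Set (ι →₀ ℝ)} (T : (ι →₀ ℝ) →ₗ[ℝ] (ι →₀ ℝ))
    (hT : ∀ g, (T g).support ⊆ g.support) (hG : ∀ g ∈ 𝒢, T g ∈ 𝒢) {j : ℕ} {f : ι →₀ ℝ}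
    (hf : Wt 𝒢 j f) : Wt 𝒢 j (T f) := by
  obtain ⟨g, h1, h2⟩ := hf
  exact ⟨T g, h1.map T hT hG, by rw [h2, map_smul]⟩

theorem Wt.abs_le' {𝒢 : Set (ι →₀ ℝ)} (hG : ∀ g ∈ 𝒢, ∀ ξ, |g ξ| ≤ 1) {j : ℕ} {f : ι →₀ ℝ}
    (hf : Wt 𝒢 j f) (ξ : ι) : |f ξ| ≤ (mm j)⁻¹ := by
  obtain ⟨g, h1, rfl⟩ := hf
  rw [Finsupp.smul_apply, smul_eq_mul, abs_mul, abs_of_pos (inv_pos.2 (mm_pos j))]
  exact mul_le_of_le_one_right (inv_pos.2 (mm_pos j)).le (h1.abs_le hG ξ)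

theorem Wt.isRat' {𝒢 : Set (ι →₀ ℝ)} (hG : ∀ g ∈ 𝒢, IsRat g) {j : ℕ} {f : ι →₀ ℝ}
    (hf : Wt 𝒢 j f) : IsRat f := by
  obtain ⟨g, h1, rfl⟩ := hf
  have := (h1.isRat hG).smul ((2 : ℚ) ^ (j + 2))⁻¹
  simpa [mm] using this

/-! ### special sequences and segments -/

namespace Cod

variable (K : Cod ι)

theorem Spec.mono {K : Cod ι} {𝒢 𝒢' : Set (ι →₀ ℝ)} (h : 𝒢 ⊆ 𝒢') {t f w p}
    (hs : K.Spec 𝒢 t f w p) : K.Spec 𝒢' t f w p :=
  ⟨fun l hl => (hs.1 l hl).mono h, hs.2.1, hs.2.2⟩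

theorem Spec.of_le {K : Cod ι} {𝒢 : Set (ι →₀ ℝ)} {t t' f w p}
    (hs : K.Spec 𝒢 t f w p) (h : t' ≤ t) : K.Spec 𝒢 t' f w p :=
  ⟨fun l hl => hs.1 l (by omega), fun l l' a b => hs.2.1 l l' a (by omega),
    fun l hl => hs.2.2 l (by omega)⟩

theorem Spec.w_lt_succ {K : Cod ι} {𝒢 : Set (ι →₀ ℝ)} {t f w p}
    (hs : K.Spec 𝒢 t f w p) {l : ℕ} (hl : l + 1 < t) : w l < w (l + 1) := by
  obtain ⟨h1, -, h3⟩ := hs.2.2 l hl
  rw [h3]
  exact h1.trans_lt (K.lt_code _ _)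

theorem Spec.w_lt {K : Cod ι} {𝒢 : Set (ι →₀ ℝ)} {t f w p}
    (hs : K.Spec 𝒢 t f w p) {l l' : ℕ} (h : l < l') (hl : l' < t) : w l < w l' := by
  induction h with
  | refl => exact hs.w_lt_succ hl
  | step _ ih => exact (ih (by omega)).trans (hs.w_lt_succ hl)

theorem Spec.w_le {K : Cod ι} {𝒢 : Set (ι →₀ ℝ)} {t f w p}
    (hs : K.Spec 𝒢 t f w p) {l l' : ℕ} (h : l ≤ l') (hl : l' < t) : w l ≤ w l' := by
  rcases h.eq_or_lt with rfl | h
  exacts [le_rfl, (hs.w_lt h hl).le]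

theorem Spec.lt_of_w_lt {K : Cod ι} {𝒢 : Set (ι →₀ ℝ)} {t f w p}
    (hs : K.Spec 𝒢 t f w p) {l l' : ℕ} (hl : l < t) (h : w l < w l') : l < l' := by
  by_contra h'
  exact absurd (hs.w_le (not_lt.1 h') hl) (not_le.2 h)

theorem Spec.le_w {K : Cod ι} {𝒢 : Set (ι →₀ ℝ)} {t f w p}
    (hs : K.Spec 𝒢 t f w p) {l : ℕ} (hl : l < t) : l ≤ w l := by
  induction l with
  | zero => exact Nat.zero_le _
  | succ l ih => have := ih (by omega); have := hs.w_lt_succ hl; omega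

theorem Spec.w_inj {K : Cod ι} {𝒢 : Set (ι →₀ ℝ)} {t f w p}
    (hs : K.Spec 𝒢 t f w p) {l l' : ℕ} (hl : l < t) (hl' : l' < t) (h : w l = w l') : l = l' := by
  rcases lt_trichotomy l l' with h1 | h1 | h1
  · exact absurd h (hs.w_lt h1 hl').ne
  · exact h1
  · exact absurd h (hs.w_lt h1 hl).ne'

end Cod

omit [LinearOrder ι] in
theorem Seg.mem_idx {s : Seg ι} {l : ℕ} : l ∈ s.idx ↔ l < s.t ∧ s.θ ≤ s.w l := by
  simp [Seg.idx]

omit [LinearOrder ι] in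
theorem Seg.mem_wts {s : Seg ι} {w : ℕ} : w ∈ s.wts ↔ ∃ l, l < s.t ∧ s.θ ≤ s.w l ∧ s.w l = w := by
  simp [Seg.wts, Seg.mem_idx, and_assoc]

omit [LinearOrder ι] in
theorem Seg.le_of_mem_wts {s : Seg ι} {w : ℕ} (h : w ∈ s.wts) : s.θ ≤ w := by
  obtain ⟨l, -, h1, rfl⟩ := Seg.mem_wts.1 h
  exact h1

omit [LinearOrder ι] in
theorem Seg.val_eq (s : Seg ι) : s.val = ∑ l ∈ s.idx, res s.E (s.f l) := by
  rw [Seg.val, map_sum]

omit [LinearOrder ι] in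
theorem Seg.idx_raise (s : Seg ι) (J : ℕ) :
    (s.raise J).idx = s.idx.filter (fun l => J ≤ s.w l) := by
  ext l
  simp [Seg.mem_idx, Seg.raise, and_assoc]

omit [LinearOrder ι] in
theorem Seg.wts_raise_subset (s : Seg ι) (J : ℕ) : (s.raise J).wts ⊆ s.wts := by
  intro w hw
  obtain ⟨l, h1, h2, h3⟩ := Seg.mem_wts.1 hw
  exact Seg.mem_wts.2 ⟨l, h1, (le_max_left _ _).trans h2, h3⟩

omit [LinearOrder ι] in
theorem Seg.le_raise_θ (s : Seg ι) (J : ℕ) : J ≤ (s.raise J).θ := le_max_right _ _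

omit [LinearOrder ι] in
theorem Seg.raise_raise (s : Seg ι) (J J' : ℕ) : (s.raise J).raise J' = s.raise (max J J') := by
  simp [Seg.raise, max_assoc]

omit [LinearOrder ι] in
/-- splitting a segment at a threshold -/
theorem Seg.val_split (s : Seg ι) (J : ℕ) :
    s.val = ∑ l ∈ s.idx.filter (fun l => s.w l < J), res s.E (s.f l) + (s.raise J).val := by
  rw [Seg.val_eq, Seg.val_eq, Seg.idx_raise,
    ← Finset.sum_filter_add_sum_filter_not s.idx (fun l => s.w l < J)]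
  simp only [not_lt]
  rfl

omit [LinearOrder ι] in
theorem Seg.val_cut (s : Seg ι) (E : Set ι) : (s.cut E).val = res E s.val := by
  rw [Seg.val, Seg.val, res_res]; rfl

omit [LinearOrder ι] in
theorem Seg.wts_cut (s : Seg ι) (E : Set ι) : (s.cut E).wts = s.wts := rfl

namespace Cod

variable {K : Cod ι}

theorem Valid.mono {𝒢 𝒢' : Set (ι →₀ ℝ)} (h : 𝒢 ⊆ 𝒢') {s : Seg ι} (hs : K.Valid 𝒢 s) :
    K.Valid 𝒢' s := ⟨hs.1.mono h, hs.2⟩

theorem Valid.raise {𝒢 : Set (ι →₀ ℝ)} {s : Seg ι} (hs : K.Valid 𝒢 s) (J : ℕ) :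
    K.Valid 𝒢 (s.raise J) := hs

theorem Valid.cut {𝒢 : Set (ι →₀ ℝ)} {s : Seg ι} (hs : K.Valid 𝒢 s) {E : Set ι}
    (hE : E.OrdConnected) : K.Valid 𝒢 (s.cut E) := ⟨hs.1, hs.2.inter hE⟩

/-- sums over the terms of a family of segments with disjoint weights are sums over weights -/
theorem exists_sum_wts {𝒢 : Set (ι →₀ ℝ)} {κ : Type*} (A : Finset κ) (s : κ → Seg ι)
    (hv : ∀ i ∈ A, K.Valid 𝒢 (s i))
    (hd : ∀ i ∈ A, ∀ i' ∈ A, i ≠ i' → Disjoint (s i).wts (s i').wts)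
    (P : ℕ → Prop) [DecidablePred P] :
    ∃ Ω : Finset ℕ, (∀ w ∈ Ω, P w ∧ ∃ i ∈ A, w ∈ (s i).wts) ∧ ∀ φ : ℕ → ℝ,
      ∑ i ∈ A, ∑ l ∈ (s i).idx.filter (fun l => P ((s i).w l)), φ ((s i).w l) = ∑ w ∈ Ω, φ w := by
  classical
  refine ⟨A.biUnion fun i => (s i).wts.filter P, fun w hw => ?_, fun φ => ?_⟩
  · obtain ⟨i, hi, hw⟩ := Finset.mem_biUnion.1 hw
    exact ⟨(Finset.mem_filter.1 hw).2, i, hi, (Finset.mem_filter.1 hw).1⟩
  · rw [Finset.sum_biUnion]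
    · refine Finset.sum_congr rfl fun i hi => ?_
      rw [Seg.wts, Finset.filter_image, Finset.sum_image]
      intro l hl l' hl' h
      exact (hv i hi).1.w_inj (Seg.mem_idx.1 (Finset.mem_filter.1 hl).1).1
        (Seg.mem_idx.1 (Finset.mem_filter.1 hl').1).1 h
    · intro i hi i' hi' hne
      exact Finset.disjoint_filter_filter (hd i hi i' hi' hne)

theorem sum_inv_mm_family {𝒢 : Set (ι →₀ ℝ)} {κ : Type*} (A : Finset κ) (s : κ → Seg ι)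
    (hv : ∀ i ∈ A, K.Valid 𝒢 (s i))
    (hd : ∀ i ∈ A, ∀ i' ∈ A, i ≠ i' → Disjoint (s i).wts (s i').wts)
    (P : ℕ → Prop) [DecidablePred P] {J : ℕ} (hJ : ∀ i ∈ A, ∀ w ∈ (s i).wts, J ≤ w) :
    ∑ i ∈ A, ∑ l ∈ (s i).idx.filter (fun l => P ((s i).w l)), (mm ((s i).w l))⁻¹ ≤ 2 / mm J := by
  obtain ⟨Ω, h1, h2⟩ := exists_sum_wts A s hv hd P
  rw [h2 fun w => (mm w)⁻¹]
  exact sum_inv_mm_le fun w hw => by
    obtain ⟨-, i, hi, h⟩ := h1 w hw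
    exact hJ i hi w h

theorem abs_family_le {𝒢 : Set (ι →₀ ℝ)} (hG : ∀ g ∈ 𝒢, ∀ ξ, |g ξ| ≤ 1) {κ : Type*}
    (A : Finset κ) (s : κ → Seg ι) (hv : ∀ i ∈ A, K.Valid 𝒢 (s i))
    (hd : ∀ i ∈ A, ∀ i' ∈ A, i ≠ i' → Disjoint (s i).wts (s i').wts)
    {J : ℕ} (hJ : ∀ i ∈ A, ∀ w ∈ (s i).wts, J ≤ w) (ξ : ι) :
    ∑ i ∈ A, |(s i).val ξ| ≤ 2 / mm J := by
  refine le_trans (Finset.sum_le_sum fun i hi => ?_)
    (sum_inv_mm_family A s hv hd (fun _ => True) hJ)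
  rw [Seg.val_eq, Finsupp.finsetSum_apply, Finset.filter_true]
  refine (Finset.abs_sum_le_sum_abs _ _).trans (Finset.sum_le_sum fun l hl => ?_)
  exact (abs_res_apply_le _ _ _).trans
    (((hv i hi).1.1 l (Seg.mem_idx.1 hl).1).abs_le' hG ξ)

theorem step_mono {𝒢 𝒢' : Set (ι →₀ ℝ)} (h : 𝒢 ⊆ 𝒢') : K.step 𝒢 ⊆ K.step 𝒢' := by
  rintro g (hg | ⟨d, s, ε, h1, h2, h3, h4, h5⟩)
  · exact Or.inl hg
  · exact Or.inr ⟨d, s, ε, fun i hi => (h1 i hi).mono h, h2, h3, h4, h5⟩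

theorem G_subset {𝒢 : Set (ι →₀ ℝ)} (h : K.step 𝒢 ⊆ 𝒢) : K.G ⊆ 𝒢 :=
  Set.sInter_subset_of_mem h

theorem step_G_subset : K.step K.G ⊆ K.G :=
  Set.subset_sInter fun _ h => (step_mono (G_subset h)).trans h

theorem G_subset_step : K.G ⊆ K.step K.G := G_subset (step_mono step_G_subset)

theorem mem_G_iff {g : ι →₀ ℝ} : g ∈ K.G ↔
    (∃ ξ, g = Finsupp.single ξ 1 ∨ g = Finsupp.single ξ (-1)) ∨ K.Bt K.G g :=
  ⟨fun h => G_subset_step h, fun h => step_G_subset h⟩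

theorem single_mem (ξ : ι) : Finsupp.single ξ 1 ∈ K.G := mem_G_iff.2 (Or.inl ⟨ξ, Or.inl rfl⟩)

theorem zero_mem : (0 : ι →₀ ℝ) ∈ K.G :=
  mem_G_iff.2 (Or.inr ⟨0, fun _ => ⟨0, 0, 0, 0, 0, ∅⟩, 0, by simp, by simp, by simp, by simp,
    by simp⟩)

theorem neg_mem {g : ι →₀ ℝ} (hg : g ∈ K.G) : -g ∈ K.G := by
  rcases mem_G_iff.1 hg with ⟨ξ, rfl | rfl⟩ | ⟨d, s, ε, h1, h2, h3, h4, rfl⟩
  · exact mem_G_iff.2 (Or.inl ⟨ξ, Or.inr (by simp)⟩)
  · exact mem_G_iff.2 (Or.inl ⟨ξ, Or.inl (by simp)⟩)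
  · refine mem_G_iff.2 (Or.inr ⟨d, s, fun i => -ε i, h1, fun i hi => ?_, h3, h4, ?_⟩)
    · rcases h2 i hi with h | h <;> simp [h]
    · simp

theorem res_mem {g : ι →₀ ℝ} (hg : g ∈ K.G) {E : Set ι} (hE : E.OrdConnected) :
    res E g ∈ K.G := by
  rcases mem_G_iff.1 hg with ⟨ξ, h⟩ | ⟨d, s, ε, h1, h2, h3, h4, rfl⟩
  · by_cases hξ : ξ ∈ E
    · rw [res_eq_self]
      · exact hg
      · rcases h with rfl | rfl <;> simp [hξ]
    · rw [res_eq_zero]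
      · exact zero_mem
      · rcases h with rfl | rfl <;> simp [hξ]
  · refine mem_G_iff.2 (Or.inr ⟨d, fun i => (s i).cut E, ε, fun i hi => (h1 i hi).cut hE, h2,
      h3, h4, ?_⟩)
    simp [map_sum, Seg.val_cut]

theorem abs_le_one {g : ι →₀ ℝ} (hg : g ∈ K.G) (ξ : ι) : |g ξ| ≤ 1 := by
  have : K.G ⊆ {g | ∀ ξ, |g ξ| ≤ 1} := by
    refine G_subset ?_
    rintro g (⟨ζ, rfl | rfl⟩ | ⟨d, s, ε, h1, h2, h3, -, rfl⟩) ξ
    · by_cases h : ζ = ξ <;> simp [h]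
    · by_cases h : ζ = ξ <;> simp [h]
    · have := abs_family_le (K := K) (𝒢 := {g | ∀ ξ, |g ξ| ≤ 1}) (fun g hg => hg) (range d) s
        (fun i hi => h1 i (Finset.mem_range.1 hi))
        (fun i hi i' hi' => h3 i (Finset.mem_range.1 hi) i' (Finset.mem_range.1 hi'))
        (J := 0) (fun _ _ _ _ => Nat.zero_le _) ξ
      have h0 : mm 0 = 4 := by norm_num [mm]
      rw [h0] at this
      rw [Finsupp.finsetSum_apply]
      refine (Finset.abs_sum_le_sum_abs _ _).trans (le_trans (le_of_eq ?_) (this.trans (by norm_num)))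
      refine Finset.sum_congr rfl fun i hi => ?_
      rcases h2 i (Finset.mem_range.1 hi) with h | h <;> simp [h]
  exact this hg ξ

theorem isRat_of_mem {g : ι →₀ ℝ} (hg : g ∈ K.G) : IsRat g := by
  have : K.G ⊆ {g | IsRat g} := by
    refine G_subset ?_
    rintro g (⟨ζ, rfl | rfl⟩ | ⟨d, s, ε, h1, h2, -, -, rfl⟩)
    · intro ξ
      by_cases h : ζ = ξ
      · exact ⟨1, by simp [h]⟩
      · exact ⟨0, by simp [h]⟩
    · intro ξ
      by_cases h : ζ = ξ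
      · exact ⟨-1, by simp [h]⟩
      · exact ⟨0, by simp [h]⟩
    · refine IsRat.sum fun i hi => ?_
      have hv : IsRat (s i).val := by
        refine IsRat.restrict (IsRat.sum fun l hl => ?_) _
        exact ((h1 i (Finset.mem_range.1 hi)).1.1 l (Seg.mem_idx.1 hl).1).isRat' fun g hg => hg
      rcases h2 i (Finset.mem_range.1 hi) with h | h
      · simpa [h] using hv
      · have := hv.smul (-1)
        simpa [h] using this
  exact this hg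

/-- signed sums of admissible families of segments belong to the norming set -/
theorem family_mem {κ : Type*} (A : Finset κ) (s : κ → Seg ι) (ε : κ → ℝ)
    (hv : ∀ i ∈ A, K.Valid K.G (s i)) (hε : ∀ i ∈ A, ε i = 1 ∨ ε i = -1)
    (hd : ∀ i ∈ A, ∀ i' ∈ A, i ≠ i' → Disjoint (s i).wts (s i').wts)
    (hc : ∀ i ∈ A, ∀ w ∈ (s i).wts, A.card ≤ w + 1) : ∑ i ∈ A, ε i • (s i).val ∈ K.G := by
  classical
  rcases A.eq_empty_or_nonempty with rfl | ⟨i₀, hi₀⟩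
  · simpa using zero_mem
  let e := A.equivFin.symm
  let π : ℕ → κ := fun n => if h : n < A.card then (e ⟨n, h⟩ : κ) else i₀
  have hπ : ∀ n (h : n < A.card), π n = (e ⟨n, h⟩ : κ) := fun n h => dif_pos h
  have hm : ∀ n < A.card, π n ∈ A := fun n h => by rw [hπ n h]; exact (e _).2
  refine mem_G_iff.2 (Or.inr ⟨A.card, fun n => s (π n), fun n => ε (π n),
    fun n h => hv _ (hm n h), fun n h => hε _ (hm n h), fun n h n' h' hne => ?_,
    fun n h => hc _ (hm n h), ?_⟩)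
  · refine hd _ (hm n h) _ (hm n' h') fun heq => hne ?_
    rw [hπ n h, hπ n' h'] at heq
    simpa using e.injective (Subtype.ext heq)
  · rw [Finset.sum_range, ← Finset.sum_coe_sort A, ← e.sum_comp]
    exact Finset.sum_congr rfl fun n _ => by simp only [hπ n n.2]

theorem Valid.val_mem {s : Seg ι} (hs : K.Valid K.G s) : s.val ∈ K.G := by
  simpa using family_mem (K := K) ({()} : Finset Unit) (fun _ => s) (fun _ => 1)
    (fun _ _ => hs) (fun _ _ => Or.inl rfl) (fun _ _ _ _ h => absurd rfl h) (by simp)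

theorem Spec.sum_mem {t f w p} (hs : K.Spec K.G t f w p) : ∑ l ∈ range t, f l ∈ K.G := by
  have := Valid.val_mem (K := K) (s := ⟨t, 0, f, w, p, Set.univ⟩) ⟨hs, Set.ordConnected_univ⟩
  simpa [Seg.val, Seg.idx, res_univ] using this

theorem Valid.full_mem {s : Seg ι} (hs : K.Valid K.G s) : s.full ∈ K.G := hs.1.sum_mem

theorem wt_mem {j : ℕ} {f : ι →₀ ℝ} (hf : Wt K.G j f) : f ∈ K.G := by
  have : K.Spec K.G 1 (fun _ => f) (fun _ => j) (fun _ => 0) :=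
    ⟨fun _ _ => hf, fun l l' h1 h2 => by omega, fun l h => by omega⟩
  simpa using this.sum_mem

theorem wt_res {j : ℕ} {f : ι →₀ ℝ} (hf : Wt K.G j f) {E : Set ι} (hE : E.OrdConnected) :
    Wt K.G j (res E f) := hf.map (res E) (support_res_subset E) fun _ hg => res_mem hg hE

theorem sm_res {n : ℕ} {f : ι →₀ ℝ} (hf : Sm K.G n f) {E : Set ι} (hE : E.OrdConnected) :
    Sm K.G n (res E f) := hf.map (res E) (support_res_subset E) fun _ hg => res_mem hg hE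

theorem wt_neg {j : ℕ} {f : ι →₀ ℝ} (hf : Wt K.G j f) : Wt K.G j (-f) :=
  hf.map (-LinearMap.id) (fun g => by simp) fun _ hg => neg_mem hg

theorem wt_abs_le {j : ℕ} {f : ι →₀ ℝ} (hf : Wt K.G j f) (ξ : ι) : |f ξ| ≤ (mm j)⁻¹ :=
  hf.abs_le' (fun _ hg => abs_le_one hg) ξ

theorem Valid.wt_term {s : Seg ι} (hs : K.Valid K.G s) {l : ℕ} (hl : l < s.t) :
    Wt K.G (s.w l) (res s.E (s.f l)) := wt_res (hs.1.1 l hl) hs.2

theorem Valid.abs_val_le {s : Seg ι} (hs : K.Valid K.G s) (ξ : ι) : |s.val ξ| ≤ 2 / mm s.θ := by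
  simpa using abs_family_le (K := K) (fun _ hg => abs_le_one hg) ({()} : Finset Unit)
    (fun _ => s) (fun _ _ => hs) (fun _ _ _ _ h => absurd rfl h) (J := s.θ)
    (fun _ _ _ h => Seg.le_of_mem_wts h) ξ

/-! ### the norm -/

theorem bddAbove_ev (y : ι →₀ ℝ) : BddAbove ((fun g : ι →₀ ℝ => ev g y) '' K.G) := by
  refine ⟨1 * l1 y, ?_⟩
  rintro _ ⟨g, hg, rfl⟩
  exact (le_abs_self _).trans (abs_ev_le_l1 (abs_le_one hg) y)

theorem ev_le_N {g : ι →₀ ℝ} (hg : g ∈ K.G) (y : ι →₀ ℝ) : ev g y ≤ K.N y :=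
  le_csSup (bddAbove_ev y) ⟨g, hg, rfl⟩

theorem abs_ev_le_N {g : ι →₀ ℝ} (hg : g ∈ K.G) (y : ι →₀ ℝ) : |ev g y| ≤ K.N y := by
  refine abs_le.2 ⟨?_, ev_le_N hg y⟩
  have := ev_le_N (neg_mem hg) y
  rw [ev_neg_left] at this
  linarith

theorem N_le {y : ι →₀ ℝ} {C : ℝ} (h : ∀ g ∈ K.G, ev g y ≤ C) : K.N y ≤ C :=
  csSup_le ⟨_, 0, zero_mem, rfl⟩ (by rintro _ ⟨g, hg, rfl⟩; exact h g hg)

theorem N_nonneg (y : ι →₀ ℝ) : 0 ≤ K.N y := (abs_nonneg _).trans (abs_ev_le_N zero_mem y)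

theorem N_le_l1 (y : ι →₀ ℝ) : K.N y ≤ l1 y := N_le fun g hg => by
  simpa using (le_abs_self _).trans (abs_ev_le_l1 (abs_le_one hg) y)

theorem N_add_le (x y : ι →₀ ℝ) : K.N (x + y) ≤ K.N x + K.N y := N_le fun g hg => by
  rw [map_add]; exact add_le_add (ev_le_N hg x) (ev_le_N hg y)

theorem N_smul_le (c : ℝ) (y : ι →₀ ℝ) : K.N (c • y) ≤ |c| * K.N y := N_le fun g hg => by
  rw [map_smul, smul_eq_mul]
  refine (le_abs_self _).trans ?_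
  rw [abs_mul]
  exact mul_le_mul_of_nonneg_left (abs_ev_le_N hg y) (abs_nonneg c)

theorem N_zero : K.N 0 = 0 :=
  le_antisymm (N_le fun g _ => by simp) (N_nonneg 0)

/-- the norm as a seminorm -/
noncomputable def NS (K : Cod ι) : Seminorm ℝ (ι →₀ ℝ) :=
  Seminorm.ofSMulLE K.N N_zero N_add_le fun c y => by simpa using N_smul_le c y

theorem NS_apply (y : ι →₀ ℝ) : K.NS y = K.N y := rfl

theorem N_smul (c : ℝ) (y : ι →₀ ℝ) : K.N (c • y) = |c| * K.N y := by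
  simpa [NS_apply] using map_smul_eq_mul K.NS c y

theorem N_neg (y : ι →₀ ℝ) : K.N (-y) = K.N y := map_neg_eq_map K.NS y

theorem N_sum_le {κ : Type*} (A : Finset κ) (x : κ → ι →₀ ℝ) :
    K.N (∑ i ∈ A, x i) ≤ ∑ i ∈ A, K.N (x i) :=
  N_le fun g hg => by rw [map_sum]; exact Finset.sum_le_sum fun i _ => ev_le_N hg _

theorem N_res_le {E : Set ι} (hE : E.OrdConnected) (y : ι →₀ ℝ) : K.N (res E y) ≤ K.N y :=
  N_le fun g hg => by rw [← ev_res]; exact ev_le_N (res_mem hg hE) y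

theorem coord_le_N (y : ι →₀ ℝ) (ξ : ι) : |y ξ| ≤ K.N y := by
  simpa [ev_single_left] using abs_ev_le_N (K := K) (single_mem ξ) y

theorem N_pos {y : ι →₀ ℝ} (hy : y ≠ 0) : 0 < K.N y := by
  obtain ⟨ξ, hξ⟩ := Finsupp.support_nonempty_iff.2 hy
  exact (abs_pos.2 (Finsupp.mem_support_iff.1 hξ)).trans_le (coord_le_N y ξ)

theorem N_single_le (ξ : ι) : K.N (Finsupp.single ξ 1) ≤ 1 := N_le fun g hg => by
  rw [ev_single, one_mul]; exact (le_abs_self _).trans (abs_le_one hg ξ)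

theorem exists_norming (y : ι →₀ ℝ) {ε : ℝ} (hε : 0 < ε) :
    ∃ g ∈ K.G, (g.support : Set ι) ⊆ hull y ∧ K.N y - ε < ev g y := by
  obtain ⟨_, ⟨g, hg, rfl⟩, h⟩ := exists_lt_of_lt_csSup (s := (fun g : ι →₀ ℝ => ev g y) '' K.G)
    ⟨_, 0, zero_mem, rfl⟩ (show K.N y - ε < _ from sub_lt_self _ hε)
  refine ⟨res (hull y) g, res_mem hg (ordConnected_hull y), support_res_subset' _ _, ?_⟩
  rwa [ev_res, res_hull_self]

/-- a sum of at most `nn j` successive norming functionals has norm at most `mm j` -/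
theorem sm_ev_le {j : ℕ} {h : ι →₀ ℝ} (hh : Sm K.G (nn j) h) (y : ι →₀ ℝ) :
    |ev h y| ≤ mm j * K.N y := by
  have := abs_ev_le_N (wt_mem (K := K) ⟨h, hh, rfl⟩) y
  rw [ev_smul_left, abs_mul, abs_of_pos (inv_pos.2 (mm_pos j)),
    inv_mul_le_iff₀ (mm_pos j)] at this
  exact this

/-- norming functionals for successive vectors -/
theorem exists_sm_norming {M : ℕ} {x : ℕ → ι →₀ ℝ}
    (hx : ∀ i i', i < i' → i' < M → Lt (x i) (x i')) {ε : ℝ} (hε : 0 < ε) :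
    ∃ h, Sm K.G M h ∧ (h.support : Set ι) ⊆ hull (∑ i ∈ range M, x i) ∧
      ∑ i ∈ range M, (K.N (x i) - ε) ≤ ev h (∑ i ∈ range M, x i) := by
  choose g hg hs hev using fun i => exists_norming (K := K) (x i) hε
  have hlt : ∀ i i', i < i' → i' < M → Lt (g i) (g i') := fun i i' a b =>
    (hx i i' a b).of_hull (hs i) (hs i')
  refine ⟨∑ i ∈ range M, g i, by simpa using Sm.sum (fun i _ => Sm.one (hg i)) hlt, ?_, ?_⟩
  · intro ξ hξ
    obtain ⟨i, hi, hξ⟩ := exists_of_mem_support_sum hξ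
    exact hull_mono (support_subset_sum_of_succ
      (fun l _ l' hl' h => hx l l' h (Finset.mem_range.1 hl')) hi) (hs i hξ)
  · rw [ev_sum_left]
    refine Finset.sum_le_sum fun i hi => ?_
    rw [map_sum, Finset.sum_eq_single i]
    · exact (hev i).le
    · intro b hb hne
      rcases lt_or_gt_of_ne hne with h | h
      · exact ((hx b i h (Finset.mem_range.1 hi)).of_hull (support_subset_hull _) (hs i)).ev_eq_zero'
      · exact ((hx i b h (Finset.mem_range.1 hb)).of_hull (hs i) (support_subset_hull _)).ev_eq_zero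
    · exact fun h => absurd hi h

theorem lower_estimate (R : ℝ) : ∃ n : ℕ, ∀ x : ℕ → ι →₀ ℝ,
    (∀ i i', i < i' → i' < n → Lt (x i) (x i')) → (∀ i < n, 1 ≤ K.N (x i)) →
      R ≤ K.N (∑ i ∈ range n, x i) := by
  obtain ⟨j, hj⟩ := exists_nat_ge (2 * R)
  refine ⟨nn j, fun x hx h1 => ?_⟩
  obtain ⟨h, hh, -, hev⟩ := exists_sm_norming (K := K) hx (ε := 1 / 2) (by norm_num)
  have h2 := (le_abs_self _).trans (sm_ev_le hh (∑ i ∈ range (nn j), x i))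
  have h3 : (nn j : ℝ) * (1 / 2) ≤ ∑ i ∈ range (nn j), (K.N (x i) - 1 / 2) := by
    have := Finset.card_nsmul_le_sum (range (nn j)) (fun i => K.N (x i) - 1 / 2) (1 / 2)
      fun i hi => by have := h1 i (Finset.mem_range.1 hi); linarith
    simpa using this
  have h4 : (j : ℝ) ≤ ((SS j : ℝ) + 2) ^ (j + 4) := by
    have h5 : (j : ℝ) ≤ SS j := by exact_mod_cast le_SS j
    have h6 : (1 : ℝ) ≤ (SS j : ℝ) + 2 := by have : (0 : ℝ) ≤ SS j := Nat.cast_nonneg _; linarith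
    calc (j : ℝ) ≤ ((SS j : ℝ) + 2) ^ 1 := by rw [pow_one]; linarith
      _ ≤ _ := pow_le_pow_right₀ h6 (by omega)
  rw [nn_cast] at h3
  have h5 := mm_pos j
  have : mm j * R ≤ mm j * K.N (∑ i ∈ range (nn j), x i) := by nlinarith
  exact le_of_mul_le_mul_left this h5

/-! ### the action of sums of successive functionals on successive vectors -/

theorem sm_step {x : ℕ → ι →₀ ℝ} {I₀ : Finset ℕ}
    (hx : ∀ i ∈ I₀, ∀ i' ∈ I₀, i < i' → Lt (x i) (x i')) {a b : ℝ} (ha : 0 ≤ a) (hb : 0 ≤ b)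
    (hG : ∀ g ∈ K.G, ∀ I ⊆ I₀, ∑ k ∈ I, |ev g (x k)| ≤ a * I.card + b) :
    ∀ {n : ℕ} {h : ι →₀ ℝ}, Sm K.G n h → ∀ I ⊆ I₀,
      ∑ k ∈ I, |ev h (x k)| ≤ a * (I.card + n) + n * b
  | 0, _, h, I, _ => by
    cases h
    simp only [ev_zero_left, abs_zero, Finset.sum_const_zero]
    positivity
  | n + 1, _, ⟨h', g, h1, h2, h3, h4⟩, I, hI => by
    classical
    subst h4
    have hg : g ∈ K.G := by
      rcases h2 with h2 | rfl
      exacts [h2, zero_mem]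
    set I₁ := I.filter fun k => ev h' (x k) ≠ 0
    set I₂ := I.filter fun k => ev g (x k) ≠ 0
    have e1 := sm_step hx ha hb hG h1 I₁ ((Finset.filter_subset _ _).trans hI)
    have e2 := hG g hg I₂ ((Finset.filter_subset _ _).trans hI)
    have e3 : ∑ k ∈ I, |ev h' (x k)| = ∑ k ∈ I₁, |ev h' (x k)| :=
      (Finset.sum_filter_of_ne fun k _ hk => by simpa using hk).symm
    have e4 : ∑ k ∈ I, |ev g (x k)| = ∑ k ∈ I₂, |ev g (x k)| :=
      (Finset.sum_filter_of_ne fun k _ hk => by simpa using hk).symm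
    have e5 : (I₁ ∩ I₂).card ≤ 1 := by
      have key : ∀ k ∈ I₁ ∩ I₂, ∀ k' ∈ I₁ ∩ I₂, ¬ k < k' := fun k hk k' hk' hlt => by
        obtain ⟨ξ, hξ, hξ'⟩ := exists_mem_of_ev_ne_zero
          (Finset.mem_filter.1 (Finset.mem_inter.1 hk).2).2
        obtain ⟨ζ, hζ, hζ'⟩ := exists_mem_of_ev_ne_zero
          (Finset.mem_filter.1 (Finset.mem_inter.1 hk').1).2
        have a1 := hx k (hI (Finset.mem_filter.1 (Finset.mem_inter.1 hk).2).1) k'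
          (hI (Finset.mem_filter.1 (Finset.mem_inter.1 hk').1).1) hlt ξ hξ ζ hζ
        have a2 := h3 ζ (Finsupp.mem_support_iff.2 hζ') ξ (Finsupp.mem_support_iff.2 hξ')
        exact lt_asymm a1 a2
      exact Finset.card_le_one.2 fun k hk k' hk' =>
        le_antisymm (not_lt.1 (key k' hk' k hk)) (not_lt.1 (key k hk k' hk'))
    have e6 : (I₁.card : ℝ) + I₂.card ≤ I.card + 1 := by
      have := Finset.card_union_add_card_inter I₁ I₂
      have := Finset.card_le_card (Finset.union_subset (Finset.filter_subset _ I)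
        (Finset.filter_subset _ I) : I₁ ∪ I₂ ⊆ I)
      exact_mod_cast (by omega : I₁.card + I₂.card ≤ I.card + 1)
    calc ∑ k ∈ I, |ev (h' + g : ι →₀ ℝ) (x k)|
        ≤ ∑ k ∈ I, (|ev h' (x k)| + |ev g (x k)|) :=
          Finset.sum_le_sum fun k _ => by rw [ev_add_left]; exact abs_add_le _ _
      _ = ∑ k ∈ I₁, |ev h' (x k)| + ∑ k ∈ I₂, |ev g (x k)| := by
          rw [Finset.sum_add_distrib, e3, e4]
      _ ≤ _ := by
          push_cast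
          nlinarith [mul_le_mul_of_nonneg_left e6 ha]

theorem wt_step {x : ℕ → ι →₀ ℝ} {I₀ : Finset ℕ}
    (hx : ∀ i ∈ I₀, ∀ i' ∈ I₀, i < i' → Lt (x i) (x i')) {a b : ℝ} (ha : 0 ≤ a) (hb : 0 ≤ b)
    (hG : ∀ g ∈ K.G, ∀ I ⊆ I₀, ∑ k ∈ I, |ev g (x k)| ≤ a * I.card + b)
    {w : ℕ} {f : ι →₀ ℝ} (hf : Wt K.G w f) {I : Finset ℕ} (hI : I ⊆ I₀) :
    ∑ k ∈ I, |ev f (x k)| ≤ (mm w)⁻¹ * (a * (I.card + nn w) + nn w * b) := by
  obtain ⟨h, hh, rfl⟩ := hf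
  have := sm_step hx ha hb hG hh I hI
  simp only [ev_smul_left, abs_mul, abs_of_pos (inv_pos.2 (mm_pos w)), ← Finset.mul_sum]
  exact mul_le_mul_of_nonneg_left this (inv_pos.2 (mm_pos w)).le

/-- long averages satisfy `R2` -/
theorem R2_avg {M J : ℕ} (hM : 0 < M) (hJ : SS J ≤ M) {z : ℕ → ι →₀ ℝ}
    (hz : ∀ i i', i < i' → i' < M → Lt (z i) (z i')) (h1 : ∀ i < M, K.N (z i) ≤ 1) :
    K.R2 ((M : ℝ)⁻¹ • ∑ i ∈ range M, z i) J := by
  intro w hw f hf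
  have := wt_step (K := K) (x := z) (I₀ := range M)
    (fun i _ i' hi' h => hz i i' h (Finset.mem_range.1 hi')) zero_le_one le_rfl
    (fun g hg I hI => by
      have := Finset.sum_le_card_nsmul I (fun k => |ev g (z k)|) 1 fun k hk =>
        (abs_ev_le_N hg _).trans (h1 k (Finset.mem_range.1 (hI hk)))
      simpa using this) hf subset_rfl
  have hM' : (0 : ℝ) < M := by exact_mod_cast hM
  have h2 : (nn w : ℝ) ≤ M := by exact_mod_cast (nn_le_SS hw).trans hJ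
  rw [map_smul, map_sum, smul_eq_mul, abs_mul, abs_of_pos (inv_pos.2 hM'), inv_mul_le_iff₀ hM']
  refine (Finset.abs_sum_le_sum_abs _ _).trans (this.trans ?_)
  rw [Finset.card_range, div_eq_mul_inv]
  have := inv_pos.2 (mm_pos w)
  nlinarith

theorem N_avg_le {M : ℕ} (hM : 0 < M) {z : ℕ → ι →₀ ℝ} (h1 : ∀ i < M, K.N (z i) ≤ 1) :
    K.N ((M : ℝ)⁻¹ • ∑ i ∈ range M, z i) ≤ 1 := by
  have hM' : (0 : ℝ) < M := by exact_mod_cast hM
  rw [N_smul, abs_of_pos (inv_pos.2 hM'), inv_mul_le_iff₀ hM']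
  refine (N_sum_le _ _).trans ?_
  have := Finset.sum_le_card_nsmul (range M) (fun k => K.N (z k)) 1 fun k hk =>
    h1 k (Finset.mem_range.1 hk)
  simpa using this

/-- the part of a family of segments with weights below `J` acts weakly on an `R2` vector -/
theorem R2.low_le {x : ι →₀ ℝ} {J : ℕ} (hx : K.R2 x J) {κ : Type*} (A : Finset κ) (s : κ → Seg ι)
    (hv : ∀ i ∈ A, K.Valid K.G (s i))
    (hd : ∀ i ∈ A, ∀ i' ∈ A, i ≠ i' → Disjoint (s i).wts (s i').wts)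
    {j : ℕ} (hj : ∀ i ∈ A, ∀ w ∈ (s i).wts, j ≤ w) :
    ∑ i ∈ A, |ev (s i).val x - ev ((s i).raise J).val x| ≤ 4 / mm j := by
  have := sum_inv_mm_family A s hv hd (fun w => w < J) hj
  have h4 : 4 / mm j = 2 * (2 / mm j) := by ring
  rw [h4]
  refine le_trans ?_ (mul_le_mul_of_nonneg_left this (by norm_num))
  rw [Finset.mul_sum]
  refine Finset.sum_le_sum fun i hi => ?_
  rw [(s i).val_split J, ev_add_left, add_sub_cancel_right, ev_sum_left, Finset.mul_sum]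
  refine (Finset.abs_sum_le_sum_abs _ _).trans (Finset.sum_le_sum fun l hl => ?_)
  obtain ⟨hl1, hl2⟩ := Finset.mem_filter.1 hl
  rw [← div_eq_mul_inv]
  exact hx _ hl2 _ ((hv i hi).wt_term (Seg.mem_idx.1 hl1).1)

theorem R2.low_le_one {x : ι →₀ ℝ} {J : ℕ} (hx : K.R2 x J) {s : Seg ι} (hs : K.Valid K.G s) :
    |ev s.val x - ev (s.raise J).val x| ≤ 4 / mm s.θ := by
  simpa using hx.low_le ({()} : Finset Unit) (fun _ => s) (fun _ _ => hs)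
    (fun _ _ _ _ h => absurd rfl h) (j := s.θ) (fun _ _ _ h => Seg.le_of_mem_wts h)

theorem exists_RB (K : Cod ι) (A : Finset ι) : ∃ p, ∀ p', p ≤ p' → K.RB p' A := by
  refine ⟨(A ×ˢ A).sup fun x => K.ρ x.1 x.2, fun p' hp a ha b hb _ => le_trans ?_ hp⟩
  exact Finset.le_sup (f := fun x : ι × ι => K.ρ x.1 x.2) (b := (a, b))
    (Finset.mem_product.2 ⟨ha, hb⟩)

/-! ### the coding -/

theorem pos_lt {p : ℕ} {a b : ι} (hab : a < b) (h : K.ρ a b ≤ p) : K.pos p a < K.pos p b := by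
  refine Set.ncard_lt_ncard ⟨fun c hc => ⟨hc.1.trans hab.le, ?_⟩, fun h' => ?_⟩ (K.ρ_fin b p)
  · exact (K.ρ_le₁ c a b hc.1 hab.le).trans (max_le hc.2 h)
  · exact absurd (h' ⟨le_rfl, by rw [K.ρ_self]; exact Nat.zero_le _⟩).1 (not_le.2 hab)

theorem mapDomain_pos {p : ℕ} {H : ι →₀ ℝ} (hH : K.RB p H.support) {ξ η : ι}
    (hη : η ∈ H.support) (h1 : ξ ≤ η) (h2 : K.ρ ξ η ≤ p) :
    H.mapDomain (K.pos p) (K.pos p ξ) = H ξ := by
  have hRB : K.RB p (insert ξ (H.support : Set ι)) := by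
    rintro a (rfl | ha) b (rfl | hb) hab
    · rw [K.ρ_self]; exact Nat.zero_le _
    · rcases le_total η b with h | h
      · exact (K.ρ_le₁ a η b h1 h).trans (max_le h2 (hH η hη b hb h))
      · exact (K.ρ_le₂ a b η hab h).trans (max_le h2 (hH b hb η hη h))
    · exact (K.ρ_le₂ a b η hab h1).trans (max_le (hH a ha η hη (hab.trans h1)) h2)
    · exact hH a ha b hb hab
  refine Finsupp.mapDomain_apply' (insert ξ (H.support : Set ι)) H (Set.subset_insert _ _) ?_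
    (Set.mem_insert _ _)
  intro a ha b hb hab
  rcases lt_trichotomy a b with h | h | h
  · exact absurd hab (pos_lt h (hRB a ha b hb h.le)).ne
  · exact h
  · exact absurd hab (pos_lt h (hRB b hb a ha h.le)).ne'

/-- two special sequences sharing a weight have the same history below common levels -/
theorem link {t f w p t' f' w' p'} (hs : K.Spec K.G t f w p) (hs' : K.Spec K.G t' f' w' p')
    {a a' : ℕ} (ha : a + 1 < t) (ha' : a' + 1 < t') (hw : w (a + 1) = w' (a' + 1)) :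
    p a = p' a' ∧ ∀ ξ η η', η ∈ (∑ i ∈ range (a + 1), f i).support →
      η' ∈ (∑ i ∈ range (a' + 1), f' i).support → ξ ≤ η → ξ ≤ η' → K.ρ ξ η ≤ p a →
        K.ρ ξ η' ≤ p a → (∑ i ∈ range (a + 1), f i) ξ = (∑ i ∈ range (a' + 1), f' i) ξ := by
  obtain ⟨-, h2, h3⟩ := hs.2.2 a ha
  obtain ⟨-, h2', h3'⟩ := hs'.2.2 a' ha'
  rw [h3, h3'] at hw
  obtain ⟨e1, e2⟩ := K.code_inj _ _ _ _
    ((isRat_of_mem (hs.of_le ha.le).sum_mem).mapDomain _)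
    ((isRat_of_mem (hs'.of_le ha'.le).sum_mem).mapDomain _) hw
  refine ⟨e1, fun ξ η η' hη hη' h1 h1' h4 h4' => ?_⟩
  rw [← mapDomain_pos h2 hη h1 h4, e2, e1, mapDomain_pos h2' hη' h1' (e1 ▸ h4')]

end Cod

end Vale.Agent.P129
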