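import Vale.Agent.P129.CplxT

namespace Vale.Agent.P129

open Finset TopologicalSpace

theorem hasSepQuotient_of_prod (X : Type*) [NormedAddCommGroup X] [NormedSpace ℝ X]
    [CompleteSpace X] (h : HasSepQuotient ℝ (X × X)) : HasSepQuotient ℝ X := by
  obtain ⟨M, hmono, hcl, hsep, hinf, hd⟩ := cplx_exists_tower h
  by_cases hc : ∃ k, ∃ c : ℝ, 0 < c ∧ ∀ φ : StrongDual ℝ ((X × X) ⧸ M k),
      c * ‖φ.comp (M k).mkQL‖ ≤ ‖(φ.comp (M k).mkQL).comp (ContinuousLinearMap.inr ℝ X X)‖
  · obtain ⟨k, c, hc0, hc⟩ := hc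
    have := hcl k
    have := hsep k
    refine hasSepQuotient_of_surj (hinf k) ((M k).mkQL.comp (ContinuousLinearMap.inr ℝ X X))
      fun w => (surj_of_adjoint _ c hc0 (fun φ => ?_) w).imp fun _ hx => hx.1
    exact (mul_le_mul_of_nonneg_left (cplx_norm_le_comp_mkQL _ φ) hc0.le).trans (hc φ)
  · push Not at hc
    choose φ hφ using fun k => hc k ((1 / 2) ^ (k + 1)) (by positivity)
    set u : ℕ → StrongDual ℝ (X × X) := fun k => (φ k).comp (M k).mkQL with hu
    set a : ℕ → StrongDual ℝ X := fun k => (u k).comp (ContinuousLinearMap.inl ℝ X X) with ha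
    set b : ℕ → StrongDual ℝ X := fun k => (u k).comp (ContinuousLinearMap.inr ℝ X X) with hb
    have hφ' : ∀ k, ‖b k‖ < (1 / 2) ^ (k + 1) * ‖u k‖ := hφ
    have h1 : ∀ k, ‖u k‖ ≤ ‖a k‖ + ‖b k‖ := fun k => cplx_norm_le_prod (u k)
    have h2 : ∀ k, ‖u k‖ < 2 * ‖a k‖ := fun k => by
      have e1 : (1 / 2 : ℝ) ^ (k + 1) ≤ 1 / 2 := by
        rw [pow_succ]
        have : (1 / 2 : ℝ) ^ k ≤ 1 := pow_le_one₀ (by norm_num) (by norm_num)
        linarith
      have e2 := mul_le_mul_of_nonneg_right e1 (norm_nonneg (u k))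
      linarith [h1 k, hφ' k]
    have h3 : ∀ k, 0 < ‖a k‖ := fun k => by linarith [h2 k, norm_nonneg (u k)]
    have hζ : ∀ k, ‖‖a k‖⁻¹ • a k‖ = 1 := fun k => by
      rw [norm_smul, norm_inv, norm_norm, inv_mul_cancel₀ (h3 k).ne']
    refine hasSepQuotient_of_summable (fun k => ‖a k‖⁻¹ • a k) 1 one_pos (fun k => (hζ k).ge)
      (fun k => (hζ k).le)
      ((Prod.fst_surjective.denseRange.dense_image continuous_fst hd).mono ?_)
    rintro _ ⟨p, hp, rfl⟩
    obtain ⟨j, hj⟩ := Set.mem_iUnion.1 hp
    refine cplx_summable (j := j) (C := ‖p.2‖) (fun _ => norm_nonneg _) fun k hk => ?_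
    have h0 : (M k).mkQL p = 0 := (Submodule.Quotient.mk_eq_zero _).2 (hmono hk hj)
    have e1 : u k p = 0 := by rw [hu]; simp only [ContinuousLinearMap.comp_apply, h0, map_zero]
    have e2 : a k p.1 + b k p.2 = u k p := by simp [ha, hb, ← map_add]
    have e3 : a k p.1 = -b k p.2 := by linarith
    have e4 : ‖a k p.1‖ ≤ (1 / 2) ^ (k + 1) * (2 * ‖a k‖) * ‖p.2‖ := by
      rw [e3, norm_neg]
      refine (ContinuousLinearMap.le_opNorm _ _).trans
        (mul_le_mul_of_nonneg_right ((hφ' k).le.trans ?_) (norm_nonneg _))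
      exact mul_le_mul_of_nonneg_left (h2 k).le (by positivity)
    rw [_root_.smul_apply, norm_smul, norm_inv, norm_norm, inv_mul_le_iff₀ (h3 k)]
    refine e4.trans (le_of_eq ?_)
    ring

theorem cplx_real_of_surj {X Y W : Type*} [NormedAddCommGroup X] [NormedSpace ℝ X] [CompleteSpace X]
    [NormedAddCommGroup Y] [NormedSpace ℂ Y] [NormedAddCommGroup W] [NormedSpace ℂ W]
    [CompleteSpace W] [SeparableSpace W] (hW : ¬ FiniteDimensional ℂ W) (S : X →L[ℝ] Y)
    (hS : Function.Surjective S) (T : Y →L[ℂ] W) (hT : Function.Surjective T) :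
    HasSepQuotient ℝ X :=
  hasSepQuotient_of_surj (fun _ => hW (Module.Finite.of_restrictScalars_finite ℝ ℂ W))
    ((T.restrictScalars ℝ).comp S) (hT.comp hS)

/-- the complexification, as a space of real-linear maps on the complex plane -/
def Cx (X : Type) [NormedAddCommGroup X] [NormedSpace ℝ X] : Type := ℂ →L[ℝ] X

namespace Cx

variable {X : Type} [NormedAddCommGroup X] [NormedSpace ℝ X]

noncomputable instance : NormedAddCommGroup (Cx X) :=
  inferInstanceAs (NormedAddCommGroup (ℂ →L[ℝ] X))

instance [CompleteSpace X] : CompleteSpace (Cx X) := inferInstanceAs (CompleteSpace (ℂ →L[ℝ] X))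

/-- the underlying map -/
def val (T : Cx X) : ℂ →L[ℝ] X := T

theorem ext' {T T' : Cx X} (h : ∀ z, T.val z = T'.val z) : T = T' := ContinuousLinearMap.ext h

theorem val_add (T T' : Cx X) (z : ℂ) : (T + T').val z = T.val z + T'.val z := rfl

theorem val_zero (z : ℂ) : (0 : Cx X).val z = 0 := rfl

theorem norm_val (T : Cx X) : ‖T.val‖ = ‖T‖ := rfl

noncomputable instance : SMul ℂ (Cx X) :=
  ⟨fun c T => T.val.comp (ContinuousLinearMap.mul ℝ ℂ c)⟩

theorem val_smul (c : ℂ) (T : Cx X) (z : ℂ) : (c • T).val z = T.val (c * z) := rfl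

noncomputable instance : Module ℂ (Cx X) where
  one_smul T := ext' fun z => by rw [val_smul, one_mul]
  mul_smul c d T := ext' fun z => by rw [val_smul, val_smul, val_smul, mul_left_comm, mul_assoc]
  smul_zero c := ext' fun z => rfl
  smul_add c T T' := ext' fun z => rfl
  add_smul c d T := ext' fun z => by rw [val_add, val_smul, val_smul, val_smul, add_mul, map_add]
  zero_smul T := ext' fun z => by rw [val_smul, zero_mul, map_zero, val_zero]

noncomputable instance : NormedSpace ℂ (Cx X) where
  norm_smul_le c T := by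
    rw [← norm_val]
    refine ContinuousLinearMap.opNorm_le_bound _ (by positivity) fun z => ?_
    rw [val_smul]
    refine (T.val.le_opNorm _).trans (le_of_eq ?_)
    rw [norm_mul, norm_val]
    ring

/-- a pair of vectors as an element of the complexification -/
noncomputable def mk (p : X × X) : Cx X :=
  (Complex.reCLM.smulRight p.1 + Complex.imCLM.smulRight p.2 : ℂ →L[ℝ] X)

theorem val_mk (p : X × X) (z : ℂ) : (mk p).val z = z.re • p.1 + z.im • p.2 := rfl

/-- the real-linear identification -/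
noncomputable def S : (X × X) →L[ℝ] Cx X := LinearMap.mkContinuous
  { toFun := mk
    map_add' := fun p q => ext' fun z => by
      simp only [val_add, val_mk, Prod.fst_add, Prod.snd_add, smul_add]
      abel
    map_smul' := fun r p => ext' fun z => by
      rw [RingHom.id_apply, ← Complex.coe_smul, val_smul, val_mk, val_mk]
      simp [smul_smul, mul_comm] } 2
  fun p => by
    change ‖(mk p).val‖ ≤ _
    refine ContinuousLinearMap.opNorm_le_bound _ (by positivity) fun z => ?_
    rw [val_mk]
    refine (norm_add_le _ _).trans ?_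
    rw [norm_smul, norm_smul]
    have h1 := mul_le_mul (Complex.abs_re_le_norm z) (norm_fst_le p) (norm_nonneg _) (norm_nonneg _)
    have h2 := mul_le_mul (Complex.abs_im_le_norm z) (norm_snd_le p) (norm_nonneg _) (norm_nonneg _)
    rw [Real.norm_eq_abs, Real.norm_eq_abs]
    linarith

theorem S_surjective : Function.Surjective (S (X := X)) := fun T =>
  ⟨(T.val 1, T.val Complex.I), ext' fun z => by
    change (mk _).val z = _
    rw [val_mk, ← map_smul, ← map_smul, ← map_add]
    congr 1
    simp⟩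

theorem S_injective : Function.Injective (S (X := X)) := fun p q h => by
  have h1 : (mk p).val 1 = (mk q).val 1 := congrArg (fun T : Cx X => T.val 1) h
  have h2 : (mk p).val Complex.I = (mk q).val Complex.I :=
    congrArg (fun T : Cx X => T.val Complex.I) h
  rw [val_mk, val_mk] at h1 h2
  exact Prod.ext (by simpa using h1) (by simpa using h2)

end Cx

/-- complexification of a real counterexample -/
theorem exists_complex_of_real (X : Type) [NormedAddCommGroup X] [NormedSpace ℝ X]
    [CompleteSpace X] (hX : ¬ FiniteDimensional ℝ X) (h : ¬ HasSepQuotient ℝ X) :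
    ∃ (Y : Type) (_ : NormedAddCommGroup Y) (_ : NormedSpace ℂ Y) (_ : CompleteSpace Y),
      ¬ FiniteDimensional ℂ Y ∧ ¬ HasSepQuotient ℂ Y := by
  refine ⟨Cx X, inferInstance, inferInstance, inferInstance, fun hfin => hX ?_, ?_⟩
  · have h1 : Module.Finite ℝ (Cx X) := Module.Finite.trans ℂ (Cx X)
    have h2 : FiniteDimensional ℝ (X × X) :=
      FiniteDimensional.of_injective (Cx.S (X := X)).toLinearMap Cx.S_injective
    exact Module.Finite.of_surjective (LinearMap.fst ℝ X X) Prod.fst_surjective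
  · rintro ⟨M, hM, hsep, hinf⟩
    exact h (hasSepQuotient_of_prod X
      (cplx_real_of_surj hinf Cx.S Cx.S_surjective M.mkQL M.mkQ_surjective))

end Vale.Agent.P129
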