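import Vale.Agent.P129.CplxT

namespace Vale.Agent.P129

open Finset TopologicalSpace

theorem cplx_of_surj {X W : Type*} [NormedAddCommGroup X] [NormedSpace ℂ X] [CompleteSpace X]
    [NormedAddCommGroup W] [NormedSpace ℝ W] [CompleteSpace W] [SeparableSpace W]
    (hW : ¬ FiniteDimensional ℝ W) (T : X →L[ℝ] W) (hT : Function.Surjective T)
    (K : Submodule ℂ X) (hK : ∀ x, x ∈ K ↔ T x = 0) : HasSepQuotient ℂ X := by
  refine ⟨K, ?_, ?_, fun hfin => hW ?_⟩
  · have : (K : Set X) = T ⁻¹' {0} := Set.ext hK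
    rw [this]
    exact isClosed_singleton.preimage T.continuous
  · obtain ⟨D, hDc, hDd⟩ := exists_countable_dense W
    obtain ⟨s, hs⟩ := hT.hasRightInverse
    refine ⟨⟨(fun d => K.mkQ (s d)) '' D, hDc.image _, ?_⟩⟩
    rw [dense_iff_inter_open]
    rintro U hU ⟨q, hq⟩
    obtain ⟨x, rfl⟩ := K.mkQ_surjective q
    have hopen : IsOpen (T '' (K.mkQ ⁻¹' U)) :=
      T.isOpenMap hT _ (hU.preimage continuous_quot_mk)
    obtain ⟨d, ⟨y, hy, hyd⟩, hd⟩ := hDd.inter_open_nonempty _ hopen ⟨T x, x, hq, rfl⟩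
    refine ⟨K.mkQ (s d), ?_, d, hd, rfl⟩
    have : K.mkQ (s d) = K.mkQ y := by
      rw [Submodule.mkQ_apply, Submodule.mkQ_apply, Submodule.Quotient.eq, hK, map_sub, hs d, hyd,
        sub_self]
    rw [this]
    exact hy
  · have h1 : Module.Finite ℝ (X ⧸ K) := Module.Finite.trans ℂ (X ⧸ K)
    have h2 : Module.Finite ℝ (X ⧸ K.restrictScalars ℝ) :=
      Module.Finite.equiv (Submodule.Quotient.restrictScalarsEquiv ℝ K).symm
    have hle : K.restrictScalars ℝ ≤ LinearMap.ker T.toLinearMap := fun x hx => (hK x).1 hx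
    refine Module.Finite.of_surjective ((K.restrictScalars ℝ).liftQ _ hle) fun w => ?_
    obtain ⟨x, rfl⟩ := hT w
    exact ⟨Submodule.Quotient.mk x, rfl⟩

/-- a complex space with a real separable quotient has a complex one -/
theorem hasSepQuotient_complex_of_real (X : Type*) [NormedAddCommGroup X] [NormedSpace ℂ X]
    [CompleteSpace X] (h : HasSepQuotient ℝ X) : HasSepQuotient ℂ X := by
  obtain ⟨M, hmono, hcl, hsep, hinf, hd⟩ := cplx_exists_tower h
  let J : X →L[ℝ] X := (Complex.I • ContinuousLinearMap.id ℂ X).restrictScalars ℝ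
  have hJ : ∀ x, J x = Complex.I • x := fun _ => rfl
  have hJJ : ∀ x, J (J x) = -x := fun x => by
    rw [hJ, hJ, smul_smul, Complex.I_mul_I, neg_one_smul]
  have hJn : ∀ x, ‖J x‖ = ‖x‖ := fun x => by rw [hJ, norm_smul, Complex.norm_I, one_mul]
  by_cases hc : ∃ k, ∃ c : ℝ, 0 < c ∧ ∀ φ φ' : StrongDual ℝ (X ⧸ M k),
      c * (‖φ.comp (M k).mkQL‖ + ‖φ'.comp (M k).mkQL‖) ≤
        ‖φ.comp (M k).mkQL + (φ'.comp (M k).mkQL).comp J‖
  · obtain ⟨k, c, hc0, hc⟩ := hc
    have := hcl k
    have := hsep k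
    let T : X →L[ℝ] (X ⧸ M k) × (X ⧸ M k) := (M k).mkQL.prod ((M k).mkQL.comp J)
    have hT : Function.Surjective T := fun w => by
      refine (surj_of_adjoint T c hc0 (fun ψ => ?_) w).imp fun _ hx => hx.1
      have h1 := hc (ψ.comp (ContinuousLinearMap.inl ℝ _ _)) (ψ.comp (ContinuousLinearMap.inr ℝ _ _))
      have h2 : (ψ.comp (ContinuousLinearMap.inl ℝ _ _)).comp (M k).mkQL +
          ((ψ.comp (ContinuousLinearMap.inr ℝ _ _)).comp (M k).mkQL).comp J = ψ.comp T := by
        ext x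
        simp [T, ← map_add]
      rw [h2] at h1
      refine le_trans (mul_le_mul_of_nonneg_left ((cplx_norm_le_prod ψ).trans ?_) hc0.le) h1
      exact add_le_add (cplx_norm_le_comp_mkQL _ _) (cplx_norm_le_comp_mkQL _ _)
    let K : Submodule ℂ X :=
      { carrier := {x | x ∈ M k ∧ J x ∈ M k}
        add_mem' := fun {a b} ha hb => ⟨(M k).add_mem ha.1 hb.1, by
          rw [map_add]; exact (M k).add_mem ha.2 hb.2⟩
        zero_mem' := ⟨(M k).zero_mem, by rw [map_zero]; exact (M k).zero_mem⟩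
        smul_mem' := fun z x hx => by
          have e : z • x = z.re • x + z.im • J x := by
            rw [hJ, ← Complex.coe_smul, ← Complex.coe_smul, smul_smul, ← add_smul,
              Complex.re_add_im]
          refine ⟨?_, ?_⟩
          · rw [e]
            exact (M k).add_mem ((M k).smul_mem _ hx.1) ((M k).smul_mem _ hx.2)
          · rw [e, map_add, map_smul, map_smul, hJJ]
            exact (M k).add_mem ((M k).smul_mem _ hx.2) ((M k).smul_mem _ ((M k).neg_mem hx.1)) }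
    refine cplx_of_surj (fun hfin => hinf k ?_) T hT K fun x => ?_
    · exact Module.Finite.of_surjective (LinearMap.fst ℝ (X ⧸ M k) (X ⧸ M k)) Prod.fst_surjective
    · rw [Prod.ext_iff]
      exact and_congr (Submodule.Quotient.mk_eq_zero _).symm (Submodule.Quotient.mk_eq_zero _).symm
  · push Not at hc
    choose φ φ' hφ using fun k => hc k ((1 / 2) ^ (k + 1)) (by positivity)
    set z : ℕ → StrongDual ℝ X := fun k => (φ k).comp (M k).mkQL with hz
    set z' : ℕ → StrongDual ℝ X := fun k => (φ' k).comp (M k).mkQL with hz'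
    have hφ' : ∀ k, ‖z k + (z' k).comp J‖ < (1 / 2) ^ (k + 1) * (‖z k‖ + ‖z' k‖) := hφ
    have h1 : ∀ k, ‖z' k‖ ≤ ‖z k‖ + ‖z k + (z' k).comp J‖ := fun k => by
      refine ContinuousLinearMap.opNorm_le_bound _ (by positivity) fun x => ?_
      have e : z' k x = z k (J x) - (z k + (z' k).comp J) (J x) := by
        simp [hJJ]
      rw [e, add_mul, ← hJn x]
      exact (norm_sub_le _ _).trans (add_le_add (ContinuousLinearMap.le_opNorm _ _)
        (ContinuousLinearMap.le_opNorm _ _))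
    have h2 : ∀ k, ‖z k‖ + ‖z' k‖ < 4 * ‖z k‖ := fun k => by
      have e1 : (1 / 2 : ℝ) ^ (k + 1) ≤ 1 / 2 := by
        rw [pow_succ]
        have : (1 / 2 : ℝ) ^ k ≤ 1 := pow_le_one₀ (by norm_num) (by norm_num)
        linarith
      have e2 := mul_le_mul_of_nonneg_right e1 (add_nonneg (norm_nonneg (z k)) (norm_nonneg (z' k)))
      linarith [h1 k, hφ' k]
    have h3 : ∀ k, 0 < ‖z k‖ := fun k => by linarith [h2 k, norm_nonneg (z' k), norm_nonneg (z k)]
    let ζ : ℕ → StrongDual ℂ X := fun k => StrongDual.extendRCLike (‖z k‖⁻¹ • z k)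
    have hζ : ∀ k, ‖ζ k‖ = 1 := fun k => by
      rw [StrongDual.norm_extendRCLike, norm_smul, norm_inv, norm_norm, inv_mul_cancel₀ (h3 k).ne']
    refine hasSepQuotient_of_summable ζ 1 one_pos (fun k => (hζ k).ge) (fun k => (hζ k).le)
      (hd.mono fun x hx => ?_)
    obtain ⟨j, hj⟩ := Set.mem_iUnion.1 hx
    refine cplx_summable (j := j) (C := 2 * ‖x‖) (fun _ => norm_nonneg _) fun k hk => ?_
    have h0 : (M k).mkQL x = 0 := (Submodule.Quotient.mk_eq_zero _).2 (hmono hk hj)
    have e1 : z k x = 0 := by rw [hz]; simp only [ContinuousLinearMap.comp_apply, h0, map_zero]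
    have e2 : z' k x = 0 := by rw [hz']; simp only [ContinuousLinearMap.comp_apply, h0, map_zero]
    have e3 : z k (J x) = (z k + (z' k).comp J) (J x) := by simp [hJJ, e2]
    have e4 : ‖z k (J x)‖ ≤ (1 / 2) ^ (k + 1) * (4 * ‖z k‖) * ‖x‖ := by
      rw [e3, ← hJn x]
      refine (ContinuousLinearMap.le_opNorm _ _).trans
        (mul_le_mul_of_nonneg_right ((hφ' k).le.trans ?_) (norm_nonneg _))
      exact mul_le_mul_of_nonneg_left (h2 k).le (by positivity)
    have e5 : ‖ζ k x‖ = ‖z k‖⁻¹ * ‖z k (J x)‖ := by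
      simp only [ζ]
      rw [StrongDual.extendRCLike_apply]
      simp [e1, hJ]
    rw [e5, inv_mul_le_iff₀ (h3 k)]
    refine e4.trans (le_of_eq ?_)
    ring

end Vale.Agent.P129
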