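import Vale.Agent.P129.SN

/-! A tower of closed subspaces with dense union, and transfer lemmas. -/

namespace Vale.Agent.P129

open TopologicalSpace

theorem cplx_exists_tower {X : Type*} [NormedAddCommGroup X] [NormedSpace ℝ X]
    (h : HasSepQuotient ℝ X) : ∃ M : ℕ → Submodule ℝ X, Monotone M ∧
      (∀ k, IsClosed (M k : Set X)) ∧ (∀ k, SeparableSpace (X ⧸ M k)) ∧
      (∀ k, ¬ FiniteDimensional ℝ (X ⧸ M k)) ∧ Dense (⋃ k, (M k : Set X)) := by
  obtain ⟨M, hM, hsep, hinf⟩ := h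
  obtain ⟨w, hw⟩ := exists_dense_seq (X ⧸ M)
  choose x hx using fun i => M.mkQ_surjective (w i)
  have hfin : ∀ k, FiniteDimensional ℝ (Submodule.span ℝ (x '' Set.Iio k)) := fun k =>
    FiniteDimensional.span_of_finite ℝ ((Set.finite_Iio k).image x)
  refine ⟨fun k => M ⊔ Submodule.span ℝ (x '' Set.Iio k), fun k l hkl => ?_,
    fun k => Submodule.isClosed_sup_finiteDimensional _ _ hM, fun k => ?_, fun k hk => ?_, ?_⟩
  · exact sup_le_sup_left (Submodule.span_mono (Set.image_mono (Set.Iio_subset_Iio hkl))) _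
  · set N := M ⊔ Submodule.span ℝ (x '' Set.Iio k)
    have hle : M ≤ N.mkQL.ker := fun y hy =>
      (Submodule.Quotient.mk_eq_zero N).2 (Submodule.mem_sup_left hy)
    refine DenseRange.separableSpace (f := M.liftQL N.mkQL hle) (Function.Surjective.denseRange
      fun y => ?_) (M.liftQL N.mkQL hle).continuous
    obtain ⟨z, rfl⟩ := N.mkQ_surjective y
    exact ⟨M.mkQ z, rfl⟩
  · set F := Submodule.span ℝ (x '' Set.Iio k)
    have hle : M ⊔ F ≤ LinearMap.ker ((F.map M.mkQ).mkQ ∘ₗ M.mkQ) := by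
      rw [LinearMap.ker_comp, Submodule.ker_mkQ, Submodule.comap_map_mkQ]
    have h1 : Module.Finite ℝ ((X ⧸ M) ⧸ F.map M.mkQ) := by
      refine Module.Finite.of_surjective ((M ⊔ F).liftQ _ hle) fun y => ?_
      obtain ⟨z, rfl⟩ := (F.map M.mkQ).mkQ_surjective y
      obtain ⟨z, rfl⟩ := M.mkQ_surjective z
      exact ⟨(M ⊔ F).mkQ z, rfl⟩
    exact hinf (Module.Finite.of_submodule_quotient (F.map M.mkQ))
  · rw [dense_iff_inter_open]
    intro U hU hne
    obtain ⟨i, u, hu, hi⟩ := hw.exists_mem_open (M.isOpenMap_mkQ U hU) (hne.image _)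
    refine ⟨u, hu, Set.mem_iUnion.2 ⟨i + 1, ?_⟩⟩
    have h1 : u - x i ∈ M := (Submodule.Quotient.eq M).1 (hi.trans (hx i).symm)
    have h2 : u = (u - x i) + x i := (sub_add_cancel _ _).symm
    rw [SetLike.mem_coe, h2]
    exact Submodule.add_mem_sup h1 (Submodule.subset_span ⟨i, Nat.lt_succ_self i, rfl⟩)

theorem cplx_norm_le_comp_mkQL {X : Type*} [NormedAddCommGroup X] [NormedSpace ℝ X]
    (M : Submodule ℝ X) (φ : StrongDual ℝ (X ⧸ M)) : ‖φ‖ ≤ ‖φ.comp M.mkQL‖ := by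
  refine ContinuousLinearMap.opNorm_le_bound _ (norm_nonneg _) fun w => ?_
  refine le_of_forall_pos_le_add fun ε hε => ?_
  have hp : 0 < ‖φ.comp M.mkQL‖ + 1 := by positivity
  obtain ⟨x, rfl, hx⟩ := Submodule.Quotient.norm_mk_lt w (div_pos hε hp)
  have h1 : ‖φ (Submodule.Quotient.mk x)‖ ≤ ‖φ.comp M.mkQL‖ * ‖x‖ := (φ.comp M.mkQL).le_opNorm x
  have h2 := mul_le_mul_of_nonneg_left hx.le (norm_nonneg (φ.comp M.mkQL))
  have h3 : ‖φ.comp M.mkQL‖ * (ε / (‖φ.comp M.mkQL‖ + 1)) ≤ ε := by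
    rw [mul_div_assoc', div_le_iff₀ hp]
    nlinarith
  rw [mul_add] at h2
  linarith

theorem cplx_norm_le_prod {A B : Type*} [NormedAddCommGroup A] [NormedSpace ℝ A]
    [NormedAddCommGroup B] [NormedSpace ℝ B] (u : StrongDual ℝ (A × B)) :
    ‖u‖ ≤ ‖u.comp (ContinuousLinearMap.inl ℝ A B)‖ + ‖u.comp (ContinuousLinearMap.inr ℝ A B)‖ := by
  refine ContinuousLinearMap.opNorm_le_bound _ (by positivity) fun p => ?_
  have h1 : u p = u.comp (ContinuousLinearMap.inl ℝ A B) p.1 +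
      u.comp (ContinuousLinearMap.inr ℝ A B) p.2 := by
    simp [← map_add]
  rw [h1, add_mul]
  refine (norm_add_le _ _).trans (add_le_add ?_ ?_)
  · exact (ContinuousLinearMap.le_opNorm _ _).trans
      (mul_le_mul_of_nonneg_left (norm_fst_le p) (norm_nonneg _))
  · exact (ContinuousLinearMap.le_opNorm _ _).trans
      (mul_le_mul_of_nonneg_left (norm_snd_le p) (norm_nonneg _))

/-- a summability criterion -/
theorem cplx_summable {a : ℕ → ℝ} {j : ℕ} {C : ℝ} (h0 : ∀ k, 0 ≤ a k)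
    (h : ∀ k, j ≤ k → a k ≤ C * (1 / 2) ^ k) : Summable a := by
  refine Summable.of_norm_bounded_eventually_nat (summable_geometric_two.mul_left C) ?_
  filter_upwards [Filter.eventually_ge_atTop j] with k hk
  rw [Real.norm_of_nonneg (h0 k)]
  exact h k hk

end Vale.Agent.P129
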