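import Mathlib

namespace Vale.Agent.P129

open Finset BoundedContinuousFunction

/-- restriction of a functional to the unit ball -/
noncomputable def drR (X : Type*) [NormedAddCommGroup X] [NormedSpace ℝ X] :
    StrongDual ℝ X →ₗ[ℝ] (Metric.closedBall (0 : X) 1 →ᵇ ℝ) where
  toFun z := ofNormedAddCommGroup (fun x => z x) (z.continuous.comp continuous_subtype_val) ‖z‖
    fun x => (z.le_opNorm x).trans
      (mul_le_of_le_one_right (norm_nonneg _) (mem_closedBall_zero_iff.1 x.2))
  map_add' z z' := by ext x; simp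
  map_smul' c z := by ext x; simp

theorem drR_apply {X : Type*} [NormedAddCommGroup X] [NormedSpace ℝ X] (z : StrongDual ℝ X)
    (x : Metric.closedBall (0 : X) 1) : drR X z x = z x := rfl

theorem dr_orthonormal {V : Type*} [AddCommGroup V] [Module ℝ V] (hV : ¬ FiniteDimensional ℝ V)
    (β : V →ₗ[ℝ] V →ₗ[ℝ] ℝ) (hs : ∀ a b, β a b = β b a) (hp : ∀ a, a ≠ 0 → 0 < β a a) (N : ℕ) :
    ∃ g : ℕ → V, ∀ i < N, ∀ j < N, β (g i) (g j) = if i = j then 1 else 0 := by
  induction N with
  | zero => exact ⟨fun _ => 0, fun i hi => absurd hi (Nat.not_lt_zero _)⟩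
  | succ N ih =>
    obtain ⟨g, hg⟩ := ih
    let T : V →ₗ[ℝ] (Fin N → ℝ) := LinearMap.pi fun i => β (g i)
    have hT : ¬ Function.Injective T := fun h => hV (FiniteDimensional.of_injective T h)
    rw [injective_iff_map_eq_zero] at hT
    push Not at hT
    obtain ⟨z, hz, hz0⟩ := hT
    have hz' : ∀ i < N, β (g i) z = 0 := fun i hi => congrFun hz ⟨i, hi⟩
    have hpos := hp z hz0
    set w := (Real.sqrt (β z z))⁻¹ • z with hw
    have hw1 : ∀ i < N, β (g i) w = 0 := fun i hi => by rw [hw, map_smul, hz' i hi, smul_zero]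
    have hw2 : β w w = 1 := by
      have h1 := Real.sqrt_pos.2 hpos
      have h2 := Real.mul_self_sqrt hpos.le
      simp only [hw, map_smul, LinearMap.smul_apply, smul_eq_mul]
      field_simp
      nlinarith
    refine ⟨Function.update g N w, fun i hi j hj => ?_⟩
    rcases (Nat.lt_succ_iff.1 hi).lt_or_eq with hi | rfl <;>
      rcases (Nat.lt_succ_iff.1 hj).lt_or_eq with hj | rfl
    · rw [Function.update_of_ne hi.ne, Function.update_of_ne hj.ne, hg i hi j hj]
    · rw [Function.update_of_ne hi.ne, Function.update_self, hw1 i hi, if_neg hi.ne]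
    · rw [Function.update_of_ne hj.ne, Function.update_self, hs, hw1 j hj, if_neg hj.ne']
    · rw [Function.update_self, hw2, if_pos rfl]

/-- Dvoretzky-Rogers type lemma in the dual space -/
theorem exists_small_average {X : Type*} [NormedAddCommGroup X] [NormedSpace ℝ X]
    (hX : ¬ FiniteDimensional ℝ X) (ε : ℝ) (hε : 0 < ε) :
    ∃ (L : ℕ) (z : Fin L → StrongDual ℝ X) (a : Fin L → ℝ), (∀ i, ‖z i‖ = 1) ∧
      (∀ i, 0 ≤ a i) ∧ ∑ i, a i = 1 ∧ ∀ x, ∑ i, a i * |z i x| ≤ ε * ‖x‖ := by
  by_contra hno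
  have hV : ¬ FiniteDimensional ℝ (StrongDual ℝ X) := fun h =>
    hX (FiniteDimensional.of_injective
      (NormedSpace.inclusionInDoubleDualLi ℝ (E := X)).toLinearMap
      (NormedSpace.inclusionInDoubleDualLi ℝ (E := X)).injective)
  let s : Set (Metric.closedBall (0 : X) 1 →ᵇ ℝ) := {v | ∃ c < ε, ∀ x, v x ≤ c}
  let t : Set (Metric.closedBall (0 : X) 1 →ᵇ ℝ) := {v | ∃ z, ‖z‖ = 1 ∧ v = |drR X z|}
  have hconv : Convex ℝ s := by
    rintro v ⟨c, hc, hv⟩ w ⟨d, hd, hw⟩ a b ha hb hab
    refine ⟨max c d, max_lt hc hd, fun x => ?_⟩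
    have h1 := (hv x).trans (le_max_left c d)
    have h2 := (hw x).trans (le_max_right c d)
    simp only [BoundedContinuousFunction.coe_add, BoundedContinuousFunction.coe_smul, Pi.add_apply, smul_eq_mul]
    calc a * v x + b * w x ≤ a * max c d + b * max c d := by gcongr
      _ = max c d := by rw [← add_mul, hab, one_mul]
  have hopen : IsOpen s := by
    rw [Metric.isOpen_iff]
    rintro v ⟨c, hc, hv⟩
    refine ⟨(ε - c) / 2, by linarith, fun w hw => ⟨c + (ε - c) / 2, by linarith, fun x => ?_⟩⟩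
    have h1 := (dist_coe_le_dist x).trans (Metric.mem_ball.1 hw).le
    have h2 := hv x
    rw [Real.dist_eq] at h1
    linarith [le_abs_self (w x - v x)]
  have hdisj : Disjoint s (convexHull ℝ t) := by
    rw [Set.disjoint_left]
    rintro v ⟨c, hc, hv⟩ hvt
    obtain ⟨ι, _, a, y, ha, ha1, hy, rfl⟩ := mem_convexHull_iff_exists_fintype.1 hvt
    choose z hz1 hz2 using hy
    let e := (Fintype.equivFin ι).symm
    refine hno ⟨Fintype.card ι, fun i => z (e i), fun i => a (e i), fun i => hz1 _, fun i => ha _,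
      by rw [← ha1]; exact e.sum_comp a, fun x => ?_⟩
    rw [e.sum_comp fun i => a i * |z i x|]
    rcases eq_or_ne x 0 with rfl | hx
    · simp
    have hn := norm_pos_iff.2 hx
    have h1 := hv ⟨‖x‖⁻¹ • x, by
      rw [mem_closedBall_zero_iff, norm_smul, norm_inv, norm_norm, inv_mul_cancel₀ hn.ne']⟩
    simp only [hz2, BoundedContinuousFunction.coe_sum, Finset.sum_apply, BoundedContinuousFunction.coe_smul,
      BoundedContinuousFunction.coe_abs, Pi.abs_apply, drR_apply, map_smul, smul_eq_mul, abs_mul, abs_inv, abs_norm] at h1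
    have h2 : ∑ i, a i * |z i x| = ‖x‖ * ∑ i, a i * (‖x‖⁻¹ * |z i x|) := by
      rw [mul_sum]
      refine sum_congr rfl fun i _ => ?_
      field_simp
    rw [h2, mul_comm]
    exact mul_le_mul_of_nonneg_right (h1.trans hc.le) hn.le
  obtain ⟨f, u, hs, ht⟩ := geometric_hahn_banach_open hconv hopen (convex_convexHull ℝ t) hdisj
  have hu : 0 < u := by simpa using hs 0 ⟨0, hε, fun x => le_rfl⟩
  have hpos : ∀ v, (∀ x, 0 ≤ v x) → 0 ≤ f v := by
    intro v hv
    by_contra h
    push Not at h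
    have h1 := hs ((u / f v) • v) ⟨0, hε, fun x => by
      simp only [BoundedContinuousFunction.coe_smul, smul_eq_mul]
      exact mul_nonpos_of_nonpos_of_nonneg (div_nonpos_of_nonneg_of_nonpos hu.le h.le) (hv x)⟩
    rw [map_smul, smul_eq_mul, div_mul_cancel₀ _ h.ne] at h1
    exact lt_irrefl _ h1
  have hmono : ∀ v w, (∀ x, v x ≤ w x) → f v ≤ f w := fun v w h => by
    have := hpos (w - v) fun x => by simpa using h x
    rw [map_sub] at this
    linarith
  have hone : ε * f 1 ≤ u := by
    by_contra h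
    push Not at h
    have h0 : 0 < f 1 := (mul_pos_iff_of_pos_left hε).1 (hu.trans h)
    have h1 := hs ((u / f 1) • 1) ⟨u / f 1, by rwa [div_lt_iff₀ h0], fun x => by simp⟩
    rw [map_smul, smul_eq_mul, div_mul_cancel₀ _ h0.ne'] at h1
    exact lt_irrefl _ h1
  let β : StrongDual ℝ X →ₗ[ℝ] StrongDual ℝ X →ₗ[ℝ] ℝ :=
    ((LinearMap.mul ℝ _).compl₁₂ (drR X) (drR X)).compr₂ f.toLinearMap
  have hβ : ∀ z z', β z z' = f (drR X z * drR X z') := fun _ _ => rfl
  have hlow : ∀ z, ε * u * ‖z‖ ^ 2 ≤ β z z := by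
    intro z
    rcases eq_or_ne z 0 with rfl | hz
    · simp
    have hn := norm_pos_iff.2 hz
    obtain ⟨w, hw⟩ : ∃ w, w = ‖z‖⁻¹ • z := ⟨_, rfl⟩
    have hw1 : ‖w‖ = 1 := by rw [hw, norm_smul, norm_inv, norm_norm, inv_mul_cancel₀ hn.ne']
    have h1 := ht _ (subset_convexHull ℝ t ⟨w, hw1, rfl⟩)
    have h2 := hmono ((2 * ε) • |drR X w| - (ε ^ 2) • 1) (drR X w * drR X w) fun x => by
      simp only [BoundedContinuousFunction.coe_sub, BoundedContinuousFunction.coe_smul, Pi.sub_apply, BoundedContinuousFunction.coe_abs, Pi.abs_apply, BoundedContinuousFunction.coe_one,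
        Pi.one_apply, smul_eq_mul, BoundedContinuousFunction.coe_mul, Pi.mul_apply]
      nlinarith [sq_nonneg (|drR X w x| - ε), sq_abs (drR X w x)]
    rw [map_sub, map_smul, map_smul, smul_eq_mul, smul_eq_mul, ← hβ] at h2
    have h3 : β z z = ‖z‖ ^ 2 * β w w := by
      simp only [hw, map_smul, LinearMap.smul_apply, smul_eq_mul]
      field_simp
    rw [h3, mul_comm]
    refine mul_le_mul_of_nonneg_left ?_ (by positivity)
    nlinarith
  have hδ : 0 < ε * u := mul_pos hε hu
  obtain ⟨N, hN⟩ := exists_nat_gt ((ε * u)⁻¹ * f 1)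
  obtain ⟨g, hg⟩ := dr_orthonormal hV β (fun a b => by rw [hβ, hβ, mul_comm])
    (fun a ha => lt_of_lt_of_le (by have := norm_pos_iff.2 ha; positivity) (hlow a)) N
  have h1 := hmono (∑ i ∈ range N, drR X (g i) * drR X (g i)) ((ε * u)⁻¹ • 1) fun x => by
    simp only [BoundedContinuousFunction.coe_sum, Finset.sum_apply, BoundedContinuousFunction.coe_smul,
      BoundedContinuousFunction.coe_mul, Pi.mul_apply, drR_apply, BoundedContinuousFunction.coe_one, Pi.one_apply, smul_eq_mul, mul_one]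
    set S := ∑ i ∈ range N, g i x * g i x with hS
    set G := ∑ i ∈ range N, g i x • g i with hG
    have e1 : G x = S := by simp [hG, hS]
    have e2 : β G G = S := by
      simp only [hG, hS, map_sum, map_smul, LinearMap.sum_apply, LinearMap.smul_apply, smul_eq_mul]
      refine sum_congr rfl fun i hi => ?_
      rw [sum_eq_single i]
      · rw [hg i (mem_range.1 hi) i (mem_range.1 hi), if_pos rfl, mul_one]
      · intro j hj hji
        rw [hg j (mem_range.1 hj) i (mem_range.1 hi), if_neg hji, mul_zero]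
      · exact fun h => absurd hi h
    have e3 : S ≤ ‖G‖ := by
      rw [← e1]
      exact (le_abs_self _).trans ((G.le_opNorm x).trans
        (mul_le_of_le_one_right (norm_nonneg _) (mem_closedBall_zero_iff.1 x.2)))
    have e4 := hlow G
    have e5 : 0 ≤ S := sum_nonneg fun i _ => mul_self_nonneg _
    rw [e2] at e4
    rcases e5.lt_or_eq with e5 | e5
    · rw [← one_div, le_div_iff₀ hδ]
      have : ε * u * S ^ 2 ≤ S := le_trans (by gcongr) e4
      nlinarith
    · rw [← e5]; positivity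
  rw [map_sum, map_smul, smul_eq_mul] at h1
  have h2 : ∑ i ∈ range N, f (drR X (g i) * drR X (g i)) = N := by
    rw [sum_congr rfl fun i hi => (hβ _ _).symm.trans (hg i (mem_range.1 hi) i (mem_range.1 hi))]
    simp
  linarith

end Vale.Agent.P129
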