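import Mathlib

/-! Definitions for the counterexample (part A). -/

namespace Vale.Agent.P129

open Finset

noncomputable section

variable {ι : Type} [LinearOrder ι]

/-- the support of `f` lies strictly below the support of `g` -/
def Lt (f g : ι →₀ ℝ) : Prop := ∀ a ∈ f.support, ∀ b ∈ g.support, a < b

/-- the order-convex hull of the support -/
def hull (x : ι →₀ ℝ) : Set ι := {ξ | ∃ a ∈ x.support, ∃ b ∈ x.support, a ≤ ξ ∧ ξ ≤ b}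

/-- pairing of a function with a finitely supported vector -/
def ev (φ : ι → ℝ) : (ι →₀ ℝ) →ₗ[ℝ] ℝ := Finsupp.linearCombination ℝ φ

open Classical in
/-- restriction to a set of coordinates -/
def res (E : Set ι) : (ι →₀ ℝ) →ₗ[ℝ] (ι →₀ ℝ) where
  toFun y := y.filter (fun ξ => ξ ∈ E)
  map_add' _ _ := Finsupp.filter_add
  map_smul' _ _ := Finsupp.filter_smul

/-- the `ℓ¹` norm -/
def l1 (y : ι →₀ ℝ) : ℝ := ∑ ξ ∈ y.support, |y ξ|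

/-- all values are rational -/
def IsRat {κ : Type} (T : κ →₀ ℝ) : Prop := ∀ k, ∃ q : ℚ, T k = q

/-- the weights -/
def mm (j : ℕ) : ℝ := 2 ^ (j + 2)

/-- partial sums of the lengths -/
def SS : ℕ → ℕ
  | 0 => 0
  | j + 1 => SS j + 2 ^ (j + 2) * (SS j + 2) ^ (j + 4)

/-- the lengths -/
def nn (j : ℕ) : ℕ := 2 ^ (j + 2) * (SS j + 2) ^ (j + 4)

/-- a rho-function together with a coding function -/
structure Cod (ι : Type) [LinearOrder ι] where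
  ρ : ι → ι → ℕ
  ρ_self : ∀ a, ρ a a = 0
  ρ_fin : ∀ b p, {a | a ≤ b ∧ ρ a b ≤ p}.Finite
  ρ_le₁ : ∀ a b c, a ≤ b → b ≤ c → ρ a c ≤ max (ρ a b) (ρ b c)
  ρ_le₂ : ∀ a b c, a ≤ b → b ≤ c → ρ a b ≤ max (ρ a c) (ρ b c)
  code : ℕ → (ℕ →₀ ℝ) → ℕ
  lt_code : ∀ p T, p < code p T
  code_inj : ∀ p p' T T', IsRat T → IsRat T' → code p T = code p' T' → p = p' ∧ T = T'

/-- position of a point inside its `p`-closure -/
def Cod.pos (K : Cod ι) (p : ℕ) (b : ι) : ℕ := {a | a ≤ b ∧ K.ρ a b ≤ p}.ncard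

/-- the rho-number of a set is at most `p` -/
def Cod.RB (K : Cod ι) (p : ℕ) (A : Set ι) : Prop := ∀ a ∈ A, ∀ b ∈ A, a ≤ b → K.ρ a b ≤ p

/-- sums of at most `n` successive members of `𝒢` -/
def Sm (𝒢 : Set (ι →₀ ℝ)) : ℕ → (ι →₀ ℝ) → Prop
  | 0, h => h = 0
  | n + 1, h => ∃ h' g, Sm 𝒢 n h' ∧ (g ∈ 𝒢 ∨ g = 0) ∧ Lt h' g ∧ h = h' + g

/-- weighted functionals of weight `j` -/
def Wt (𝒢 : Set (ι →₀ ℝ)) (j : ℕ) (f : ι →₀ ℝ) : Prop :=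
  ∃ h, Sm 𝒢 (nn j) h ∧ f = (mm j)⁻¹ • h

/-- special sequences of length `t` -/
def Cod.Spec (K : Cod ι) (𝒢 : Set (ι →₀ ℝ)) (t : ℕ) (f : ℕ → ι →₀ ℝ) (w p : ℕ → ℕ) : Prop :=
  (∀ l < t, Wt 𝒢 (w l) (f l)) ∧ (∀ l l', l < l' → l' < t → Lt (f l) (f l')) ∧
    ∀ l, l + 1 < t → w l ≤ p l ∧ K.RB (p l) (∑ i ∈ range (l + 1), f i).support ∧
      w (l + 1) = K.code (p l) ((∑ i ∈ range (l + 1), f i).mapDomain (K.pos (p l)))

/-- data of a segment: a special sequence, a threshold for the weights, and an interval -/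
structure Seg (ι : Type) where
  t : ℕ
  θ : ℕ
  f : ℕ → ι →₀ ℝ
  w : ℕ → ℕ
  p : ℕ → ℕ
  E : Set ι

/-- indices used by the segment -/
def Seg.idx (s : Seg ι) : Finset ℕ := (range s.t).filter (fun l => s.θ ≤ s.w l)

/-- the functional of the segment -/
def Seg.val (s : Seg ι) : ι →₀ ℝ := res s.E (∑ l ∈ s.idx, s.f l)

/-- the weights used by the segment -/
def Seg.wts (s : Seg ι) : Finset ℕ := s.idx.image s.w

/-- the whole special functional -/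
def Seg.full (s : Seg ι) : ι →₀ ℝ := ∑ l ∈ range s.t, s.f l

/-- raise the threshold -/
def Seg.raise (s : Seg ι) (J : ℕ) : Seg ι := { s with θ := max s.θ J }

/-- shrink the interval -/
def Seg.cut (s : Seg ι) (E : Set ι) : Seg ι := { s with E := s.E ∩ E }

/-- validity of a segment -/
def Cod.Valid (K : Cod ι) (𝒢 : Set (ι →₀ ℝ)) (s : Seg ι) : Prop :=
  K.Spec 𝒢 s.t s.f s.w s.p ∧ s.E.OrdConnected

/-- admissible signed sums of segments with disjoint weights -/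
def Cod.Bt (K : Cod ι) (𝒢 : Set (ι →₀ ℝ)) (g : ι →₀ ℝ) : Prop :=
  ∃ (d : ℕ) (s : ℕ → Seg ι) (ε : ℕ → ℝ), (∀ i < d, K.Valid 𝒢 (s i)) ∧
    (∀ i < d, ε i = 1 ∨ ε i = -1) ∧
    (∀ i < d, ∀ i' < d, i ≠ i' → Disjoint (s i).wts (s i').wts) ∧
    (∀ i < d, ∀ w ∈ (s i).wts, d ≤ w + 1) ∧ g = ∑ i ∈ range d, ε i • (s i).val

/-- one step of the generation of the norming set -/
def Cod.step (K : Cod ι) (𝒢 : Set (ι →₀ ℝ)) : Set (ι →₀ ℝ) :=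
  {g | (∃ ξ, g = Finsupp.single ξ 1 ∨ g = Finsupp.single ξ (-1)) ∨ K.Bt 𝒢 g}

/-- the norming set -/
def Cod.G (K : Cod ι) : Set (ι →₀ ℝ) := ⋂₀ {𝒢 | K.step 𝒢 ⊆ 𝒢}

/-- the norm -/
def Cod.N (K : Cod ι) (y : ι →₀ ℝ) : ℝ := sSup ((fun g : ι →₀ ℝ => ev g y) '' K.G)

/-- block sequences -/
def IsBlock (v : ℕ → ι →₀ ℝ) : Prop := (∀ n, v n ≠ 0) ∧ ∀ n n', n < n' → Lt (v n) (v n')

/-- tail spans of a block sequence -/
def tailSp (v : ℕ → ι →₀ ℝ) (n : ℕ) : Submodule ℝ (ι →₀ ℝ) := Submodule.span ℝ (v '' Set.Ici n)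

/-- weighted functionals of small weight act on `x` like on an average -/
def Cod.R2 (K : Cod ι) (x : ι →₀ ℝ) (J : ℕ) : Prop :=
  ∀ w < J, ∀ f, Wt K.G w f → |ev f x| ≤ 2 / mm w

/-- segments with large weights act on `x` by at most `ε` -/
def Cod.R4 (K : Cod ι) (x : ι →₀ ℝ) (J : ℕ) (ε : ℝ) : Prop :=
  ∀ s, K.Valid K.G s → J ≤ s.θ → |ev s.val x| ≤ ε

/-- The interface between the combinatorial construction and the construction of the space. -/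
structure Data (ι : Type) [LinearOrder ι] where
  N : Seminorm ℝ (ι →₀ ℝ)
  coord_le : ∀ y ξ, |y ξ| ≤ N y
  single_le : ∀ ξ, N (Finsupp.single ξ 1) ≤ 1
  res_le : ∀ E : Set ι, E.OrdConnected → ∀ y, N (res E y) ≤ N y
  lower : ∀ R : ℝ, ∃ n : ℕ, ∀ x : ℕ → ι →₀ ℝ, (∀ i i', i < i' → i' < n → Lt (x i) (x i')) →
    (∀ i < n, 1 ≤ N (x i)) → R ≤ N (∑ i ∈ range n, x i)
  norming : ∀ y ε, 0 < ε → ∃ g : ι →₀ ℝ, (g.support : Set ι) ⊆ hull y ∧ (∀ ξ, |g ξ| ≤ 1) ∧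
    (∀ z, |ev g z| ≤ N z) ∧ N y - ε < ev g y
  F : ι → ℕ → ι →₀ ℝ
  F_lt : ∀ δ l, ∀ ξ ∈ (F δ l).support, ξ < δ
  F_le : ∀ δ l ξ, |F δ l ξ| ≤ (1 / 2) ^ (l + 2)
  F_succ : ∀ δ l l', l < l' → Lt (F δ l) (F δ l')
  F_c0 : ∀ A : Finset ι, ∃ k₀, ∀ k, k₀ ≤ k → ∀ t y,
    ∑ δ ∈ A, |ev (∑ l ∈ Ico k t, F δ l : ι →₀ ℝ) y| ≤ N y
  F_norm : ∀ δ t y, |ev (∑ l ∈ range t, F δ l : ι →₀ ℝ) y| ≤ N y
  hit : ∀ v : ℕ → ι →₀ ℝ, IsBlock v → ∃ δ C, (∀ l, ∃ n, Lt (F δ l) (v n)) ∧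
    ∀ n₀, ∃ u ∈ tailSp v n₀, N u ≤ C ∧
      ∃ t₀, ∀ t, t₀ ≤ t → ev (∑ l ∈ range t, F δ l : ι →₀ ℝ) u = 1

end

end Vale.Agent.P129
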