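import Vale.Agent.P129.Hit1

namespace Vale.Agent.P129

open Finset

section Lim

variable {ι : Type} [LinearOrder ι]

/-- pointwise sum of a successive sequence -/
noncomputable def hLim (f : ℕ → ι →₀ ℝ) (ξ : ι) : ℝ := ∑ᶠ l, f l ξ

theorem hLim_of_mem {f : ℕ → ι →₀ ℝ} (hf : ∀ l l', l < l' → Lt (f l) (f l')) {l : ℕ} {ξ : ι}
    (hξ : ξ ∈ (f l).support) : hLim f ξ = f l ξ := by
  refine finsum_eq_single (fun l => f l ξ) l fun b hb => ?_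
  rcases lt_or_gt_of_ne hb with h | h
  · exact (hf b l h).apply_left hξ
  · exact (hf l b h).apply_right hξ

omit [LinearOrder ι] in
theorem hLim_ne_zero {f : ℕ → ι →₀ ℝ} {ξ : ι} (h : hLim f ξ ≠ 0) : ∃ l, ξ ∈ (f l).support := by
  by_contra h'
  push Not at h'
  exact h (finsum_eq_zero_of_forall_eq_zero fun l => Finsupp.notMem_support_iff.1 (h' l))

theorem hLim_ne_zero_of_mem {f : ℕ → ι →₀ ℝ} (hf : ∀ l l', l < l' → Lt (f l) (f l')) {l : ℕ}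
    {ξ : ι} (hξ : ξ ∈ (f l).support) : hLim f ξ ≠ 0 := by
  rw [hLim_of_mem hf hξ]
  exact Finsupp.mem_support_iff.1 hξ

theorem hLim_ev_pt {f : ℕ → ι →₀ ℝ} (hf : ∀ l l', l < l' → Lt (f l) (f l')) (ξ : ι) :
    ∃ t₀, ∀ t, t₀ ≤ t → (∑ l ∈ range t, f l) ξ = hLim f ξ := by
  by_cases h : ∃ l, ξ ∈ (f l).support
  · obtain ⟨l, hl⟩ := h
    refine ⟨l + 1, fun t ht => ?_⟩
    rw [hLim_of_mem hf hl]
    exact sum_apply_of_succ (fun a _ b _ hab => hf a b hab) (Finset.mem_range.2 (by omega)) hl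
  · push Not at h
    refine ⟨0, fun t _ => ?_⟩
    rw [Finsupp.finsetSum_apply, Finset.sum_eq_zero fun l _ => Finsupp.notMem_support_iff.1 (h l)]
    exact (finsum_eq_zero_of_forall_eq_zero fun l => Finsupp.notMem_support_iff.1 (h l)).symm

theorem hLim_ev {f : ℕ → ι →₀ ℝ} (hf : ∀ l l', l < l' → Lt (f l) (f l')) (u : ι →₀ ℝ) :
    ∃ t₀, ∀ t, t₀ ≤ t → ev (∑ l ∈ range t, f l : ι →₀ ℝ) u = ev (hLim f) u := by
  choose t₀ ht₀ using hLim_ev_pt hf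
  exact ⟨u.support.sup t₀, fun t ht => ev_congr fun ξ hξ =>
    ht₀ ξ t ((Finset.le_sup (f := t₀) hξ).trans ht)⟩

theorem hLim_finite_below {f : ℕ → ι →₀ ℝ} (hf : ∀ l l', l < l' → Lt (f l) (f l')) {ξ : ι}
    (hξ : hLim f ξ ≠ 0) : {ζ | hLim f ζ ≠ 0 ∧ ζ < ξ}.Finite := by
  obtain ⟨l₀, hl₀⟩ := hLim_ne_zero hξ
  refine ((Set.finite_Iic l₀).biUnion fun l _ => (f l).support.finite_toSet).subset ?_
  rintro ζ ⟨h1, h2⟩
  obtain ⟨l, hl⟩ := hLim_ne_zero h1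
  refine Set.mem_biUnion (show l ∈ Set.Iic l₀ from ?_) hl
  by_contra h
  exact lt_asymm h2 (hf l₀ l (not_le.1 h) ξ hl₀ ζ hl)

variable {K : Cod ι}

theorem Cod.succ_of_spec {f : ℕ → ι →₀ ℝ} {w p : ℕ → ℕ} (hs : ∀ t, K.Spec K.G t f w p) :
    ∀ l l', l < l' → Lt (f l) (f l') := fun l l' h => (hs (l' + 1)).2.1 l l' h (by omega)

theorem Cod.link_lim {f f' : ℕ → ι →₀ ℝ} {w p w' p' : ℕ → ℕ} (hs : ∀ t, K.Spec K.G t f w p)
    (hs' : ∀ t, K.Spec K.G t f' w' p')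
    (hw : ∀ k, ∃ a, k ≤ a ∧ ∃ a', k ≤ a' ∧ w (a + 1) = w' (a' + 1)) {ξ η η' : ι}
    (hη : hLim f η ≠ 0) (hη' : hLim f' η' ≠ 0) (h1 : ξ ≤ η) (h1' : ξ ≤ η') :
    hLim f ξ = hLim f' ξ := by
  obtain ⟨t₁, ht₁⟩ := hLim_ev_pt (Cod.succ_of_spec hs) ξ
  obtain ⟨t₂, ht₂⟩ := hLim_ev_pt (Cod.succ_of_spec hs) η
  obtain ⟨t₃, ht₃⟩ := hLim_ev_pt (Cod.succ_of_spec hs') ξ
  obtain ⟨t₄, ht₄⟩ := hLim_ev_pt (Cod.succ_of_spec hs') η'
  obtain ⟨a, ha, a', ha', he⟩ := hw (t₁ + t₂ + t₃ + t₄ + K.ρ ξ η + K.ρ ξ η')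
  have hp : a ≤ p a := ((hs (a + 2)).le_w (by omega)).trans ((hs (a + 2)).2.2 a (by omega)).1
  rw [← ht₁ (a + 1) (by omega), ← ht₃ (a' + 1) (by omega)]
  refine (Cod.link (hs (a + 2)) (hs' (a' + 2)) (by omega) (by omega) he).2 ξ η η' ?_ ?_ h1 h1'
    (by omega) (by omega)
  · rw [Finsupp.mem_support_iff, ht₂ (a + 1) (by omega)]; exact hη
  · rw [Finsupp.mem_support_iff, ht₄ (a' + 1) (by omega)]; exact hη'

theorem Cod.lim_eq_aux {f f' : ℕ → ι →₀ ℝ} {w p w' p' : ℕ → ℕ} (hs : ∀ t, K.Spec K.G t f w p)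
    (hs' : ∀ t, K.Spec K.G t f' w' p')
    (hw : ∀ k, ∃ a, k ≤ a ∧ ∃ a', k ≤ a' ∧ w (a + 1) = w' (a' + 1))
    (hi : {ξ | hLim f ξ ≠ 0}.Infinite) {ξ : ι} (hξ : hLim f' ξ ≠ 0) :
    hLim f ξ = hLim f' ξ := by
  by_cases h : ∃ η, hLim f η ≠ 0 ∧ ξ ≤ η
  · obtain ⟨η, h1, h2⟩ := h
    exact Cod.link_lim hs hs' hw h1 hξ h2 le_rfl
  · push Not at h
    refine absurd ((hLim_finite_below (Cod.succ_of_spec hs') hξ).subset fun ζ hζ => ?_) hi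
    refine ⟨?_, h ζ hζ⟩
    rw [← Cod.link_lim hs hs' hw hζ hξ le_rfl (h ζ hζ).le]
    exact hζ

theorem Cod.lim_eq {f f' : ℕ → ι →₀ ℝ} {w p w' p' : ℕ → ℕ} (hs : ∀ t, K.Spec K.G t f w p)
    (hs' : ∀ t, K.Spec K.G t f' w' p')
    (hw : ∀ k, ∃ a, k ≤ a ∧ ∃ a', k ≤ a' ∧ w (a + 1) = w' (a' + 1))
    (hi : {ξ | hLim f ξ ≠ 0}.Infinite) (hi' : {ξ | hLim f' ξ ≠ 0}.Infinite) :
    hLim f = hLim f' := by
  funext ξ
  by_cases h' : hLim f' ξ ≠ 0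
  · exact Cod.lim_eq_aux hs hs' hw hi h'
  · by_cases h : hLim f ξ ≠ 0
    · refine (Cod.lim_eq_aux hs' hs (fun k => ?_) hi' h).symm
      obtain ⟨a, ha, a', ha', he⟩ := hw k
      exact ⟨a', ha', a, ha, he.symm⟩
    · rw [not_not.1 h, not_not.1 h']

theorem Cod.c0_family {κ : Type} (f : κ → ℕ → ι →₀ ℝ) (w p : κ → ℕ → ℕ)
    (hs : ∀ i t, K.Spec K.G t (f i) (w i) (p i))
    (hd : ∀ i i', i ≠ i' → ∃ k, ∀ a, k ≤ a → ∀ a', k ≤ a' → w i (a + 1) ≠ w i' (a' + 1))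
    (B : Finset κ) : ∃ k₀, ∀ k, k₀ ≤ k → ∀ t y,
      ∑ i ∈ B, |ev (∑ l ∈ Ico k t, f i l : ι →₀ ℝ) y| ≤ K.N y := by
  classical
  choose! κ₀ hκ using hd
  refine ⟨(B ×ˢ B).sup (fun x => κ₀ x.1 x.2) + B.card + 1, fun k hk t y => ?_⟩
  let s : κ → Seg ι := fun i => ⟨t, w i k, f i, w i, p i, Set.univ⟩
  have hidx : ∀ i, (s i).idx = Ico k t := fun i => by
    ext l
    rw [Seg.mem_idx, Finset.mem_Ico]
    refine ⟨fun h => ⟨?_, h.1⟩, fun h => ⟨h.2, (hs i t).w_le h.1 h.2⟩⟩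
    by_contra h'
    exact absurd h.2 (not_le.2 ((hs i (k + 1)).w_lt (not_le.1 h') (by omega)))
  have hval : ∀ i, (s i).val = ∑ l ∈ Ico k t, f i l := fun i => by
    rw [Seg.val, hidx]
    exact res_univ _
  have hwts : ∀ i, ∀ x ∈ (s i).wts, ∃ l, k ≤ l ∧ w i l = x := fun i x hx => by
    rw [Seg.wts, hidx] at hx
    obtain ⟨l, hl, rfl⟩ := Finset.mem_image.1 hx
    exact ⟨l, (Finset.mem_Ico.1 hl).1, rfl⟩
  have hmem := Cod.family_mem (K := K) B s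
    (fun i => if 0 ≤ ev (s i).val y then 1 else -1)
    (fun i _ => ⟨hs i t, Set.ordConnected_univ⟩)
    (fun i _ => by by_cases h : 0 ≤ ev (s i).val y <;> simp [h])
    (fun i hi i' hi' hne => Finset.disjoint_left.2 fun x hx hx' => by
      obtain ⟨l, hl, e⟩ := hwts i x hx
      obtain ⟨l', hl', e'⟩ := hwts i' x hx'
      have h1 : κ₀ i i' ≤ (B ×ˢ B).sup (fun x => κ₀ x.1 x.2) :=
        Finset.le_sup (f := fun x : κ × κ => κ₀ x.1 x.2) (b := (i, i'))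
          (Finset.mem_product.2 ⟨hi, hi'⟩)
      obtain ⟨a, rfl⟩ : ∃ a, l = a + 1 := ⟨l - 1, by omega⟩
      obtain ⟨a', rfl⟩ : ∃ a, l' = a + 1 := ⟨l' - 1, by omega⟩
      exact hκ i i' hne a (by omega) a' (by omega) (e.trans e'.symm))
    (fun i _ x hx => by
      obtain ⟨l, hl, rfl⟩ := hwts i x hx
      have := (hs i (l + 1)).le_w (show l < l + 1 by omega)
      omega)
  refine le_trans (le_of_eq ?_) (Cod.ev_le_N hmem y)
  rw [ev_sum_left]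
  refine Finset.sum_congr rfl fun i _ => ?_
  rw [ev_smul_left, ← hval]
  by_cases h : 0 ≤ ev (s i).val y
  · rw [if_pos h, one_mul, abs_of_nonneg h]
  · rw [if_neg h, abs_of_neg (not_le.1 h), neg_one_mul]

end Lim

theorem exists_assign {ι J : Type} [LinearOrder ι] [Uncountable ι]
    (hc : ∀ a : ι, (Set.Iio a).Countable) (hJ : Cardinal.mk J ≤ Cardinal.mk ι) (b : J → ι) :
    ∃ a : J → ι, Function.Injective a ∧ ∀ j, b j ≤ a j := by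
  have h1 : Cardinal.mk (J × ι) ≤ Cardinal.mk ι := by
    rw [Cardinal.mk_prod, Cardinal.lift_id, Cardinal.lift_id]
    exact (mul_le_mul_left hJ _).trans (Cardinal.mul_eq_self (Cardinal.aleph0_le_mk ι)).le
  obtain ⟨π⟩ := (Cardinal.le_def _ _).1 h1
  have h2 : ∀ j, ∃ z, b j ≤ π (j, z) := fun j => by
    by_contra h
    push Not at h
    have h3 : (Set.univ : Set ι).Countable := by
      refine Set.countable_of_injective_of_countable_image (f := fun z => π (j, z))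
        (fun z _ z' _ e => (Prod.ext_iff.1 (π.injective e)).2) ((hc (b j)).mono ?_)
      rintro _ ⟨z, -, rfl⟩
      exact h z
    exact Set.not_countable_univ h3
  choose z hz using h2
  exact ⟨fun j => π (j, z j), fun j j' e => (Prod.ext_iff.1 (π.injective e)).1, hz⟩

/-- the data needed for the construction of the space -/
theorem Cod.exists_data {ι : Type} [LinearOrder ι] [WellFoundedLT ι] [Uncountable ι]
    (hc : ∀ a : ι, (Set.Iio a).Countable) (K : Cod ι) (hK : K.Exact)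
    (A : Set (ℕ → ℕ)) (hA : Cardinal.mk A ≤ Cardinal.mk ι) (hm : ¬ IsMeagre A) :
    Nonempty (Data ι) := by
  classical
  obtain ⟨f, w, p, hs, hlt, hhit⟩ := Cod.exists_branches hc K hK
  let J : Set (ι → ℝ) := {Φ | {ξ | Φ ξ ≠ 0}.Infinite ∧ ∃ β, ∃ r ∈ A, hLim (f β r) = Φ}
  have hJ : ∀ Φ : J, ∃ β r, r ∈ A ∧ hLim (f β r) = Φ.1 := fun Φ => by
    obtain ⟨β, r, h1, h2⟩ := Φ.2.2
    exact ⟨β, r, h1, h2⟩
  choose β r hr hΦ using hJ
  have hcard : Cardinal.mk J ≤ Cardinal.mk ι := by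
    have h1 : Cardinal.mk J ≤ Cardinal.mk (A × ι) :=
      Cardinal.mk_le_of_injective (f := fun Φ : J => ((⟨r Φ, hr Φ⟩ : A), β Φ)) fun Φ Ψ e => by
        obtain ⟨e1, e2⟩ := Prod.ext_iff.1 e
        have e3 : r Φ = r Ψ := congrArg Subtype.val e1
        have e4 : β Φ = β Ψ := e2
        exact Subtype.ext (by rw [← hΦ Φ, ← hΦ Ψ, e3, e4])
    refine h1.trans ?_
    rw [Cardinal.mk_prod, Cardinal.lift_id, Cardinal.lift_id]
    exact (mul_le_mul_left hA _).trans (Cardinal.mul_eq_self (Cardinal.aleph0_le_mk ι)).le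
  obtain ⟨a, ha, hba⟩ := exists_assign hc hcard β
  let F : ι → ℕ → ι →₀ ℝ := Function.extend a (fun Φ => f (β Φ) (r Φ)) 0
  have hFa : ∀ Φ, F (a Φ) = f (β Φ) (r Φ) := fun Φ => ha.extend_apply _ _ Φ
  have hF0 : ∀ δ, (¬ ∃ Φ, a Φ = δ) → F δ = 0 := fun δ h => Function.extend_apply' _ _ δ h
  have hF : ∀ δ, F δ = 0 ∨ ∃ Φ, a Φ = δ := fun δ => by
    by_cases h : ∃ Φ, a Φ = δ
    exacts [Or.inr h, Or.inl (hF0 δ h)]
  refine ⟨⟨K.NS, Cod.coord_le_N, Cod.N_single_le, fun E hE y => Cod.N_res_le hE y,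
    Cod.lower_estimate, fun y ε hε => ?_, F, ?_, ?_, ?_, ?_, ?_, ?_⟩⟩
  · obtain ⟨g, hg, h1, h2⟩ := Cod.exists_norming (K := K) y hε
    exact ⟨g, h1, Cod.abs_le_one hg, Cod.abs_ev_le_N hg, h2⟩
  · intro δ l ξ hξ
    rcases hF δ with h | ⟨Φ, rfl⟩
    · simp [h] at hξ
    · rw [hFa] at hξ
      exact (hlt _ _ _ ξ hξ).trans_le (hba Φ)
  · intro δ l ξ
    rcases hF δ with h | ⟨Φ, rfl⟩
    · simp [h]
    · rw [hFa, ← inv_mm]
      have h1 := hs (β Φ) (r Φ) (l + 1)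
      refine (Cod.wt_abs_le (h1.1 l (by omega)) ξ).trans ?_
      exact inv_anti₀ (mm_pos l) (mm_mono (h1.le_w (by omega)))
  · intro δ l l' h
    rcases hF δ with h' | ⟨Φ, rfl⟩
    · rw [h']; exact Lt.zero_left _
    · rw [hFa]; exact Cod.succ_of_spec (hs _ _) l l' h
  · intro B
    obtain ⟨k₀, hk₀⟩ := Cod.c0_family (K := K) (fun Φ : J => f (β Φ) (r Φ))
      (fun Φ => w (β Φ) (r Φ)) (fun Φ => p (β Φ) (r Φ)) (fun Φ t => hs _ _ t)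
      (fun Φ Ψ hne => by
        by_contra h
        push Not at h
        refine hne (Subtype.ext ?_)
        rw [← hΦ Φ, ← hΦ Ψ]
        refine Cod.lim_eq (hs _ _) (hs _ _) h ?_ ?_
        · rw [hΦ]; exact Φ.2.1
        · rw [hΦ]; exact Ψ.2.1) (B.preimage a ha.injOn)
    refine ⟨k₀, fun k hk t y => le_trans (le_of_eq ?_) (hk₀ k hk t y)⟩
    rw [← Finset.sum_preimage a B ha.injOn
      (fun δ => |ev (∑ l ∈ Ico k t, F δ l : ι →₀ ℝ) y|)]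
    · exact Finset.sum_congr rfl fun Φ _ => by rw [hFa]
    · intro δ _ hδ
      rw [hF0 δ hδ]
      simp only [Pi.zero_apply, Finset.sum_const_zero, ev_zero_left, abs_zero]
  · intro δ t y
    rcases hF δ with h' | ⟨Φ, rfl⟩
    · rw [h']
      simp only [Pi.zero_apply, Finset.sum_const_zero, ev_zero_left, abs_zero]
      exact apply_nonneg _ _
    · rw [hFa]; exact Cod.abs_ev_le_N (hs _ _ t).sum_mem y
  · intro v hv
    obtain ⟨β₀, r₀, hr₀, C, hdom, hu⟩ := hhit A hm v hv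
    have hsupp : ∀ ξ, hLim (f β₀ r₀) ξ ≠ 0 → ∃ k, ∃ c ∈ (v k).support, ξ ≤ c := fun ξ hξ => by
      obtain ⟨l, hl⟩ := hLim_ne_zero hξ
      exact hdom ξ (hlt _ _ l ξ hl)
    have hu' : ∀ n₀, ∃ u ∈ tailSp v n₀, K.N u ≤ C ∧ ev (hLim (f β₀ r₀)) u = 1 := fun n₀ => by
      obtain ⟨u, h1, h2, t₀, h3⟩ := hu n₀
      obtain ⟨t₁, h4⟩ := hLim_ev (Cod.succ_of_spec (hs β₀ r₀)) u
      exact ⟨u, h1, h2, by rw [← h4 (t₀ + t₁) (by omega), h3 _ (by omega)]⟩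
    have hinf : {ξ | hLim (f β₀ r₀) ξ ≠ 0}.Infinite := fun hfin => by
      obtain ⟨n, -, hn⟩ := hv.exists_lt hfin.toFinset
        (fun ξ hξ => hsupp ξ (hfin.mem_toFinset.1 hξ)) 0
      obtain ⟨u, h1, -, h3⟩ := hu' n
      obtain ⟨ξ, h4, h5⟩ := exists_mem_of_ev_ne_zero (h3.trans_ne one_ne_zero)
      exact lt_irrefl ξ (hn u h1 ξ (hfin.mem_toFinset.2 h5) ξ h4)
    let Φ : J := ⟨hLim (f β₀ r₀), hinf, β₀, r₀, hr₀, rfl⟩
    have hΦ' : hLim (f (β Φ) (r Φ)) = hLim (f β₀ r₀) := hΦ Φ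
    refine ⟨a Φ, C, fun l => ?_, fun n₀ => ?_⟩
    · rw [hFa]
      obtain ⟨n, -, hn⟩ := hv.exists_lt (f (β Φ) (r Φ) l).support (fun ξ hξ => hsupp ξ (by
        rw [← hΦ']
        exact hLim_ne_zero_of_mem (Cod.succ_of_spec (hs _ _)) hξ)) 0
      exact ⟨n, hn (v n) (mem_tailSp v le_rfl)⟩
    · obtain ⟨u, h1, h2, h3⟩ := hu' n₀
      obtain ⟨t₁, h4⟩ := hLim_ev (Cod.succ_of_spec (hs (β Φ) (r Φ))) u
      refine ⟨u, h1, h2, t₁, fun t ht => ?_⟩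
      rw [hFa, h4 t ht, hΦ', h3]

end Vale.Agent.P129
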