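import Vale.Agent.P129.KillA

/-! The block sequence used in the proof of `Data.kill`. -/

namespace Vale.Agent.P129

open Finset

variable {ι : Type} [LinearOrder ι] {V : Type*} [NormedAddCommGroup V] [NormedSpace ℝ V]

/-- the projection onto `L` is bounded below on an infinite-dimensional subspace of `Z₀` -/
def KillGood (P : Set ι → V →L[ℝ] V) (Z₀ : Submodule ℝ V) (L : Set ι) : Prop :=
  ∃ Z : Submodule ℝ V, Z ≤ Z₀ ∧ ¬ Z.FG ∧ ∃ κ : ℝ, 0 < κ ∧ ∀ w ∈ Z, κ * ‖w‖ ≤ ‖P L w‖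

theorem kill_step {j : (ι →₀ ℝ) →ₗ[ℝ] V} (hj₃ : DenseRange j) {P : Set ι → V →L[ℝ] V}
    (hP : ∀ E : Set ι, E.OrdConnected →
      (∀ y, P E (j y) = j (res E y)) ∧ ∀ z, ‖P E z‖ ≤ 3 * ‖z‖)
    {Z₀ : Submodule ℝ V} {L E : Set ι} (hL : IsLowerSet L) (hE : IsLowerSet E) (hEL : E ⊆ L)
    (hbad : ¬ KillGood P Z₀ E) {Z : Submodule ℝ V} (hZ : Z ≤ Z₀) (hfg : ¬ Z.FG) {ε : ℝ}
    (hε : 0 < ε) : ∃ z ∈ Z, ‖z‖ = 1 ∧ ∃ v : ι →₀ ℝ, (v.support : Set ι) ⊆ L \ E ∧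
      ‖P L z - j v‖ ≤ ε := by
  have h1 : ∃ w ∈ Z, ‖P E w‖ < ε / 7 * ‖w‖ := by
    by_contra h
    push Not at h
    exact hbad ⟨Z, hZ, hfg, ε / 7, by positivity, h⟩
  obtain ⟨w, hw, hlt⟩ := h1
  have hw0 : 0 < ‖w‖ := by
    by_contra h
    have : ‖w‖ = 0 := le_antisymm (not_lt.1 h) (norm_nonneg _)
    rw [this, mul_zero] at hlt
    exact absurd hlt (not_lt.2 (norm_nonneg _))
  set z : V := ‖w‖⁻¹ • w with hz
  have hz1 : ‖z‖ = 1 := by
    rw [hz, norm_smul, norm_inv, norm_norm, inv_mul_cancel₀ hw0.ne']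
  have hz2 : ‖P E z‖ ≤ ε / 7 := by
    rw [hz, map_smul, norm_smul, norm_inv, norm_norm, inv_mul_le_iff₀ hw0]
    linarith
  obtain ⟨y, hy⟩ := Metric.denseRange_iff.1 hj₃ z (ε / 7) (by positivity)
  rw [dist_eq_norm] at hy
  refine ⟨z, Z.smul_mem _ hw, hz1, res (L \ E) y, support_res_subset' _ _, ?_⟩
  have hsplit : res L y = res E y + res (L \ E) y := by
    rw [← res_union Set.disjoint_sdiff_right, Set.union_diff_cancel hEL]
  have hLy := (hP L hL.ordConnected).1 y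
  have hEy := (hP E hE.ordConnected).1 y
  have key : P L z - j (res (L \ E) y) = P L (z - j y) - P E (z - j y) + P E z := by
    rw [map_sub, map_sub, hLy, hEy, hsplit, map_add]
    abel
  rw [key]
  have a1 := (hP L hL.ordConnected).2 (z - j y)
  have a2 := (hP E hE.ordConnected).2 (z - j y)
  have a3 := norm_add_le (P L (z - j y) - P E (z - j y)) (P E z)
  have a4 := norm_sub_le (P L (z - j y)) (P E (z - j y))
  linarith

theorem kill_exists_L [WellFoundedLT ι] {j : (ι →₀ ℝ) →ₗ[ℝ] V} (hj₃ : DenseRange j)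
    {P : Set ι → V →L[ℝ] V} {c : ι → V →L[ℝ] ℝ}
    (hP : ∀ E : Set ι, E.OrdConnected →
      (∀ y, P E (j y) = j (res E y)) ∧ ∀ z, ‖P E z‖ ≤ 3 * ‖z‖)
    (hc : ∀ d y, c d (j y) = y d) {Z₀ : Submodule ℝ V} (hZ₀ : ¬ Z₀.FG) :
    ∃ L : Set ι, IsLowerSet L ∧ KillGood P Z₀ L ∧ ∀ A : Finset ι, (A : Set ι) ⊆ L →
      ∃ E : Set ι, IsLowerSet E ∧ E ⊆ L ∧ ¬ KillGood P Z₀ E ∧ ∀ a ∈ A, ∀ b, b ∉ E → a < b := by
  have h1 : ∃ L : Set ι, IsLowerSet L ∧ KillGood P Z₀ L ∧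
      ∀ a ∈ L, ¬ KillGood P Z₀ (Set.Iio a) := by
    by_cases h : ∃ b, KillGood P Z₀ (Set.Iio b)
    · let S : Set ι := {b | KillGood P Z₀ (Set.Iio b)}
      have hS : S.Nonempty := h
      refine ⟨Set.Iio (wellFounded_lt.min S hS), isLowerSet_Iio _,
        wellFounded_lt.min_mem S hS, fun a ha hg => ?_⟩
      exact wellFounded_lt.not_lt_min S hg ha
    · push Not at h
      refine ⟨Set.univ, isLowerSet_univ, ⟨Z₀, le_rfl, hZ₀, 1, one_pos, fun w _ => ?_⟩,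
        fun a _ => h a⟩
      have : P Set.univ w = w := by
        refine hj₃.induction_on (p := fun w => P Set.univ w = w) w
          (isClosed_eq (P _).continuous continuous_id) fun y => ?_
        rw [(hP _ Set.ordConnected_univ).1, res_univ]
      rw [this, one_mul]
  obtain ⟨L, hL, hgood, hbad⟩ := h1
  refine ⟨L, hL, hgood, fun A hA => ?_⟩
  rcases A.eq_empty_or_nonempty with rfl | hne
  · refine ⟨∅, isLowerSet_empty, Set.empty_subset _, ?_, by simp⟩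
    rintro ⟨Z, -, hfg, κ, hκ, hZ⟩
    apply hfg
    have : Z = ⊥ := by
      rw [Submodule.eq_bot_iff]
      intro w hw
      have h0 : P ∅ w = 0 := by
        refine hj₃.induction_on (p := fun w => P ∅ w = 0) w
          (isClosed_eq (P _).continuous continuous_const) fun y => ?_
        rw [(hP _ Set.ordConnected_empty).1, res_eq_zero (by simp), map_zero]
      have := hZ w hw
      rw [h0, norm_zero] at this
      have h2 : ‖w‖ ≤ 0 := by
        by_contra h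
        have := mul_pos hκ (not_le.1 h)
        linarith
      exact norm_le_zero_iff.1 h2
    rw [this]
    exact Submodule.fg_bot
  · set a := A.max' hne with ha
    have haL : a ∈ L := hA (A.max'_mem hne)
    refine ⟨Set.Iic a, isLowerSet_Iic a, fun b hb => hL hb haL, ?_, fun a' ha' b hb =>
      (A.le_max' a' ha').trans_lt (not_le.1 hb)⟩
    rintro ⟨Z, hZ, hfg, κ, hκ, hlow⟩
    refine hbad a haL ⟨Z ⊓ LinearMap.ker (c a : V →ₗ[ℝ] ℝ), inf_le_left.trans hZ,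
      kill_inf_ker hfg _, κ, hκ, fun w hw => ?_⟩
    have h2 : P (Set.Iic a) w = P (Set.Iio a) w + c a w • j (Finsupp.single a 1) := by
      refine hj₃.induction_on
        (p := fun w => P (Set.Iic a) w = P (Set.Iio a) w + c a w • j (Finsupp.single a 1)) w
        (isClosed_eq (P _).continuous (by fun_prop)) fun y => ?_
      rw [(hP _ Set.ordConnected_Iic).1, (hP _ Set.ordConnected_Iio).1, hc, ← map_smul,
        ← map_add]
      congr 1
      ext ξ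
      rcases lt_trichotomy ξ a with h | rfl | h
      · rw [res_apply_of_mem _ (show ξ ∈ Set.Iic a from h.le), Finsupp.add_apply,
          res_apply_of_mem _ (show ξ ∈ Set.Iio a from h)]
        simp [h.ne']
      · rw [res_apply_of_mem _ (show a ∈ Set.Iic a from le_rfl), Finsupp.add_apply,
          res_apply_of_notMem _ (show a ∉ Set.Iio a from lt_irrefl a)]
        simp
      · rw [res_apply_of_notMem _ (show ξ ∉ Set.Iic a from not_le.2 h), Finsupp.add_apply,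
          res_apply_of_notMem _ (show ξ ∉ Set.Iio a from not_lt.2 h.le)]
        simp [h.ne]
    have h3 : c a w = 0 := hw.2
    have h4 := hlow w hw.1
    rw [h2, h3, zero_smul, add_zero] at h4
    exact h4

theorem kill_blocks [WellFoundedLT ι] [Nonempty ι] {j : (ι →₀ ℝ) →ₗ[ℝ] V} (hj₃ : DenseRange j)
    {P : Set ι → V →L[ℝ] V} {c : ι → V →L[ℝ] ℝ}
    (hP : ∀ E : Set ι, E.OrdConnected →
      (∀ y, P E (j y) = j (res E y)) ∧ ∀ z, ‖P E z‖ ≤ 3 * ‖z‖)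
    (hc : ∀ d y, c d (j y) = y d) {Z₀ : Submodule ℝ V} (hZ₀ : ¬ Z₀.FG) (φ : ℕ → V →ₗ[ℝ] ℝ) :
    ∃ (L : Set ι) (κ : ℝ) (Z : Submodule ℝ V) (z : ℕ → V) (v : ℕ → ι →₀ ℝ),
      IsLowerSet L ∧ 0 < κ ∧ Z ≤ Z₀ ∧ (∀ w ∈ Z, κ * ‖w‖ ≤ ‖P L w‖) ∧
      (∀ n, z n ∈ Z ∧ ‖z n‖ = 1 ∧ (∀ i < n, φ i (z n) = 0) ∧ ((v n).support : Set ι) ⊆ L ∧
        Lt (v n) (v (n + 1)) ∧ ‖P L (z n) - j (v n)‖ ≤ κ / 4 * (1 / 2) ^ n) ∧
      ∀ d, ∃ n₀, ∀ n, n₀ ≤ n → c d (z n) = 0 := by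
  obtain ⟨L, hL, ⟨Z', hZ', hfg', κ, hκ, hlow⟩, hA⟩ := kill_exists_L hj₃ hP hc hZ₀
  obtain ⟨w, hwZ, hfg⟩ := kill_shrink hfg'
  set Z := Submodule.span ℝ (Set.range w) with hZdef
  have hC : (⋃ i, {d | c d (w i) ≠ 0}).Countable :=
    Set.countable_iUnion fun i => kill_countable j hj₃ c hc (w i)
  obtain ⟨d, hd⟩ := Set.countable_iff_exists_subset_range.1 hC
  have hoff : ∀ δ, δ ∉ Set.range d → ∀ u ∈ Z, c δ u = 0 := by
    intro δ hδ u hu
    have : Z ≤ LinearMap.ker (c δ : V →ₗ[ℝ] ℝ) := by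
      rw [hZdef, Submodule.span_le]
      rintro _ ⟨i, rfl⟩
      by_contra h
      exact hδ (hd (Set.mem_iUnion.2 ⟨i, h⟩))
    exact this hu
  have step : ∀ (n : ℕ) (A : Finset ι), ∃ p : V × (ι →₀ ℝ), (A : Set ι) ⊆ L →
      p.1 ∈ Z ∧ ‖p.1‖ = 1 ∧ (∀ i < n, φ i p.1 = 0 ∧ c (d i) p.1 = 0) ∧
      (p.2.support : Set ι) ⊆ L ∧ (∀ a ∈ A, ∀ b ∈ p.2.support, a < b) ∧
      ‖P L p.1 - j p.2‖ ≤ κ / 4 * (1 / 2) ^ n := by
    intro n A
    by_cases hAL : (A : Set ι) ⊆ L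
    swap
    · exact ⟨0, fun h => absurd h hAL⟩
    obtain ⟨E, hE, hEL, hbad, hlt⟩ := hA A hAL
    let T : V →ₗ[ℝ] (Fin n → ℝ × ℝ) :=
      LinearMap.pi fun i : Fin n => (φ i).prod (c (d i) : V →ₗ[ℝ] ℝ)
    obtain ⟨z, hz, hz1, v, hv, hle⟩ := kill_step hj₃ hP hL hE hEL hbad
      (Z := Z ⊓ LinearMap.ker T) (inf_le_left.trans (hwZ.trans hZ')) (kill_inf_ker hfg T)
      (ε := κ / 4 * (1 / 2) ^ n) (by positivity)
    refine ⟨(z, v), fun _ => ⟨hz.1, hz1, fun i hi => ?_, fun b hb => (hv hb).1,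
      fun a ha b hb => hlt a ha b (hv hb).2, hle⟩⟩
    have := congrFun (LinearMap.mem_ker.1 hz.2) ⟨i, hi⟩
    exact ⟨congrArg Prod.fst this, congrArg Prod.snd this⟩
  choose g hg using step
  let p : ℕ → V × (ι →₀ ℝ) := fun n => Nat.rec (g 0 ∅) (fun n q => g (n + 1) q.2.support) n
  have hp0 : p 0 = g 0 ∅ := rfl
  have hps : ∀ n, p (n + 1) = g (n + 1) (p n).2.support := fun n => rfl
  have hsupp : ∀ n, ((p n).2.support : Set ι) ⊆ L := by
    intro n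
    induction n with
    | zero => rw [hp0]; exact (hg 0 ∅ (by simp)).2.2.2.1
    | succ n ih => rw [hps]; exact (hg _ _ ih).2.2.2.1
  have hall : ∀ n, (p n).1 ∈ Z ∧ ‖(p n).1‖ = 1 ∧
      (∀ i < n, φ i (p n).1 = 0 ∧ c (d i) (p n).1 = 0) ∧
      ‖P L (p n).1 - j (p n).2‖ ≤ κ / 4 * (1 / 2) ^ n := by
    intro n
    cases n with
    | zero =>
      rw [hp0]
      obtain ⟨a1, a2, a3, -, -, a4⟩ := hg 0 ∅ (by simp)
      exact ⟨a1, a2, a3, a4⟩
    | succ n =>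
      rw [hps]
      obtain ⟨a1, a2, a3, -, -, a4⟩ := hg (n + 1) _ (hsupp n)
      exact ⟨a1, a2, a3, a4⟩
  refine ⟨L, κ, Z, fun n => (p n).1, fun n => (p n).2, hL, hκ, hwZ.trans hZ',
    fun u hu => hlow u (hwZ hu), fun n => ⟨(hall n).1, (hall n).2.1,
      fun i hi => ((hall n).2.2.1 i hi).1, hsupp n, ?_, (hall n).2.2.2⟩, fun δ => ?_⟩
  · intro a ha b hb
    exact (hg (n + 1) _ (hsupp n)).2.2.2.2.1 a ha b hb
  · by_cases hδ : δ ∈ Set.range d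
    · obtain ⟨i, rfl⟩ := hδ
      exact ⟨i + 1, fun n hn => ((hall n).2.2.1 i hn).2⟩
    · exact ⟨0, fun n _ => hoff δ hδ _ (hall n).1⟩

end Vale.Agent.P129
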