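import Mathlib

namespace Vale.Agent.P129

/-- `X` has a separable infinite-dimensional quotient. -/
def HasSepQuotient (𝕜 : Type) [RCLike 𝕜] (X : Type*) [NormedAddCommGroup X]
    [NormedSpace 𝕜 X] : Prop :=
  ∃ M : Submodule 𝕜 X, IsClosed (M : Set X) ∧
    TopologicalSpace.SeparableSpace (X ⧸ M) ∧ ¬ FiniteDimensional 𝕜 (X ⧸ M)

end Vale.Agent.P129
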