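import Vale.Agent.P129.Pre
import Vale.Agent.P129.Stmt
import Vale.Agent.P129.KillB

namespace Vale.Agent.P129

open Finset

theorem kill_geom {A : Finset ℕ} {n₀ : ℕ} (h : ∀ n ∈ A, n₀ ≤ n) :
    ∑ n ∈ A, (1 / 2 : ℝ) ^ n ≤ 2 * (1 / 2) ^ n₀ := by
  have h1 : A ⊆ Ico n₀ (A.sup id + 1) := fun n hn =>
    mem_Ico.2 ⟨h n hn, Nat.lt_succ_of_le (Finset.le_sup (f := id) hn)⟩
  refine (Finset.sum_le_sum_of_subset_of_nonneg h1 fun _ _ _ => by positivity).trans ?_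
  refine (geom_sum_Ico_le_of_lt_one (by norm_num) (by norm_num)).trans (le_of_eq ?_)
  ring

theorem kill_small (C : ℝ) {ε : ℝ} (hε : 0 < ε) : ∃ n : ℕ, ∀ m, n ≤ m → (1 / 2 : ℝ) ^ m * C ≤ ε := by
  have h : Filter.Tendsto (fun m : ℕ => (1 / 2 : ℝ) ^ m * C) Filter.atTop (nhds (0 * C)) :=
    (tendsto_pow_atTop_nhds_zero_of_lt_one (by norm_num) (by norm_num)).mul_const C
  rw [zero_mul] at h
  exact Filter.eventually_atTop.1 (h.eventually (ge_mem_nhds hε))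

theorem Data.kill_rep {ι : Type} [LinearOrder ι] (D : Data ι) {V : Type*} [NormedAddCommGroup V]
    [NormedSpace ℝ V] (j : (ι →₀ ℝ) →ₗ[ℝ] V) (Q : V →L[ℝ] V) {κ C : ℝ} (hκ : 0 < κ)
    {z : ℕ → V} {v : ℕ → ι →₀ ℝ} (hv : IsBlock v) (hN : ∀ n, κ / 2 ≤ D.N (v n))
    (hz : ∀ n, ‖Q (z n) - j (v n)‖ ≤ κ / 4 * (1 / 2) ^ n) {n₀ : ℕ} {u : ι →₀ ℝ}
    (hu : u ∈ tailSp v n₀) (hC : D.N u ≤ C) :
    ∃ w ∈ Submodule.span ℝ (z '' Set.Ici n₀), ‖Q w - j u‖ ≤ (1 / 2) ^ n₀ * C := by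
  obtain ⟨a, ha, rfl⟩ := (Finsupp.mem_span_image_iff_linearCombination ℝ).1 hu
  have hC0 : 0 ≤ C := (apply_nonneg _ _).trans hC
  refine ⟨Finsupp.linearCombination ℝ z a,
    (Finsupp.mem_span_image_iff_linearCombination ℝ).2 ⟨a, ha, rfl⟩, ?_⟩
  have hsupp : ∀ n ∈ a.support, n₀ ≤ n := fun n hn => (Finsupp.mem_supported ℝ a).1 ha hn
  have hcoef : ∀ n ∈ a.support, |a n| * (κ / 2) ≤ C := by
    intro n hn
    have h1 : res (hull (v n)) (Finsupp.linearCombination ℝ v a) = a n • v n := by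
      rw [Finsupp.linearCombination_apply, Finsupp.sum, map_sum, Finset.sum_eq_single n]
      · rw [map_smul, res_hull_self]
      · intro m _ hm
        rw [map_smul]
        rcases lt_or_gt_of_ne hm with h | h
        · rw [(hv.2 m n h).res_hull_right, smul_zero]
        · rw [(hv.2 n m h).res_hull_left, smul_zero]
      · exact fun h => absurd hn h
    have h2 := D.res_le _ (ordConnected_hull (v n)) (Finsupp.linearCombination ℝ v a)
    rw [h1, map_smul_eq_mul, Real.norm_eq_abs] at h2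
    exact (mul_le_mul_of_nonneg_left (hN n) (abs_nonneg _)).trans (h2.trans hC)
  have h3 : Q (Finsupp.linearCombination ℝ z a) - j (Finsupp.linearCombination ℝ v a) =
      ∑ n ∈ a.support, a n • (Q (z n) - j (v n)) := by
    rw [Finsupp.linearCombination_apply, Finsupp.linearCombination_apply, Finsupp.sum,
      Finsupp.sum, map_sum, map_sum, ← Finset.sum_sub_distrib]
    refine Finset.sum_congr rfl fun n _ => ?_
    rw [map_smul, map_smul, smul_sub]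
  rw [h3]
  calc ‖∑ n ∈ a.support, a n • (Q (z n) - j (v n))‖
      ≤ ∑ n ∈ a.support, ‖a n • (Q (z n) - j (v n))‖ := norm_sum_le _ _
    _ ≤ ∑ n ∈ a.support, C / 2 * (1 / 2) ^ n := by
        refine Finset.sum_le_sum fun n hn => ?_
        rw [norm_smul, Real.norm_eq_abs]
        have h4 := hcoef n hn
        have h5 : (0 : ℝ) ≤ (1 / 2) ^ n := by positivity
        calc |a n| * ‖Q (z n) - j (v n)‖ ≤ |a n| * (κ / 4 * (1 / 2) ^ n) :=
              mul_le_mul_of_nonneg_left (hz n) (abs_nonneg _)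
          _ = (|a n| * (κ / 2)) / 2 * (1 / 2) ^ n := by ring
          _ ≤ C / 2 * (1 / 2) ^ n := by gcongr
    _ = C / 2 * ∑ n ∈ a.support, (1 / 2 : ℝ) ^ n := by rw [Finset.mul_sum]
    _ ≤ C / 2 * (2 * (1 / 2) ^ n₀) :=
        mul_le_mul_of_nonneg_left (kill_geom hsupp) (by positivity)
    _ = (1 / 2) ^ n₀ * C := by ring

/-- the predual space has no separable infinite-dimensional quotient -/
theorem Data.kill {ι : Type} [LinearOrder ι] [WellFoundedLT ι] [Infinite ι] (D : Data ι)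
    (X : Type) [NormedAddCommGroup X] [NormedSpace ℝ X]
    (j : (ι →₀ ℝ) →ₗ[ℝ] StrongDual ℝ X) (e : ι → X)
    (hj₁ : ∀ y, ‖j y‖ ≤ D.N y) (hj₂ : ∀ y, D.N y ≤ 3 * ‖j y‖) (hj₃ : DenseRange j)
    (he : ∀ δ y (l₀ t₀ : ℕ) (c : ℝ), (∀ l < l₀, Lt (D.F δ l) y) →
        (∀ t, t₀ ≤ t → ev (∑ l ∈ range t, D.F δ l : ι →₀ ℝ) y = c) →
        |j y (e δ) - y δ - c| ≤ (1 / 2) ^ l₀ * D.N y) :
    ¬ FiniteDimensional ℝ X ∧ ¬ HasSepQuotient ℝ X := by
  classical
  constructor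
  · intro hfin
    have hinj : Function.Injective j := by
      rw [injective_iff_map_eq_zero]
      intro y hy
      ext ξ
      have h1 := D.coord_le y ξ
      have h2 := hj₂ y
      rw [hy, norm_zero, mul_zero] at h2
      exact abs_nonpos_iff.1 (h1.trans h2)
    haveI : FiniteDimensional ℝ (ι →₀ ℝ) := FiniteDimensional.of_injective j hinj
    exact Module.Finite.not_linearIndependent_of_infinite _
      (Finsupp.basisSingleOne (ι := ι) (R := ℝ)).linearIndependent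
  rintro ⟨M, hM, hsep, hinf⟩
  obtain ⟨P, c, hP, hc⟩ := D.kill_proj j hj₁ hj₂ hj₃
  obtain ⟨x, hx⟩ := kill_dense_seq M hsep
  obtain ⟨L, κ, Z, z, v, hL, hκ, hZ, hlow, hall, hcz⟩ := kill_blocks hj₃ hP hc
    (killAnn_not_fg hM hinf)
    (fun i => (ContinuousLinearMap.apply ℝ ℝ (x i) : StrongDual ℝ X →L[ℝ] ℝ))
  have hN : ∀ n, κ / 2 ≤ D.N (v n) := by
    intro n
    obtain ⟨h1, h2, -, -, -, h3⟩ := hall n
    have h4 := hlow _ h1
    rw [h2, mul_one] at h4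
    have h5 : (1 / 2 : ℝ) ^ n ≤ 1 := pow_le_one₀ (by norm_num) (by norm_num)
    have h6 : κ / 4 * (1 / 2 : ℝ) ^ n ≤ κ / 4 := mul_le_of_le_one_right (by positivity) h5
    have h7 := norm_sub_norm_le (P L (z n)) (j (v n))
    have h8 := hj₁ (v n)
    linarith
  have hne : ∀ n, v n ≠ 0 := by
    intro n h
    have := hN n
    rw [h, map_zero] at this
    linarith
  have hblock : IsBlock v := by
    refine ⟨hne, fun n n' h => ?_⟩
    induction n', h using Nat.le_induction with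
    | base => exact (hall n).2.2.2.2.1
    | succ m _ ih => exact ih.trans (hall m).2.2.2.2.1 (hne m)
  obtain ⟨δ, C, hF, hu⟩ := D.hit v hblock
  have hC0 : 0 ≤ C := by
    obtain ⟨u, -, h, -⟩ := hu 0
    exact (apply_nonneg _ _).trans h
  have hFL : ∀ l, ∀ y : ι →₀ ℝ, Lt (D.F δ l) (res Lᶜ y) := by
    intro l y a ha b hb
    obtain ⟨n, hn⟩ := hF l
    obtain ⟨b', hb'⟩ := Finsupp.support_nonempty_iff.2 (hne n)
    have haL : a ∈ L := hL (hn a ha b' hb').le ((hall n).2.2.2.1 hb')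
    by_contra hab
    exact (mem_support_res.1 hb).2 (hL (not_lt.1 hab) haL)
  have hid : ∀ w : StrongDual ℝ X,
      w (e δ) = P L w (e δ) + (if δ ∈ L then 0 else 1) * c δ w := by
    intro w
    refine hj₃.induction_on
      (p := fun w => w (e δ) = P L w (e δ) + (if δ ∈ L then 0 else 1) * c δ w) w
      (isClosed_eq (by fun_prop) (by fun_prop)) fun y => ?_
    have h1 : j (res Lᶜ y) (e δ) - res Lᶜ y δ - 0 = 0 := by
      rw [← abs_nonpos_iff]
      refine le_of_forall_pos_le_add fun ε hε => ?_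
      obtain ⟨n, hn⟩ := kill_small (D.N (res Lᶜ y)) hε
      have := he δ (res Lᶜ y) n 0 0 (fun l _ => hFL l y)
        fun t _ => (Lt.sum_left fun l _ => hFL l y).ev_eq_zero
      linarith [hn n le_rfl]
    have h2 : j y (e δ) = j (res L y) (e δ) + j (res Lᶜ y) (e δ) := by
      rw [← ContinuousLinearMap.add_apply, ← map_add, res_add_res_compl]
    rw [(hP L hL.ordConnected).1, hc, h2]
    split_ifs with h
    · rw [res_apply_of_notMem _ (show δ ∉ Lᶜ from fun h' => h' h)] at h1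
      linarith
    · rw [res_apply_of_mem _ (show δ ∈ Lᶜ from h)] at h1
      linarith
  obtain ⟨l₀, hl₀⟩ := kill_small C (ε := 1 / 4) (by norm_num)
  obtain ⟨n₁, hn₁⟩ := kill_small (C * ‖e δ‖) (ε := 1 / 4) (by norm_num)
  obtain ⟨n₂, hn₂⟩ := hcz δ
  obtain ⟨i, m, hm, hi⟩ := hx (e δ) (κ / (8 * (C + 1))) (by positivity)
  choose k hk using hF
  have h4 : ∃ n₄, ∀ u ∈ tailSp v n₄, u δ = 0 := by
    by_cases h : ∃ n, δ ∈ (v n).support
    · obtain ⟨n, hn⟩ := h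
      refine ⟨n + 1, fun u hu => ?_⟩
      by_contra h'
      obtain ⟨n', h1, h2⟩ := exists_support_of_mem_tailSp hu (Finsupp.mem_support_iff.2 h')
      exact lt_irrefl _ (hblock.2 n n' h1 δ hn δ h2)
    · refine ⟨0, fun u hu => ?_⟩
      by_contra h'
      obtain ⟨n', -, h2⟩ := exists_support_of_mem_tailSp hu (Finsupp.mem_support_iff.2 h')
      exact h ⟨n', h2⟩
  obtain ⟨n₄, hn₄⟩ := h4
  obtain ⟨n₀, b₁, b₂, b₃, b₄, b₅⟩ : ∃ n₀, n₁ ≤ n₀ ∧ n₂ ≤ n₀ ∧ (range l₀).sup k ≤ n₀ ∧ n₄ ≤ n₀ ∧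
      i < n₀ := ⟨n₁ + n₂ + (range l₀).sup k + n₄ + i + 1, by omega, by omega, by omega, by omega,
        by omega⟩
  obtain ⟨u, hut, huC, t₀, ht₀⟩ := hu n₀
  obtain ⟨w, hw, hwu⟩ := D.kill_rep j (P L) hκ hblock hN (fun n => (hall n).2.2.2.2.2) hut huC
  have hw' : w ∈ Z ∧ w (x i) = 0 ∧ c δ w = 0 := by
    refine Submodule.span_induction (p := fun w _ => w ∈ Z ∧ w (x i) = 0 ∧ c δ w = 0)
      ?_ ?_ ?_ ?_ hw
    · rintro _ ⟨n, hn, rfl⟩
      exact ⟨(hall n).1, (hall n).2.2.1 i (b₅.trans_le hn), hn₂ n (b₂.trans hn)⟩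
    · exact ⟨Z.zero_mem, rfl, map_zero _⟩
    · rintro a b - - ⟨a1, a2, a3⟩ ⟨b1, b2, b3⟩
      exact ⟨Z.add_mem a1 b1, by simp [a2, b2], by simp [a3, b3]⟩
    · rintro r a - ⟨a1, a2, a3⟩
      exact ⟨Z.smul_mem r a1, by simp [a2], by simp [a3]⟩
  obtain ⟨hwZ, hwx, hwc⟩ := hw'
  have e1 : |j u (e δ) - u δ - 1| ≤ (1 / 2) ^ l₀ * D.N u :=
    he δ u l₀ t₀ 1 (fun l hl => hblock.lt_tailSp (hk l) (tailSp_anti v
      ((Finset.le_sup (f := k) (mem_range.2 hl)).trans b₃) hut)) ht₀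
  rw [hn₄ u (tailSp_anti v b₄ hut), sub_zero] at e1
  have e2 : (1 / 2 : ℝ) ^ l₀ * D.N u ≤ 1 / 4 :=
    (mul_le_mul_of_nonneg_left huC (by positivity)).trans (hl₀ l₀ le_rfl)
  have e3 : |P L w (e δ) - j u (e δ)| ≤ 1 / 4 := by
    rw [← ContinuousLinearMap.sub_apply, ← Real.norm_eq_abs]
    refine ((P L w - j u).le_opNorm _).trans ?_
    refine (mul_le_mul_of_nonneg_right hwu (norm_nonneg _)).trans ?_
    rw [mul_assoc]
    exact hn₁ n₀ b₁
  have e4 : κ * ‖w‖ ≤ 2 * C := by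
    have h1 := hlow w hwZ
    have h2 := norm_sub_norm_le (P L w) (j u)
    have h3 := hj₁ u
    have h5 : (1 / 2 : ℝ) ^ n₀ ≤ 1 := pow_le_one₀ (by norm_num) (by norm_num)
    have h6 : (1 / 2 : ℝ) ^ n₀ * C ≤ C := mul_le_of_le_one_left hC0 h5
    linarith
  have e5 : |w (e δ)| ≤ 1 / 4 := by
    have h1 : w (e δ) = w (e δ - x i - m) := by
      rw [map_sub, map_sub, hwx, hZ hwZ m hm, sub_zero, sub_zero]
    rw [h1, ← Real.norm_eq_abs]
    refine (w.le_opNorm _).trans ?_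
    refine (mul_le_mul_of_nonneg_left hi.le (norm_nonneg _)).trans ?_
    rw [mul_div_assoc', div_le_iff₀ (by positivity)]
    linarith
  have e6 := hid w
  rw [hwc, mul_zero, add_zero] at e6
  rw [abs_le] at e1 e3 e5
  linarith [e1.1, e3.1, e5.2]

end Vale.Agent.P129
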