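import Vale.Agent.P129.Basic

/-! The sign lemma. -/

namespace Vale.Agent.P129

open Finset

theorem exists_signs_cosh {κ : Type*} (A : Finset κ) (a : κ → ℕ → ℝ)
    (ha : ∀ c ∈ A, ∀ k, |a c k| ≤ 1) (δ : ℝ) (M : ℕ) :
    ∃ ε : ℕ → ℝ, (∀ i, ε i = 1 ∨ ε i = -1) ∧
      ∑ c ∈ A, Real.cosh (δ * ∑ k ∈ range M, ε k * a c k) ≤ A.card * Real.exp (δ ^ 2 / 2 * M) := by
  classical
  induction M with
  | zero => exact ⟨fun _ => 1, fun _ => Or.inl rfl, by simp⟩
  | succ M ih =>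
    obtain ⟨ε, h1, h2⟩ := ih
    have key : ∃ σ : ℝ, (σ = 1 ∨ σ = -1) ∧
        ∑ c ∈ A, Real.cosh (δ * (∑ k ∈ range M, ε k * a c k + σ * a c M)) ≤
          A.card * Real.exp (δ ^ 2 / 2 * (M + 1 : ℕ)) := by
      by_contra hc
      push Not at hc
      have e1 := hc 1 (Or.inl rfl)
      have e2 := hc (-1) (Or.inr rfl)
      have e3 : ∑ c ∈ A, Real.cosh (δ * (∑ k ∈ range M, ε k * a c k + 1 * a c M)) +
          ∑ c ∈ A, Real.cosh (δ * (∑ k ∈ range M, ε k * a c k + -1 * a c M)) ≤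
          2 * Real.exp (δ ^ 2 / 2) * ∑ c ∈ A, Real.cosh (δ * ∑ k ∈ range M, ε k * a c k) := by
        rw [← Finset.sum_add_distrib, Finset.mul_sum]
        refine Finset.sum_le_sum fun c hc => ?_
        rw [mul_add, mul_add, one_mul, neg_one_mul, mul_neg, ← sub_eq_add_neg, Real.cosh_add,
          Real.cosh_sub]
        have e4 : Real.cosh (δ * a c M) ≤ Real.exp (δ ^ 2 / 2) := by
          refine (Real.cosh_le_exp_half_sq _).trans (Real.exp_le_exp.2 ?_)
          have : a c M ^ 2 ≤ 1 := by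
            have := ha c hc M
            rw [← sq_abs]; nlinarith [abs_nonneg (a c M)]
          rw [mul_pow]
          nlinarith [sq_nonneg δ]
        nlinarith [Real.cosh_pos (δ * ∑ k ∈ range M, ε k * a c k)]
      have e5 : Real.exp (δ ^ 2 / 2 * (M + 1 : ℕ)) =
          Real.exp (δ ^ 2 / 2) * Real.exp (δ ^ 2 / 2 * M) := by
        rw [← Real.exp_add]; push_cast; ring_nf
      rw [e5] at e1 e2
      nlinarith [Real.exp_pos (δ ^ 2 / 2)]
    obtain ⟨σ, hσ, h3⟩ := key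
    refine ⟨Function.update ε M σ, fun i => ?_, le_of_eq_of_le ?_ h3⟩
    · by_cases h : i = M
      · subst h; simpa using hσ
      · simpa [h] using h1 i
    · refine Finset.sum_congr rfl fun c _ => ?_
      rw [Finset.sum_range_succ, Function.update_self]
      congr 3
      exact Finset.sum_congr rfl fun k hk => by
        rw [Function.update_of_ne (Finset.mem_range.1 hk).ne]

theorem exists_signs {κ : Type*} (A : Finset κ) (a : κ → ℕ → ℝ)
    (ha : ∀ c ∈ A, ∀ k, |a c k| ≤ 1) {δ : ℝ} (hδ : 0 < δ) (M : ℕ)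
    (hM : 2 * A.card ≤ Real.exp (δ ^ 2 / 2 * M)) :
    ∃ ε : ℕ → ℝ, (∀ i, ε i = 1 ∨ ε i = -1) ∧
      ∀ c ∈ A, |∑ k ∈ range M, ε k * a c k| ≤ δ * M := by
  obtain ⟨ε, h1, h2⟩ := exists_signs_cosh A a ha δ M
  refine ⟨ε, h1, fun c hc => ?_⟩
  by_contra hlt
  push Not at hlt
  have e1 := (Finset.single_le_sum (fun c _ => (Real.cosh_pos _).le) hc).trans h2
  rw [← Real.cosh_abs, Real.cosh_eq, abs_mul, abs_of_pos hδ] at e1
  have e2 : Real.exp (δ ^ 2 / 2 * M) * Real.exp (δ ^ 2 / 2 * M) <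
      Real.exp (δ * |∑ k ∈ range M, ε k * a c k|) := by
    rw [← Real.exp_add]
    exact Real.exp_lt_exp.2 (by nlinarith)
  nlinarith [Real.exp_pos (-(δ * |∑ k ∈ range M, ε k * a c k|)), Real.exp_pos (δ ^ 2 / 2 * M)]

theorem exists_large_M {δ : ℝ} (hδ : 0 < δ) (r M₀ : ℕ) :
    ∃ M : ℕ, M₀ ≤ M ∧ 4 ≤ δ * M ∧ 2 * ((M : ℝ) ^ 4 * r) ≤ Real.exp (δ ^ 2 / 2 * M) := by
  have hc : 0 < δ ^ 2 / 2 := by positivity
  obtain ⟨n, hn⟩ := exists_nat_ge (max (4 / δ) (2 * r * 120 / (δ ^ 2 / 2) ^ 5))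
  refine ⟨max M₀ n, le_max_left _ _, ?_, ?_⟩
  · have h1 : (n : ℝ) ≤ (max M₀ n : ℕ) := by exact_mod_cast le_max_right _ _
    have h2 := (le_max_left _ _).trans hn
    rw [div_le_iff₀ hδ] at h2
    nlinarith
  · set M : ℝ := ((max M₀ n : ℕ) : ℝ)
    have h1 : (n : ℝ) ≤ M := by simp only [M]; exact_mod_cast le_max_right _ _
    have h0 : 0 ≤ M := Nat.cast_nonneg _
    have h2 := ((le_max_right _ _).trans hn).trans h1
    rw [div_le_iff₀ (by positivity)] at h2
    have h3 := Real.pow_div_factorial_le_exp (δ ^ 2 / 2 * M) (by positivity) 5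
    refine le_trans ?_ h3
    have : (Nat.factorial 5 : ℝ) = 120 := by norm_num [Nat.factorial]
    rw [this, le_div_iff₀ (by norm_num), mul_pow]
    have h4 : 0 ≤ M ^ 4 := by positivity
    nlinarith [mul_le_mul_of_nonneg_left h2 h4]

theorem exists_top_three {Λ : Finset ℕ} (h : 3 ≤ Λ.card) :
    ∃ a ∈ Λ, ∃ b ∈ Λ, ∃ c ∈ Λ, a < b ∧ b < c ∧ ∀ k ∈ Λ, k ≤ a ∨ k = b ∨ k = c := by
  have h1 : Λ.Nonempty := Finset.card_pos.1 (by omega)
  set c := Λ.max' h1
  have hc : c ∈ Λ := Λ.max'_mem h1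
  have h2 : (Λ.erase c).Nonempty := Finset.card_pos.1 (by rw [Finset.card_erase_of_mem hc]; omega)
  set b := (Λ.erase c).max' h2
  have hb : b ∈ Λ.erase c := Finset.max'_mem _ h2
  have h3 : ((Λ.erase c).erase b).Nonempty := Finset.card_pos.1 (by
    rw [Finset.card_erase_of_mem hb, Finset.card_erase_of_mem hc]; omega)
  set a := ((Λ.erase c).erase b).max' h3
  have ha : a ∈ (Λ.erase c).erase b := Finset.max'_mem _ h3
  refine ⟨a, Finset.mem_of_mem_erase (Finset.mem_of_mem_erase ha), b, Finset.mem_of_mem_erase hb,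
    c, hc, ?_, ?_, fun k hk => ?_⟩
  · exact lt_of_le_of_ne (Finset.le_max' _ _ (Finset.mem_of_mem_erase ha))
      (Finset.ne_of_mem_erase ha)
  · exact lt_of_le_of_ne (Finset.le_max' _ _ (Finset.mem_of_mem_erase hb))
      (Finset.ne_of_mem_erase hb)
  · by_cases e1 : k = c
    · exact Or.inr (Or.inr e1)
    by_cases e2 : k = b
    · exact Or.inr (Or.inl e2)
    exact Or.inl (Finset.le_max' _ _ (Finset.mem_erase.2 ⟨e2, Finset.mem_erase.2 ⟨e1, hk⟩⟩))

variable {ι : Type} [LinearOrder ι] {K : Cod ι}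

/-- a segment is the restriction of the whole special functional to an interval -/
theorem Cod.Valid.exists_res_full {s : Seg ι} (hs : K.Valid K.G s) :
    ∃ E : Set ι, E.OrdConnected ∧ s.val = res E s.full ∧
      ∀ l ∈ s.idx, ∀ η ∈ (s.f l).support, η ∈ s.E → η ∈ E := by
  set U : Set ι := {ξ | ∀ l < s.t, s.w l < s.θ → ∀ ζ ∈ (s.f l).support, ζ < ξ}
  have hU : ∀ l ∈ s.idx, ∀ η ∈ (s.f l).support, η ∈ U := fun l hl η hη l' hl' h ζ hζ =>
    hs.1.2.1 l' l (hs.1.lt_of_w_lt hl' (h.trans_le (Seg.mem_idx.1 hl).2)) (Seg.mem_idx.1 hl).1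
      ζ hζ η hη
  refine ⟨s.E ∩ U, hs.2.inter ⟨fun a ha b _ c hc l hl h ζ hζ => (ha l hl h ζ hζ).trans_le hc.1⟩,
    ?_, fun l hl η hη h => ⟨h, hU l hl η hη⟩⟩
  ext ξ
  by_cases h1 : ξ ∈ s.E
  · rw [Seg.val, res_apply_of_mem _ h1]
    by_cases h2 : ξ ∈ U
    · rw [res_apply_of_mem _ (Set.mem_inter h1 h2), Seg.full, Finsupp.finsetSum_apply,
        Finsupp.finsetSum_apply, Seg.idx, Finset.sum_filter_of_ne]
      intro l hl hne
      by_contra h
      exact lt_irrefl ξ (h2 l (Finset.mem_range.1 hl) (not_le.1 h) ξ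
        (Finsupp.mem_support_iff.2 hne))
    · rw [res_apply_of_notMem _ fun h => h2 h.2]
      by_contra h
      obtain ⟨l, hl, hξ⟩ := exists_of_mem_support_sum (Finsupp.mem_support_iff.2 h)
      exact h2 (hU l hl ξ hξ)
  · rw [Seg.val, res_apply_of_notMem _ h1, res_apply_of_notMem _ fun h => h1 h.1]

section

variable {x : ℕ → ι →₀ ℝ} {j : ℕ → ℕ} {δ : ℝ}

theorem Cod.large_term (hδ : 0 < δ) (h3 : ∀ i, l1 (x i) * (2 / mm (j (i + 1))) ≤ δ / 2)
    {s : Seg ι} (hs : K.Valid K.G s) {i : ℕ} (hL : δ < |ev (s.raise (j i)).val (x i)|) :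
    ∃ l ∈ s.idx, j i ≤ s.w l ∧ s.w l < j (i + 1) ∧
      ∃ η ∈ (x i).support, η ∈ s.E ∧ η ∈ (s.f l).support := by
  by_contra hneg
  push Not at hneg
  rw [(s.raise (j i)).val_split (j (i + 1)), ev_add_left, ev_sum_left, Finset.sum_eq_zero,
    zero_add] at hL
  · have e1 := abs_ev_le_l1 ((hs.raise (j i)).raise (j (i + 1))).abs_val_le (x i)
    have e2 : 2 / mm ((s.raise (j i)).raise (j (i + 1))).θ ≤ 2 / mm (j (i + 1)) :=
      div_le_div_of_nonneg_left (by norm_num) (mm_pos _) (mm_mono (Seg.le_raise_θ _ _))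
    have e3 := mul_le_mul_of_nonneg_right e2 (l1_nonneg (x i))
    have := h3 i
    linarith
  · intro l hl
    obtain ⟨hl1, hl2⟩ := Finset.mem_filter.1 hl
    rw [Seg.idx_raise] at hl1
    obtain ⟨hl3, hl4⟩ := Finset.mem_filter.1 hl1
    refine ev_eq_zero fun η hη => ?_
    by_contra hne
    obtain ⟨e1, e2⟩ := mem_support_res.1 (Finsupp.mem_support_iff.2 hne)
    exact hneg l hl3 hl4 hl2 η hη e2 e1

theorem Cod.full_eq_hist {s : Seg ι} (hs : K.Valid K.G s) {a c : ℕ} (hc : c < a) (ha : a ≤ s.t)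
    {η ξ : ι} (hη : η ∈ (s.f c).support) (hξ : ξ ≤ η) :
    s.full ξ = (∑ i ∈ range a, s.f i) ξ := by
  rw [Seg.full, ← Finset.sum_range_add_sum_Ico _ ha, Finsupp.add_apply,
    Finsupp.finsetSum_apply (Ico a s.t), Finset.sum_eq_zero (s := Ico a s.t), add_zero]
  intro l hl
  obtain ⟨h1, h2⟩ := Finset.mem_Ico.1 hl
  exact Finsupp.notMem_support_iff.1 fun h =>
    absurd (hs.1.2.1 c l (hc.trans_le h1) h2 η hη ξ h) (not_lt.2 hξ)

theorem Cod.large_link (hδ : 0 < δ) (hx : ∀ i i', i < i' → Lt (x i) (x i')) (hj : Monotone j)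
    (h3 : ∀ i, l1 (x i) * (2 / mm (j (i + 1))) ≤ δ / 2)
    (hρ : ∀ i, K.RB (j i) {ξ | ∃ k < i, ξ ∈ (x k).support})
    {s s' : Seg ι} (hs : K.Valid K.G s) (hs' : K.Valid K.G s') {a b c : ℕ} (hab : a < b)
    (hbc : b < c) (hLa : δ < |ev (s.raise (j a)).val (x a)|)
    (hLb : δ < |ev (s.raise (j b)).val (x b)|) (hLa' : δ < |ev (s'.raise (j a)).val (x a)|)
    (hLb' : δ < |ev (s'.raise (j b)).val (x b)|)
    (hw : ¬ Disjoint (s.raise (j c)).wts (s'.raise (j c)).wts) {k : ℕ} (hk : k < a) :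
    ev s.full (x k) = ev s'.full (x k) := by
  obtain ⟨w, hw1, hw2⟩ := Finset.not_disjoint_iff.1 hw
  obtain ⟨l, hl1, hl2, hl3⟩ := Seg.mem_wts.1 hw1
  obtain ⟨l', hl1', hl2', hl3'⟩ := Seg.mem_wts.1 hw2
  change l < s.t at hl1
  change l' < s'.t at hl1'
  replace hl2 : j c ≤ s.w l := (le_max_right _ _).trans hl2
  replace hl2' : j c ≤ s'.w l' := (le_max_right _ _).trans hl2'
  change s.w l = w at hl3
  change s'.w l' = w at hl3'
  obtain ⟨ca, hca1, -, hca3, η, hη1, -, hη3⟩ := Cod.large_term hδ h3 hs hLa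
  obtain ⟨cb, hcb1, hcb2, hcb3, -⟩ := Cod.large_term hδ h3 hs hLb
  obtain ⟨ca', hca1', -, hca3', η', hη1', -, hη3'⟩ := Cod.large_term hδ h3 hs' hLa'
  obtain ⟨cb', hcb1', hcb2', hcb3', -⟩ := Cod.large_term hδ h3 hs' hLb'
  have e1 : j (a + 1) ≤ j b := hj hab
  have e2 : j (b + 1) ≤ j c := hj hbc
  have e2' : j b ≤ j (b + 1) := hj (Nat.le_succ b)
  have f1 : cb < l := hs.1.lt_of_w_lt (Seg.mem_idx.1 hcb1).1 (by omega)
  have f1' : cb' < l' := hs'.1.lt_of_w_lt (Seg.mem_idx.1 hcb1').1 (by omega)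
  have f2 : ca < l := hs.1.lt_of_w_lt (Seg.mem_idx.1 hca1).1 (by omega)
  have f2' : ca' < l' := hs'.1.lt_of_w_lt (Seg.mem_idx.1 hca1').1 (by omega)
  obtain ⟨l, rfl⟩ : ∃ m, l = m + 1 := ⟨l - 1, by omega⟩
  obtain ⟨l', rfl⟩ : ∃ m, l' = m + 1 := ⟨l' - 1, by omega⟩
  obtain ⟨-, hlink⟩ := Cod.link hs.1 hs'.1 hl1 hl1' (hl3.trans hl3'.symm)
  have g1 : j b ≤ s.p l := by
    have := (hs.1.2.2 l hl1).1
    have := hs.1.w_le (show cb ≤ l by omega) (by omega)
    omega
  refine ev_congr fun ξ hξ => ?_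
  have i1 : ξ ≤ η := (hx k a hk ξ hξ η hη1).le
  have i2 : ξ ≤ η' := (hx k a hk ξ hξ η' hη1').le
  rw [Cod.full_eq_hist hs f2 hl1.le hη3 i1, Cod.full_eq_hist hs' f2' hl1'.le hη3' i2]
  refine hlink ξ η η' ?_ ?_ i1 i2 ?_ ?_
  · exact support_subset_sum_of_succ (fun m _ m' hm' h => hs.1.2.1 m m' h
      ((Finset.mem_range.1 hm').trans hl1)) (Finset.mem_range.2 f2) hη3
  · exact support_subset_sum_of_succ (fun m _ m' hm' h => hs'.1.2.1 m m' h
      ((Finset.mem_range.1 hm').trans hl1')) (Finset.mem_range.2 f2') hη3'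
  · exact (hρ b ξ ⟨k, hk.trans hab, hξ⟩ η ⟨a, hab, hη1⟩ i1).trans g1
  · exact (hρ b ξ ⟨k, hk.trans hab, hξ⟩ η' ⟨a, hab, hη1'⟩ i2).trans g1

theorem Cod.exists_hist_finset (hδ : 0 < δ) (hx : ∀ i i', i < i' → Lt (x i) (x i'))
    (h1 : ∀ i, K.N (x i) ≤ 1) (hj : Monotone j) {r : ℕ} (hr : 1 < r * δ) (hr' : r ≤ j 0)
    (h3 : ∀ i, l1 (x i) * (2 / mm (j (i + 1))) ≤ δ / 2)
    (hρ : ∀ i, K.RB (j i) {ξ | ∃ k < i, ξ ∈ (x k).support}) (a b c : ℕ) :
    ∃ T : Finset (ℕ → ℝ), T.card ≤ r ∧ (∀ u ∈ T, ∀ k, |u k| ≤ 1) ∧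
      (a < b → b < c → ∀ s, K.Valid K.G s → δ < |ev (s.raise (j a)).val (x a)| →
        δ < |ev (s.raise (j b)).val (x b)| → δ < |ev (s.raise (j c)).val (x c)| →
        (fun k => if k < a then ev s.full (x k) else 0) ∈ T) := by
  classical
  by_cases habc : a < b ∧ b < c
  swap
  · exact ⟨∅, by simp, by simp, fun h h' => absurd ⟨h, h'⟩ habc⟩
  obtain ⟨hab, hbc⟩ := habc
  set 𝒱 : Set (ℕ → ℝ) := {u | ∃ s, K.Valid K.G s ∧ δ < |ev (s.raise (j a)).val (x a)| ∧
    δ < |ev (s.raise (j b)).val (x b)| ∧ δ < |ev (s.raise (j c)).val (x c)| ∧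
    u = fun k => if k < a then ev s.full (x k) else 0}
  have key : ∀ T : Finset (ℕ → ℝ), (T : Set (ℕ → ℝ)) ⊆ 𝒱 → T.card ≠ r := by
    intro T hT hcard
    have : ∀ u : ℕ → ℝ, ∃ s : Seg ι, u ∈ T → K.Valid K.G s ∧ δ < |ev (s.raise (j a)).val (x a)| ∧
        δ < |ev (s.raise (j b)).val (x b)| ∧ δ < |ev (s.raise (j c)).val (x c)| ∧
        u = fun k => if k < a then ev s.full (x k) else 0 := fun u => by
      by_cases hu : u ∈ T
      · obtain ⟨s, hs⟩ := hT hu
        exact ⟨s, fun _ => hs⟩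
      · exact ⟨⟨0, 0, 0, 0, 0, ∅⟩, fun h => absurd h hu⟩
    choose s hs using this
    have hmem := Cod.family_mem (K := K) T (fun u => (s u).raise (j c))
      (fun u => if 0 ≤ ev ((s u).raise (j c)).val (x c) then 1 else -1)
      (fun u hu => (hs u hu).1.raise _) (fun u _ => by split_ifs <;> simp)
      (fun u hu u' hu' hne => by
        by_contra hd
        refine hne ?_
        rw [(hs u hu).2.2.2.2, (hs u' hu').2.2.2.2]
        funext k
        split_ifs with hk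
        · exact Cod.large_link hδ hx hj h3 hρ (hs u hu).1 (hs u' hu').1 hab hbc (hs u hu).2.1
            (hs u hu).2.2.1 (hs u' hu').2.1 (hs u' hu').2.2.1 hd hk
        · rfl)
      (fun u _ w hw => by
        have e1 := (Seg.le_raise_θ _ _).trans (Seg.le_of_mem_wts hw)
        have e2 : j 0 ≤ j c := hj (Nat.zero_le c)
        omega)
    have e1 := (Cod.ev_le_N hmem (x c)).trans (h1 c)
    rw [ev_sum_left] at e1
    have e2 := Finset.card_nsmul_le_sum T (fun u => ev ((if 0 ≤ ev ((s u).raise (j c)).val (x c)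
      then (1 : ℝ) else -1) • ((s u).raise (j c)).val : ι →₀ ℝ) (x c)) δ fun u hu => by
        have := (hs u hu).2.2.2.1
        rw [ev_smul_left]
        split_ifs with h
        · rw [abs_of_nonneg h] at this; linarith
        · rw [abs_of_neg (not_le.1 h)] at this; linarith
    rw [hcard, nsmul_eq_mul] at e2
    linarith
  have hfin : 𝒱.Finite := by
    by_contra hinf
    obtain ⟨T, hT1, hT2⟩ := Set.Infinite.exists_subset_card_eq hinf r
    exact key T hT1 hT2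
  refine ⟨hfin.toFinset, ?_, fun u hu k => ?_, fun _ _ s hs e1 e2 e3 =>
    hfin.mem_toFinset.2 ⟨s, hs, e1, e2, e3, rfl⟩⟩
  · by_contra hlt
    obtain ⟨T, hT1, hT2⟩ := Finset.exists_subset_card_eq (not_le.1 hlt).le
    exact key T (fun u hu => hfin.mem_toFinset.1 (hT1 hu)) hT2
  · obtain ⟨s, hs, -, -, -, rfl⟩ := hfin.mem_toFinset.1 hu
    dsimp only
    split_ifs
    · exact (Cod.abs_ev_le_N hs.full_mem _).trans (h1 k)
    · simp

theorem sum_le_of_exc {M : ℕ} {d : ℕ → ℝ} {c : ℝ} {X : Finset ℕ} (hX : X.card ≤ 4)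
    (h : ∀ k < M, |d k| ≤ c + if k ∈ X then 1 else 0) : |∑ k ∈ range M, d k| ≤ M * c + 4 := by
  refine (Finset.abs_sum_le_sum_abs _ _).trans
    ((Finset.sum_le_sum fun k hk => h k (Finset.mem_range.1 hk)).trans ?_)
  rw [Finset.sum_add_distrib, Finset.sum_const, Finset.card_range, nsmul_eq_mul, Finset.sum_boole]
  have : ((range M).filter fun k => k ∈ X).card ≤ 4 :=
    (Finset.card_le_card fun k hk => (Finset.mem_filter.1 hk).2).trans hX
  have : (((range M).filter fun k => k ∈ X).card : ℝ) ≤ 4 := by exact_mod_cast this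
  linarith

/-- the sign lemma -/
theorem Cod.sign_lemma (hδ : 0 < δ) (hx : ∀ i i', i < i' → Lt (x i) (x i'))
    (h1 : ∀ i, K.N (x i) ≤ 1) (hj : Monotone j) {r : ℕ} (hr : 1 < r * δ) (hr' : r ≤ j 0)
    (h2 : ∀ i, K.R2 (x i) (j i)) (h3 : ∀ i, l1 (x i) * (2 / mm (j (i + 1))) ≤ δ / 2)
    (hρ : ∀ i, K.RB (j i) {ξ | ∃ k < i, ξ ∈ (x k).support}) {M : ℕ} (hM : 4 ≤ δ * M)
    (hM' : 2 * ((M : ℝ) ^ 4 * r) ≤ Real.exp (δ ^ 2 / 2 * M)) :
    ∃ ε : ℕ → ℝ, (∀ i, ε i = 1 ∨ ε i = -1) ∧ ∀ s, K.Valid K.G s →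
      |ev s.val (∑ i ∈ range M, ε i • x i)| ≤ M * (4 / mm s.θ + 3 * δ) := by
  classical
  choose T hT1 hT2 hT3 using Cod.exists_hist_finset hδ hx h1 hj hr hr' h3 hρ
  set A : Finset (Σ _ : ℕ × ℕ × ℕ × ℕ, ℕ → ℝ) :=
    (range M ×ˢ range M ×ˢ range M ×ˢ range M).sigma fun q => T q.2.1 q.2.2.1 q.2.2.2
  have hA : (A.card : ℝ) ≤ (M : ℝ) ^ 4 * r := by
    have : A.card ≤ M ^ 4 * r := by
      rw [Finset.card_sigma]
      refine (Finset.sum_le_card_nsmul _ _ r fun q _ => hT1 _ _ _).trans (le_of_eq ?_)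
      simp only [Finset.card_product, Finset.card_range, smul_eq_mul]
      ring
    exact_mod_cast this
  obtain ⟨ε, hε1, hε2⟩ := exists_signs A (fun c k => if c.1.1 < k then c.2 k else 0)
    (fun c hc k => by
      split_ifs
      · exact hT2 _ _ _ _ (Finset.mem_sigma.1 hc).2 k
      · simp) hδ M (by linarith)
  refine ⟨ε, hε1, fun s hs => ?_⟩
  have hε3 : ∀ k, |ε k| = 1 := fun k => by rcases hε1 k with h | h <;> simp [h]
  have hη : 0 < 4 / mm s.θ := by have := mm_pos s.θ; positivity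
  have hone : ∀ k, |ev s.val (x k)| ≤ 1 := fun k => (Cod.abs_ev_le_N hs.val_mem _).trans (h1 k)
  have hsmall : ∀ k, ¬ δ < |ev (s.raise (j k)).val (x k)| → |ev s.val (x k)| ≤ 4 / mm s.θ + δ :=
    fun k hk => by
      have e1 := (h2 k).low_le_one hs
      have e2 := abs_add_le (ev s.val (x k) - ev (s.raise (j k)).val (x k))
        (ev (s.raise (j k)).val (x k))
      rw [sub_add_cancel] at e2
      linarith [not_lt.1 hk]
  have hM0 : (0 : ℝ) ≤ δ * M := by linarith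
  simp only [map_sum, map_smul, smul_eq_mul]
  set Λ := (range M).filter fun k => δ < |ev (s.raise (j k)).val (x k)|
  rcases lt_or_ge Λ.card 3 with hΛ | hΛ
  · have := sum_le_of_exc (M := M) (d := fun k => ε k * ev s.val (x k)) (c := 4 / mm s.θ + δ)
      (X := Λ) (by omega) fun k hk => by
        rw [abs_mul, hε3, one_mul]
        split_ifs with h
        · linarith [hone k]
        · rw [add_zero]
          exact hsmall k fun h' => h (Finset.mem_filter.2 ⟨Finset.mem_range.2 hk, h'⟩)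
    nlinarith
  · obtain ⟨a, ha, b, hb, c, hc, hab, hbc, habc⟩ := exists_top_three hΛ
    obtain ⟨E, hE1, hE2, hE3⟩ := hs.exists_res_full
    obtain ⟨l, hl1, -, -, η, hη1, hη2, hη3⟩ := Cod.large_term hδ h3 hs (Finset.mem_filter.1 ha).2
    have hex : ∃ k, ∃ ξ ∈ (x k).support, ξ ∈ E := ⟨a, η, hη1, hE3 l hl1 η hη3 hη2⟩
    set k₀ := Nat.find hex
    have hk₀ : k₀ ≤ a := Nat.find_min' hex ⟨η, hη1, hE3 l hl1 η hη3 hη2⟩
    obtain ⟨ξ₀, hξ₀, hξ₀'⟩ := Nat.find_spec hex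
    have haM := Finset.mem_range.1 (Finset.mem_filter.1 ha).1
    have e1 := hε2 ⟨(k₀, a, b, c), fun k => if k < a then ev s.full (x k) else 0⟩
      (Finset.mem_sigma.2 ⟨by
        simp only [Finset.mem_product]
        exact ⟨Finset.mem_range.2 (by omega), (Finset.mem_filter.1 ha).1,
          (Finset.mem_filter.1 hb).1, (Finset.mem_filter.1 hc).1⟩,
        hT3 a b c hab hbc s hs (Finset.mem_filter.1 ha).2 (Finset.mem_filter.1 hb).2
          (Finset.mem_filter.1 hc).2⟩)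
    dsimp only at e1
    have e2 := sum_le_of_exc (M := M) (d := fun k => ε k * ev s.val (x k) -
      ε k * if k₀ < k then (if k < a then ev s.full (x k) else 0) else 0) (c := 4 / mm s.θ + δ)
      (X := {k₀, a, b, c}) Finset.card_le_four fun k hk => by
        rw [← mul_sub, abs_mul, hε3, one_mul]
        by_cases hka : k < a
        · rcases lt_trichotomy k k₀ with h | h | h
          · have : ev s.val (x k) = 0 := by
              rw [hE2, ev_res, res_eq_zero, map_zero]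
              exact fun ξ hξ hξ' => Nat.find_min hex h ⟨ξ, hξ, hξ'⟩
            rw [this, if_neg (by omega)]
            split_ifs <;> simp <;> positivity
          · rw [if_neg (by omega), if_pos (by simp [h]), sub_zero]
            linarith [hone k]
          · have : ev s.val (x k) = ev s.full (x k) := by
              rw [hE2, ev_res, res_eq_self]
              intro ξ hξ
              exact hE1.out hξ₀' (hE3 l hl1 η hη3 hη2)
                ⟨(hx _ k h ξ₀ hξ₀ ξ hξ).le, (hx k a hka ξ hξ η hη1).le⟩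
            rw [this, if_pos h, if_pos hka]
            split_ifs <;> simp <;> positivity
        · rw [if_neg hka, ite_self, sub_zero]
          split_ifs with h
          · linarith [hone k]
          · rw [add_zero]
            refine hsmall k fun h' => h ?_
            rcases habc k (Finset.mem_filter.2 ⟨Finset.mem_range.2 hk, h'⟩) with e | e | e
            · simp [show k = a by omega]
            · simp [e]
            · simp [e]
    rw [Finset.sum_sub_distrib] at e2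
    have e3 := abs_add_le (∑ k ∈ range M, ε k * ev s.val (x k) - ∑ k ∈ range M,
      ε k * if k₀ < k then (if k < a then ev s.full (x k) else 0) else 0)
      (∑ k ∈ range M, ε k * if k₀ < k then (if k < a then ev s.full (x k) else 0) else 0)
    rw [sub_add_cancel] at e3
    nlinarith

end

end Vale.Agent.P129
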