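import Vale.Agent.P129.Avg
import Vale.Agent.P129.Sign

/-! Good vectors and exact pairs. -/

namespace Vale.Agent.P129

open Finset

variable {ι : Type} [LinearOrder ι] {K : Cod ι}

theorem Cod.exists_good {v : ℕ → ι →₀ ℝ} (hv : IsBlock v) :
    ∃ c : ℝ, 0 < c ∧ ∀ J n₀ : ℕ, ∀ ε : ℝ, 0 < ε → ∃ x ∈ tailSp v n₀, ∃ J', J ≤ J' ∧ c ≤ K.N x ∧
      K.N x ≤ 1 ∧ K.R2 x J' ∧ K.R4 x J' ε := by
  classical
  by_cases hcase : ∀ J n₀ : ℕ, ∀ ε : ℝ, 0 < ε → ∃ x ∈ tailSp v n₀, ∃ J', J ≤ J' ∧ 1 / 2 ≤ K.N x ∧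
      K.N x ≤ 1 ∧ K.R2 x J' ∧ K.R4 x J' ε
  · exact ⟨1 / 2, by norm_num, hcase⟩
  push Not at hcase
  obtain ⟨J₀, n₁, ε₀, hε₀, hneg⟩ := hcase
  refine ⟨ε₀, hε₀, fun J n₀ ε hε => ?_⟩
  obtain ⟨J', hJ', hJ''⟩ := exists_two_div_mm_le 2 (ε / 2) (half_pos hε) J
  have hδ : 0 < ε / 6 := by positivity
  obtain ⟨r, hr⟩ := exists_nat_gt (1 / (ε / 6))
  rw [div_lt_iff₀ hδ] at hr
  obtain ⟨M, hM1, hM2, hM3⟩ := exists_large_M hδ r (SS J' + 1)
  have hM0 : 0 < M := by omega
  obtain ⟨a, ha1, ha2⟩ := exists_seq_of_forall_finset_exists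
    (fun a : (ι →₀ ℝ) × ℕ × Seg ι × Finset ι => a.1 ∈ tailSp v (max n₀ n₁) ∧ K.N a.1 ≤ 1 ∧
      K.R2 a.1 a.2.1 ∧ max M r ≤ a.2.1 ∧ K.Valid K.G a.2.2.1 ∧ a.2.1 ≤ a.2.2.1.θ ∧
      ε₀ < |ev a.2.2.1.val a.1| ∧ (a.2.2.1.val.support : Set ι) ⊆ hull a.1 ∧
      K.RB a.2.1 a.2.2.2)
    (fun a a' => Lt a.1 a'.1 ∧ a.2.1 ≤ a'.2.1 ∧ l1 a.1 * (2 / mm a'.2.1) ≤ ε / 6 / 2 ∧
      (∀ w ∈ a.2.2.1.wts, w < a'.2.1) ∧ a.1.support ⊆ a'.2.2.2)
    (fun s hs => by
      choose! n hn1 hn2 using fun a (ha : a ∈ s) => hv.exists_lt_tailSp (hs a ha).1 (max n₀ n₁)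
      choose Jf hJ1 hJ2 using fun a : (ι →₀ ℝ) × ℕ × Seg ι × Finset ι =>
        exists_two_div_mm_le (l1 a.1) (ε / 6 / 2) (half_pos hδ)
          (max a.2.1 (a.2.2.1.wts.sup id + 1))
      obtain ⟨p, hp⟩ := K.exists_RB (s.biUnion fun a => a.1.support)
      set jj := max (max (max J₀ p) (max M r)) (s.sup Jf) with hjj
      obtain ⟨x, hx, h1, h2, h3⟩ := Cod.exists_avg (K := K) hv jj (max (max n₀ n₁) (s.sup n))
      have hx' := tailSp_anti v (le_max_left _ _) hx
      have := hneg x (tailSp_anti v (le_max_right _ _) hx') jj (by omega) h1 h2 h3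
      unfold Cod.R4 at this
      push Not at this
      obtain ⟨σ, hσ1, hσ2, hσ3⟩ := this
      refine ⟨(x, jj, σ.cut (hull x), s.biUnion fun a => a.1.support),
        ⟨hx', h2, h3, by simp only [hjj]; omega, hσ1.cut (ordConnected_hull x), hσ2, ?_, ?_,
          hp _ (by simp only [hjj]; omega)⟩, fun a ha => ?_⟩
      · simpa only [Seg.val_cut, ev_res, res_hull_self] using hσ3
      · simpa only [Seg.val_cut] using support_res_subset' _ _
      · have e1 : Jf a ≤ jj := (Finset.le_sup ha).trans (le_max_right _ _)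
        have e2 := hJ1 a
        refine ⟨hn2 a ha x (tailSp_anti v ((Finset.le_sup ha).trans (le_max_right _ _)) hx),
          by simp only; omega, le_trans ?_ (hJ2 a), fun w hw => ?_,
          Finset.subset_biUnion_of_mem (fun a => a.1.support) ha⟩
        · exact mul_le_mul_of_nonneg_left (div_le_div_of_nonneg_left (by norm_num) (mm_pos _)
            (mm_mono e1)) (l1_nonneg _)
        · have := Finset.le_sup (f := id) hw
          simp only [id] at this ⊢
          omega)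
  set x : ℕ → ι →₀ ℝ := fun k => (a k).1
  set j : ℕ → ℕ := fun k => (a k).2.1
  set σ : ℕ → Seg ι := fun k => (a k).2.2.1
  have hx : ∀ i i', i < i' → Lt (x i) (x i') := fun i i' h => (ha2 i i' h).1
  obtain ⟨e, he1, he2⟩ := Cod.sign_lemma (K := K) (x := x) (j := j) hδ hx (fun k => (ha1 k).2.1)
    (monotone_nat_of_le_succ fun k => (ha2 k _ (Nat.lt_succ_self k)).2.1) hr
    ((le_max_right _ _).trans (ha1 0).2.2.2.1) (fun k => (ha1 k).2.2.1)
    (fun k => (ha2 k _ (Nat.lt_succ_self k)).2.2.1)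
    (fun i ξ ⟨k, hk, hξ⟩ η ⟨k', hk', hη⟩ h => (ha1 i).2.2.2.2.2.2.2.2 ξ
      ((ha2 k i hk).2.2.2.2 hξ) η ((ha2 k' i hk').2.2.2.2 hη) h) hM2 hM3
  have he3 : ∀ k, |e k| = 1 := fun k => by rcases he1 k with h | h <;> simp [h]
  have hN : ∀ k, K.N (e k • x k) ≤ 1 := fun k => by
    rw [Cod.N_smul, he3, one_mul]; exact (ha1 k).2.1
  have hM' : (0 : ℝ) < M := by exact_mod_cast hM0
  refine ⟨(M : ℝ)⁻¹ • ∑ i ∈ range M, e i • x i, Submodule.smul_mem _ _ (Submodule.sum_mem _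
    fun i _ => Submodule.smul_mem _ _ (tailSp_anti v (le_max_left _ _) (ha1 i).1)), J', hJ', ?_,
    Cod.N_avg_le hM0 fun i _ => hN i, Cod.R2_avg hM0 (by omega)
      (fun i i' h _ => ((hx i i' h).smul_left _).smul_right _) fun i _ => hN i, fun s hs hθ => ?_⟩
  · have hmem := Cod.family_mem (K := K) (range M) σ
      (fun i => e i * if 0 ≤ ev (σ i).val (x i) then 1 else -1)
      (fun i _ => (ha1 i).2.2.2.2.1)
      (fun i _ => by rcases he1 i with h | h <;> split_ifs <;> simp [h])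
      (fun i _ i' _ hne => by
        have key : ∀ i i', i < i' → Disjoint (σ i).wts (σ i').wts := fun i i' h =>
          Finset.disjoint_left.2 fun w hw hw' => by
            have e1 := (ha2 i i' h).2.2.2.1 w hw
            have e2 := (ha1 i').2.2.2.2.2.1.trans (Seg.le_of_mem_wts hw')
            omega
        rcases lt_or_gt_of_ne hne with h | h
        exacts [key i i' h, (key i' i h).symm])
      (fun i _ w hw => by
        have e1 := (ha1 i).2.2.2.2.2.1.trans (Seg.le_of_mem_wts hw)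
        have e2 := (ha1 i).2.2.2.1
        rw [Finset.card_range]
        omega)
    have e1 := Cod.ev_le_N hmem (∑ i ∈ range M, e i • x i)
    rw [ev_sum_left] at e1
    have e2 := Finset.card_nsmul_le_sum (range M) (fun i => ev ((e i * if 0 ≤ ev (σ i).val (x i)
      then (1 : ℝ) else -1) • (σ i).val : ι →₀ ℝ) (∑ i ∈ range M, e i • x i)) ε₀ fun i hi => by
        have e3 : ev (σ i).val (∑ i ∈ range M, e i • x i) = e i * ev (σ i).val (x i) := by
          rw [map_sum, Finset.sum_eq_single i]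
          · rw [map_smul, smul_eq_mul]
          · intro b _ hne
            have e4 := (ha1 i).2.2.2.2.2.2.2.1
            rw [map_smul, smul_eq_mul]
            rcases lt_or_gt_of_ne hne with h | h
            · rw [((hx b i h).of_hull (support_subset_hull _) e4).ev_eq_zero', mul_zero]
            · rw [((hx i b h).of_hull e4 (support_subset_hull _)).ev_eq_zero, mul_zero]
          · exact fun h => absurd hi h
        have e5 : ε₀ < |ev (σ i).val (x i)| := (ha1 i).2.2.2.2.2.2.1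
        rw [ev_smul_left, e3]
        split_ifs with h
        · rw [abs_of_nonneg h] at e5
          rcases he1 i with h' | h' <;> rw [h'] <;> linarith
        · rw [abs_of_neg (not_le.1 h)] at e5
          rcases he1 i with h' | h' <;> rw [h'] <;> linarith
    rw [Finset.card_range, nsmul_eq_mul] at e2
    rw [Cod.N_smul, abs_of_pos (inv_pos.2 hM'), le_inv_mul_iff₀ hM']
    linarith
  · rw [map_smul, smul_eq_mul, abs_mul, abs_of_pos (inv_pos.2 hM'), inv_mul_le_iff₀ hM']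
    refine (he2 s hs).trans (mul_le_mul_of_nonneg_left ?_ hM'.le)
    have e1 : 2 / mm s.θ ≤ 2 / mm J' :=
      div_le_div_of_nonneg_left (by norm_num) (mm_pos _) (mm_mono hθ)
    have e2 : 4 / mm s.θ = 2 * (2 / mm s.θ) := by ring
    linarith

/-- the main analytic theorem: exact pairs -/
theorem Cod.exists_exact (K : Cod ι) (v : ℕ → ι →₀ ℝ) (hv : IsBlock v) :
    ∃ C : ℝ, ∀ j n₀, ∃ u ∈ tailSp v n₀, ∃ f, Wt K.G j f ∧
      (f.support : Set ι) ⊆ hull u ∧ ev f u = 1 ∧ K.N u ≤ C := by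
  obtain ⟨c, hc, h⟩ := Cod.exists_good (K := K) hv
  exact ⟨24 / c, Cod.exists_exact_of_good hv hc h⟩

end Vale.Agent.P129
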