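import Vale.Agent.P129.XE

namespace Vale.Agent.P129

open Finset

namespace XSp

variable {ι : Type} [LinearOrder ι]

/-- finitely supported vectors with the norm of the data -/
def VV (_D : Data ι) : Type := ι →₀ ℝ

noncomputable instance (D : Data ι) : AddCommGroup (VV D) := inferInstanceAs (AddCommGroup (ι →₀ ℝ))

noncomputable instance (D : Data ι) : Module ℝ (VV D) := inferInstanceAs (Module ℝ (ι →₀ ℝ))

noncomputable instance (D : Data ι) : NormedAddCommGroup (VV D) :=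
  AddGroupNorm.toNormedAddCommGroup
    { toFun := fun y => D.N y
      map_zero' := map_zero D.N
      add_le' := fun x y => map_add_le_add D.N x y
      neg' := fun x => map_neg_eq_map D.N x
      eq_zero_of_map_eq_zero' := fun y hy => Finsupp.ext fun ξ => by
        have := D.coord_le y ξ
        rw [show D.N y = 0 from hy] at this
        exact abs_nonpos_iff.1 this }

noncomputable instance (D : Data ι) : NormedSpace ℝ (VV D) where
  norm_smul_le c y := (map_smul_eq_mul D.N c y).le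

/-- the identity map -/
noncomputable def toV (D : Data ι) : (ι →₀ ℝ) →ₗ[ℝ] VV D := LinearMap.id

theorem norm_toV (D : Data ι) (y : ι →₀ ℝ) : ‖toV D y‖ = D.N y := rfl

variable {V : Type} [NormedAddCommGroup V] [NormedSpace ℝ V]

/-- the properties of the spanning functionals used below -/
structure Fam (D : Data ι) (τ : (ι →₀ ℝ) →ₗ[ℝ] V) (e : ι → StrongDual ℝ V) : Prop where
  norm_τ : ∀ y, ‖τ y‖ = D.N y
  norm_le : ∀ δ, ‖e δ‖ ≤ 3
  tri : ∀ δ (y : ι →₀ ℝ), (∀ ξ ∈ y.support, δ ≤ ξ) → e δ (τ y) = y δ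
  norming : ∀ L : Set ι, IsLowerSet L → ∀ y : ι →₀ ℝ, (y.support : Set ι) ⊆ L → ∀ ε, 0 < ε →
    ∃ x ∈ Submodule.span ℝ (e '' L), ‖x‖ ≤ 3 ∧ D.N y - ε < x (τ y)

/-- approximation by evaluations on the span of a set -/
def Dens (τ : (ι →₀ ℝ) →ₗ[ℝ] V) (e : ι → StrongDual ℝ V) (F : StrongDual ℝ (StrongDual ℝ V))
    (L : Set ι) : Prop :=
  ∀ ε, 0 < ε → ∃ y : ι →₀ ℝ, (y.support : Set ι) ⊆ L ∧
    ∀ x ∈ Submodule.span ℝ (e '' L), |F x - x (τ y)| ≤ ε * ‖x‖

variable {D : Data ι} {τ : (ι →₀ ℝ) →ₗ[ℝ] V} {e : ι → StrongDual ℝ V} (H : Fam D τ e)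
include H

theorem Fam.le_N (x : StrongDual ℝ V) (y : ι →₀ ℝ) : |x (τ y)| ≤ ‖x‖ * D.N y := by
  rw [← H.norm_τ]; exact x.le_opNorm _

theorem Fam.kill {L : Set ι} (hL : IsLowerSet L) {x : StrongDual ℝ V}
    (hx : x ∈ Submodule.span ℝ (e '' L)) {y : ι →₀ ℝ} (hy : ∀ ξ ∈ y.support, ξ ∉ L) :
    x (τ y) = 0 := by
  induction hx using Submodule.span_induction with
  | mem x hx =>
    obtain ⟨g, hg, rfl⟩ := hx
    rw [H.tri g y fun ξ hξ => not_lt.1 fun h => hy ξ hξ (hL h.le hg)]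
    exact Finsupp.notMem_support_iff.1 fun h => hy g h hg
  | zero => rfl
  | add x x' _ _ h1 h2 => simp [h1, h2]
  | smul c x _ h1 => simp [h1]

theorem Fam.res_eq {L : Set ι} (hL : IsLowerSet L) {x : StrongDual ℝ V}
    (hx : x ∈ Submodule.span ℝ (e '' L)) (y : ι →₀ ℝ) : x (τ (res L y)) = x (τ y) := by
  conv_rhs => rw [← res_add_res_compl L y, map_add, map_add,
    H.kill hL hx (y := res Lᶜ y) fun ξ hξ => (mem_support_res.1 hξ).2, add_zero]

theorem Fam.N_le {L : Set ι} (hL : IsLowerSet L) {y : ι →₀ ℝ} (hy : (y.support : Set ι) ⊆ L)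
    {η : ℝ} (hη : 0 ≤ η) (h : ∀ x ∈ Submodule.span ℝ (e '' L), |x (τ y)| ≤ η * ‖x‖) :
    D.N y ≤ 3 * η := by
  refine le_of_forall_pos_le_add fun ε hε => ?_
  obtain ⟨x, hx, h1, h2⟩ := H.norming L hL y hy ε hε
  have := (le_abs_self _).trans (h x hx)
  nlinarith

theorem Fam.succ {F : StrongDual ℝ (StrongDual ℝ V)} {b : ι} (h : Dens τ e F (Set.Iio b)) :
    Dens τ e F (Set.Iic b) := by
  intro ε hε
  obtain ⟨y, hy, hx⟩ := h (ε / 4) (by positivity)
  have h1 : e b (τ (Finsupp.single b 1)) = 1 := by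
    rw [H.tri b _ fun ξ hξ => (Finset.mem_singleton.1 (Finsupp.support_single_subset hξ)).ge]
    simp
  have h2 : ∀ x ∈ Submodule.span ℝ (e '' Set.Iio b), x (τ (Finsupp.single b 1)) = 0 :=
    fun x hx => H.kill (isLowerSet_Iio b) hx fun ξ hξ h =>
      (Finset.mem_singleton.1 (Finsupp.support_single_subset hξ)).not_lt h
  refine ⟨y + (F (e b) - e b (τ y)) • Finsupp.single b 1, fun ξ hξ => ?_, fun x hx' => ?_⟩
  · classical
    rcases Finset.mem_union.1 (Finsupp.support_add hξ) with h | h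
    · exact le_of_lt (hy h)
    · exact (Finset.mem_singleton.1 (Finsupp.support_single_subset (Finsupp.support_smul h))).le
  · rw [← Set.Iio_insert, Set.image_insert_eq, Submodule.mem_span_insert] at hx'
    obtain ⟨s, x0, hx0, rfl⟩ := hx'
    have h3 : |s| ≤ ‖s • e b + x0‖ := by
      have := H.le_N (s • e b + x0) (Finsupp.single b 1)
      simp only [add_apply, smul_apply, h1, h2 x0 hx0,
        smul_eq_mul, mul_one, add_zero] at this
      nlinarith [D.single_le b, norm_nonneg (s • e b + x0)]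
    have h4 : ‖x0‖ ≤ 4 * ‖s • e b + x0‖ := by
      have h5 := norm_sub_le (s • e b + x0) (s • e b)
      rw [add_sub_cancel_left, norm_smul, Real.norm_eq_abs] at h5
      nlinarith [H.norm_le b, abs_nonneg s, norm_nonneg (e b)]
    have h5 := hx x0 hx0
    have e1 : F (s • e b + x0) - (s • e b + x0)
        (τ (y + (F (e b) - e b (τ y)) • Finsupp.single b 1)) = F x0 - x0 (τ y) := by
      simp only [map_add, map_smul, add_apply, smul_apply,
        h1, h2 x0 hx0, smul_eq_mul]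
      ring
    rw [e1]
    nlinarith

omit H in
theorem exists_Iic {L : Set ι} {a : ι} (ha : a ∈ L) {x : StrongDual ℝ V}
    (hx : x ∈ Submodule.span ℝ (e '' L)) :
    ∃ a' ∈ L, a ≤ a' ∧ x ∈ Submodule.span ℝ (e '' Set.Iic a') := by
  have mono : ∀ {u v : ι}, u ≤ v →
      Submodule.span ℝ (e '' Set.Iic u) ≤ Submodule.span ℝ (e '' Set.Iic v) := fun h =>
    Submodule.span_mono (Set.image_mono (Set.Iic_subset_Iic.2 h))
  induction hx using Submodule.span_induction with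
  | mem x hx =>
    obtain ⟨g, hg, rfl⟩ := hx
    rcases le_total a g with h | h
    · exact ⟨g, hg, h, Submodule.subset_span ⟨g, le_rfl, rfl⟩⟩
    · exact ⟨a, ha, le_rfl, Submodule.subset_span ⟨g, h, rfl⟩⟩
  | zero => exact ⟨a, ha, le_rfl, zero_mem _⟩
  | add x x' _ _ h1 h2 =>
    obtain ⟨u, hu, h3, h4⟩ := h1
    obtain ⟨v, hv, h5, h6⟩ := h2
    rcases le_total u v with h | h
    · exact ⟨v, hv, h5, add_mem (mono h h4) h6⟩
    · exact ⟨u, hu, h3, add_mem h4 (mono h h6)⟩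
  | smul c x _ h1 =>
    obtain ⟨u, hu, h3, h4⟩ := h1
    exact ⟨u, hu, h3, Submodule.smul_mem _ _ h4⟩

theorem Fam.step {F : StrongDual ℝ (StrongDual ℝ V)} {L : Set ι} (hL : IsLowerSet L)
    (h : ∀ a ∈ L, Dens τ e F (Set.Iic a)) : Dens τ e F L := by
  classical
  intro η hη
  rcases L.eq_empty_or_nonempty with rfl | ⟨a0, ha0⟩
  · refine ⟨0, by simp, fun x hx => ?_⟩
    rw [Set.image_empty, Submodule.span_empty, Submodule.mem_bot] at hx
    simp [hx]
  by_contra hc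
  push Not at hc
  choose Y hY1 hY2 using fun a : L => h a a.2 (η / 14) (by positivity)
  have hnx : ∀ a : L, ∃ a' : L, a ≤ a' ∧ ∃ x ∈ Submodule.span ℝ (e '' Set.Iic (a' : ι)),
      η * ‖x‖ < |F x - x (τ (Y a))| := by
    intro a
    obtain ⟨x, hx, h1⟩ := hc (Y a) fun ξ hξ => hL (hY1 a hξ) a.2
    obtain ⟨a', ha', h2, h3⟩ := exists_Iic a.2 hx
    exact ⟨⟨a', ha'⟩, h2, x, h3, h1⟩
  choose nx hnx1 hnx2 using hnx
  let a : ℕ → L := fun i => nx^[i] ⟨a0, ha0⟩
  have ha : ∀ i, a (i + 1) = nx (a i) := fun i => Function.iterate_succ_apply' _ _ _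
  have hm : Monotone fun i => (a i : ι) :=
    monotone_nat_of_le_succ fun i => by rw [ha]; exact hnx1 _
  have mono : ∀ {i k : ℕ}, i ≤ k → Submodule.span ℝ (e '' Set.Iic (a i : ι)) ≤
      Submodule.span ℝ (e '' Set.Iic (a k : ι)) := fun h =>
    Submodule.span_mono (Set.image_mono (Set.Iic_subset_Iic.2 (hm h)))
  obtain ⟨n, hn⟩ := D.lower (2 / η * (3 * (‖F‖ + η / 14)) + 1)
  have b1 : D.N (Y (a n)) ≤ 3 * (‖F‖ + η / 14) := by
    refine H.N_le (isLowerSet_Iic _) (hY1 _) (by positivity) fun x hx => ?_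
    have h1 := hY2 _ x hx
    have h2 : |F x| ≤ ‖F‖ * ‖x‖ := F.le_opNorm x
    have h3 := abs_sub (F x) (F x - x (τ (Y (a n))))
    rw [sub_sub_cancel] at h3
    linarith
  have b2 : ∀ i ≤ n, D.N (res (Set.Iic (a i : ι)) (Y (a n)) - Y (a i)) ≤ 3 * (η / 7) := by
    intro i hi
    refine H.N_le (isLowerSet_Iic (a i : ι)) (fun ξ hξ => ?_) (by positivity) fun x hx => ?_
    · rcases Finset.mem_union.1 (Finsupp.support_sub hξ) with h | h
      · exact (mem_support_res.1 h).2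
      · exact hY1 _ h
    · rw [map_sub, map_sub, H.res_eq (isLowerSet_Iic _) hx]
      have h1 := abs_le.1 (hY2 _ x hx)
      have h2 := abs_le.1 (hY2 _ x (mono hi hx))
      rw [abs_le]; constructor <;> linarith
  have split : ∀ {u v w : ι}, u ≤ v → v ≤ w → ∀ y : ι →₀ ℝ,
      res (Set.Ioc u w) y = res (Set.Ioc u v) y + res (Set.Ioc v w) y := by
    intro u v w h1 h2 y
    rw [← Set.Ioc_union_Ioc_eq_Ioc h1 h2, res_union (Set.disjoint_left.2 fun z h h' => h.2.not_gt h'.1)]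
  have b3 : ∀ i < n, η / 2 ≤ D.N (res (Set.Ioc (a i : ι) (a (i + 1))) (Y (a n))) := by
    intro i hi
    obtain ⟨x, hx, h1⟩ := hnx2 (a i)
    rw [← ha] at hx
    have h2 := abs_le.1 (hY2 _ x (mono (show i + 1 ≤ n from hi) hx))
    have h3 := H.res_eq (isLowerSet_Iic _) hx (Y (a n))
    rw [← Set.Iic_union_Ioc_eq_Iic (hm (Nat.le_succ i)), res_union (Set.Iic_disjoint_Ioc le_rfl),
      map_add, map_add] at h3
    have h4 := (H.le_N x _).trans (mul_le_mul_of_nonneg_left (b2 i hi.le) (norm_nonneg x))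
    rw [map_sub, map_sub] at h4
    have h4' := abs_le.1 h4
    have h5 := abs_le.1 (H.le_N x (res (Set.Ioc (a i : ι) (a (i + 1))) (Y (a n))))
    by_contra hlt
    have h6 := mul_le_mul_of_nonneg_left (not_le.1 hlt).le (norm_nonneg x)
    refine h1.not_ge (abs_le.2 ⟨?_, ?_⟩) <;> simp only [Nat.succ_eq_add_one] at h3 <;> linarith
  have b4 : ∀ k, ∑ i ∈ range k, res (Set.Ioc (a i : ι) (a (i + 1))) (Y (a n)) =
      res (Set.Ioc (a 0 : ι) (a k)) (Y (a n)) := by
    intro k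
    induction k with
    | zero => rw [sum_range_zero, Set.Ioc_self, res_eq_zero (E := ∅) fun _ _ h => h]
    | succ k ih => rw [sum_range_succ, ih, ← split (hm (Nat.zero_le k)) (hm (Nat.le_succ k))]
  have h2η : 0 < 2 / η := by positivity
  have := hn (fun i => (2 / η) • res (Set.Ioc (a i : ι) (a (i + 1))) (Y (a n)))
    (fun i i' h1 _ => Lt.smul_left (Lt.smul_right (fun u hu v hv =>
      ((mem_support_res.1 hu).2.2.trans (hm (show i + 1 ≤ i' from h1))).trans_lt
        (mem_support_res.1 hv).2.1) _) _)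
    (fun i hi => by
      rw [map_smul_eq_mul, Real.norm_of_nonneg h2η.le]
      calc (1 : ℝ) = 2 / η * (η / 2) := by field_simp
        _ ≤ _ := mul_le_mul_of_nonneg_left (b3 i hi) h2η.le)
  rw [← smul_sum, b4, map_smul_eq_mul, Real.norm_of_nonneg h2η.le] at this
  have h7 := mul_le_mul_of_nonneg_left ((D.res_le (Set.Ioc (a 0 : ι) (a n)) Set.ordConnected_Ioc
    (Y (a n))).trans b1) h2η.le
  linarith

theorem Fam.dens [WellFoundedLT ι] (F : StrongDual ℝ (StrongDual ℝ V)) :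
    Dens τ e F Set.univ := by
  have h : ∀ b, Dens τ e F (Set.Iio b) := fun b => by
    induction b using (wellFounded_lt (α := ι)).induction with
    | _ b ih => exact H.step (isLowerSet_Iio b) fun a ha => H.succ (ih a ha)
  exact H.step isLowerSet_univ fun a _ => H.succ (h a)

omit H in
theorem closure_space {W E : Type} [NormedAddCommGroup W] [NormedSpace ℝ W] [CompleteSpace W]
    [AddCommGroup E] [Module ℝ E] (S : Submodule ℝ W) (φ : E →ₗ[ℝ] StrongDual ℝ W)
    (h : ∀ (G : StrongDual ℝ W) ε, 0 < ε → ∃ y, ∀ x ∈ S, |G x - φ y x| ≤ ε * ‖x‖) :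
    ∃ (X : Type) (_ : NormedAddCommGroup X) (_ : NormedSpace ℝ X) (_ : CompleteSpace X)
      (j : E →ₗ[ℝ] StrongDual ℝ X) (inc : ∀ x ∈ S, X), (∀ y, ‖j y‖ ≤ ‖φ y‖) ∧
      (∀ y x hx, j y (inc x hx) = φ y x) ∧ (∀ x hx, ‖inc x hx‖ = ‖x‖) ∧ DenseRange j := by
  let X := S.topologicalClosure
  let j : E →ₗ[ℝ] StrongDual ℝ X :=
    { toFun := fun y => (φ y).comp X.subtypeL
      map_add' := fun y z => by ext x; simp
      map_smul' := fun c y => by ext x; simp }
  have hj : ∀ y (x : X), j y x = φ y x.1 := fun _ _ => rfl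
  refine ⟨X, inferInstance, inferInstance, S.isClosed_topologicalClosure.completeSpace_coe, j,
    fun x hx => ⟨x, S.le_topologicalClosure hx⟩, fun y => ?_, fun _ _ _ => rfl, fun _ _ => rfl, ?_⟩
  · exact ContinuousLinearMap.opNorm_le_bound _ (norm_nonneg _) fun x => (φ y).le_opNorm x.1
  · refine Metric.denseRange_iff.2 fun F ε hε => ?_
    obtain ⟨G, hG, -⟩ := exists_extension_norm_eq X F
    obtain ⟨y, hy⟩ := h G (ε / 2) (by positivity)
    refine ⟨y, ?_⟩
    rw [dist_eq_norm]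
    refine lt_of_le_of_lt (ContinuousLinearMap.opNorm_le_bound _ (by positivity : 0 ≤ ε / 2)
      fun x => ?_) (by linarith)
    have hcl : IsClosed {x : W | |G x - φ y x| ≤ ε / 2 * ‖x‖} :=
      isClosed_le (by fun_prop) (by fun_prop)
    have := closure_minimal (s := (S : Set W)) hy hcl x.2
    rw [sub_apply, ← hG, hj]
    exact this

theorem Fam.space [WellFoundedLT ι] :
    ∃ (X : Type) (_ : NormedAddCommGroup X) (_ : NormedSpace ℝ X) (_ : CompleteSpace X)
      (j : (ι →₀ ℝ) →ₗ[ℝ] StrongDual ℝ X) (e' : ι → X),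
      (∀ y, ‖j y‖ ≤ D.N y) ∧ (∀ y, D.N y ≤ 3 * ‖j y‖) ∧ DenseRange j ∧
      ∀ δ y, j y (e' δ) = e δ (τ y) := by
  obtain ⟨X, i1, i2, i3, j, inc, a1, a2, a3, a4⟩ := closure_space
    (Submodule.span ℝ (e '' Set.univ)) ((NormedSpace.inclusionInDoubleDual ℝ V).toLinearMap ∘ₗ τ)
    fun G ε hε => (H.dens G ε hε).imp fun y hy => hy.2
  refine ⟨X, i1, i2, i3, j, fun δ => inc (e δ) (Submodule.subset_span ⟨δ, trivial, rfl⟩),
    fun y => (a1 y).trans ?_, fun y => ?_, a4, fun δ y => a2 _ _ _⟩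
  · rw [← H.norm_τ]; exact NormedSpace.double_dual_bound ℝ V (τ y)
  · refine H.N_le isLowerSet_univ (Set.subset_univ _) (norm_nonneg _) fun x hx => ?_
    have := (j y).le_opNorm (inc x hx)
    rw [a2, a3] at this
    exact this

end XSp

open XSp in
/-- the predual space -/
theorem Data.exists_space {ι : Type} [LinearOrder ι] [WellFoundedLT ι] (D : Data ι) :
    ∃ (X : Type) (_ : NormedAddCommGroup X) (_ : NormedSpace ℝ X) (_ : CompleteSpace X)
      (j : (ι →₀ ℝ) →ₗ[ℝ] StrongDual ℝ X) (e : ι → X),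
      (∀ y, ‖j y‖ ≤ D.N y) ∧ (∀ y, D.N y ≤ 3 * ‖j y‖) ∧ DenseRange j ∧
      (∀ δ y (l₀ t₀ : ℕ) (c : ℝ), (∀ l < l₀, Lt (D.F δ l) y) →
        (∀ t, t₀ ≤ t → ev (∑ l ∈ range t, D.F δ l : ι →₀ ℝ) y = c) →
        |j y (e δ) - y δ - c| ≤ (1 / 2) ^ l₀ * D.N y) := by
  obtain ⟨e₀, h1, h2, h3⟩ := D.exists_e
  let e : ι → StrongDual ℝ (VV D) := fun δ =>
    LinearMap.mkContinuous (show VV D →ₗ[ℝ] ℝ from e₀ δ) 3 (h1 δ)
  have H : Fam D (toV D) e := by
    refine ⟨fun _ => rfl, fun δ => LinearMap.mkContinuous_norm_le _ (by norm_num) _, fun δ y hy => ?_,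
      fun L hL y hy ε hε => ?_⟩
    · have hlt : ∀ l, Lt (D.F δ l) y := fun l a ha b hb => (D.F_lt δ l a ha).trans_le (hy b hb)
      have h4 : ∀ l₀ : ℕ, |e₀ δ y - y δ - 0| ≤ (1 / 2) ^ l₀ * D.N y := fun l₀ =>
        h2 δ y l₀ 0 0 (fun l _ => hlt l) fun t _ => (Lt.sum_left fun l _ => hlt l).ev_eq_zero
      have h5 := (tendsto_pow_atTop_nhds_zero_of_lt_one (r := (1 / 2 : ℝ)) (by norm_num)
        (by norm_num)).mul_const (D.N y)
      rw [zero_mul] at h5
      have h6 := abs_nonpos_iff.1 (ge_of_tendsto' h5 h4)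
      change e₀ δ y = y δ
      linarith
    · obtain ⟨x, hx, h4, h5⟩ := h3 L hL y hy ε hε
      have h6 : ∃ x' ∈ Submodule.span ℝ (e '' L), ∀ z, x' (toV D z) = x z := by
        clear h4 h5
        induction hx using Submodule.span_induction with
        | mem x hx =>
          obtain ⟨g, hg, rfl⟩ := hx
          exact ⟨e g, Submodule.subset_span ⟨g, hg, rfl⟩, fun _ => rfl⟩
        | zero => exact ⟨0, zero_mem _, fun _ => rfl⟩
        | add x x' _ _ h1 h2 =>
          obtain ⟨u, hu, h3⟩ := h1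
          obtain ⟨v, hv, h4⟩ := h2
          exact ⟨u + v, add_mem hu hv, fun z => by simp [h3, h4]⟩
        | smul c x _ h1 =>
          obtain ⟨u, hu, h3⟩ := h1
          exact ⟨c • u, Submodule.smul_mem _ _ hu, fun z => by simp [h3]⟩
      obtain ⟨x', hx', h7⟩ := h6
      refine ⟨x', hx', x'.opNorm_le_bound (by norm_num) fun z => ?_, by rwa [h7]⟩
      exact (congrArg abs (h7 z)).trans_le (h4 z)
  obtain ⟨X, i1, i2, i3, j, e', a1, a2, a3, a4⟩ := H.space
  exact ⟨X, i1, i2, i3, j, e', a1, a2, a3, fun δ y => by rw [a4]; exact h2 δ y⟩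

end Vale.Agent.P129
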