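import Vale.Agent.P129.Rho
import Vale.Agent.P129.Mat
import Vale.Agent.P129.Hit2
import Vale.Agent.P129.XSpace
import Vale.Agent.P129.Kill

namespace Vale.Agent.P129

open Cardinal

theorem exists_real_counterexample (A : Set (ℕ → ℕ)) (hA : Cardinal.mk A ≤ aleph 1)
    (hm : ¬ IsMeagre A) :
    ∃ (X : Type) (_ : NormedAddCommGroup X) (_ : NormedSpace ℝ X) (_ : CompleteSpace X),
      ¬ FiniteDimensional ℝ X ∧ ¬ HasSepQuotient ℝ X := by
  let ι : Type := (aleph 1).ord.ToType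
  have hι : Cardinal.mk ι = aleph 1 := mk_ord_toType _
  have hc : ∀ a : ι, (Set.Iio a).Countable := fun a => by
    rw [← Cardinal.le_aleph0_iff_set_countable, ← Order.lt_succ_iff, succ_aleph0]
    exact mk_Iio_toType_ord_lt a
  have : Uncountable ι := by
    rw [← aleph0_lt_mk_iff, hι]
    exact aleph0_lt_aleph_one
  obtain ⟨K⟩ := exists_cod hc
  obtain ⟨D⟩ := K.exists_data hc K.exists_exact A (hι ▸ hA) hm
  obtain ⟨X, i1, i2, i3, j, e, h1, h2, h3, h4⟩ := D.exists_space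
  exact ⟨X, i1, i2, i3, D.kill X j e h1 h2 h3 h4⟩

theorem exists_nonmeagre_of_CH (h : Cardinal.mk ℝ = aleph 1) :
    ∃ A : Set (ℕ → ℕ), Cardinal.mk A ≤ aleph 1 ∧ ¬ IsMeagre A := by
  refine ⟨Set.univ, ?_, not_isMeagre_of_isOpen isOpen_univ Set.univ_nonempty⟩
  rw [mk_univ, ← h, mk_real]
  simp

end Vale.Agent.P129
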