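import Mathlib

namespace Vale.Agent.P129

open Finset

open MeasureTheory

namespace Free

open Filter Function

/-- interchange of quantifiers when all subsets of the first factor are measurable -/
theorem kf {α : Type} [MeasurableSpace α] [DiscreteMeasurableSpace α] (μ : Measure α) [SFinite μ]
    (p : α → unitInterval → Prop) (hp : ∀ a, ∀ᵐ t ∂(volume : Measure unitInterval), p a t) :
    ∀ᵐ t ∂(volume : Measure unitInterval), ∀ᵐ a ∂μ, p a t := by
  have h1 : ∀ (a : α) (m : ℕ), ∃ U ⊇ {t | ¬ p a t}, IsOpen U ∧ volume U < (m : ENNReal)⁻¹ :=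
    fun a m => Set.exists_isOpen_lt_of_lt _ _ (by
      rw [ae_iff.1 (hp a)]
      exact ENNReal.inv_pos.2 (ENNReal.natCast_ne_top m))
  choose U hU1 hU2 hU3 using h1
  have hW : MeasurableSet {x : α × unitInterval | ∃ m, x.2 ∉ U x.1 m} := by
    rw [Set.ofPred_exists]
    refine MeasurableSet.iUnion fun m => MeasurableSet.compl
      (s := {x : α × unitInterval | x.2 ∈ U x.1 m}) ?_
    have : {x : α × unitInterval | x.2 ∈ U x.1 m} =
        ⋃ B ∈ TopologicalSpace.countableBasis unitInterval, {a | B ⊆ U a m} ×ˢ B := by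
      ext ⟨a, t⟩
      simp only [Set.mem_ofPred_eq, Set.mem_iUnion, Set.mem_prod]
      constructor
      · intro h
        obtain ⟨B, hB, h1, h2⟩ := (TopologicalSpace.isBasis_countableBasis
          unitInterval).exists_subset_of_mem_open h (hU2 a m)
        exact ⟨B, hB, h2, h1⟩
      · rintro ⟨B, -, h2, h1⟩
        exact h2 h1
    rw [this]
    exact MeasurableSet.biUnion (TopologicalSpace.countable_countableBasis _) fun B hB =>
      MeasurableSet.prod .of_discrete
        (TopologicalSpace.isOpen_of_mem_countableBasis hB).measurableSet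
  have h2 : ∀ᵐ a ∂μ, ∀ᵐ t ∂(volume : Measure unitInterval), ∃ m, t ∉ U a m := by
    refine Eventually.of_forall fun a => ae_iff.2 ?_
    by_contra h
    obtain ⟨m, hm⟩ := ENNReal.exists_inv_nat_lt h
    refine lt_asymm hm (lt_of_le_of_lt (measure_mono fun t ht => ?_) (hU3 a m))
    by_contra h'
    exact ht ⟨m, h'⟩
  refine ((Measure.ae_ae_comm (p := fun a t => ∃ m, t ∉ U a m) hW).1 h2).mono fun t ht =>
    ht.mono ?_
  rintro a ⟨m, hm⟩
  by_contra h
  exact hm (hU1 a m h)

variable {α : Type}

/-- iterated almost-everywhere quantifier -/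
def Full (F : Filter α) (P : (ℕ → α) → Prop) : ℕ → ℕ → (ℕ → α) → Prop
  | 0, _, s => P s
  | m + 1, pos, s => ∀ᶠ t in F, Full F P m (pos + 1) (update s pos t)

theorem full_A {F G : Filter α}
    (hKF : ∀ p : α → α → Prop, (∀ a, ∀ᶠ t in G, p a t) → ∀ᶠ t in G, ∀ᶠ a in F, p a t)
    {k : ℕ} {Q : (ℕ → α) → α → Prop} (h1 : ∀ s, ∀ᶠ t in G, Q s t)
    (h2 : ∀ s t, Q (update s k t) = Q s) (m : ℕ) : ∀ pos s, k < pos →
      ∀ᶠ t in G, Full F (fun s => Q s (s k)) m pos (update s k t) := by
  induction m with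
  | zero =>
    intro pos s _
    refine (h1 s).mono fun t ht => ?_
    show Q _ _
    rwa [h2, update_self]
  | succ m ih =>
    intro pos s hk
    refine (hKF _ fun a => ih (pos + 1) (update s pos a) (by omega)).mono fun t ht =>
      ht.mono fun a ha => ?_
    rwa [update_comm hk.ne]

theorem full_B {F G : Filter α} (hle : F ≤ G)
    (hKF : ∀ p : α → α → Prop, (∀ a, ∀ᶠ t in G, p a t) → ∀ᶠ t in G, ∀ᶠ a in F, p a t)
    {k : ℕ} {Q : (ℕ → α) → α → Prop} (h1 : ∀ s, ∀ᶠ t in G, Q s t)
    (h2 : ∀ s t, Q (update s k t) = Q s) (m : ℕ) : ∀ pos s, pos ≤ k → k < pos + m →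
      Full F (fun s => Q s (s k)) m pos s := by
  induction m with
  | zero => intro pos s h h'; omega
  | succ m ih =>
    intro pos s h h'
    rcases h.lt_or_eq with h | rfl
    · exact Eventually.of_forall fun t => ih _ _ h (by omega)
    · exact hle (full_A hKF h1 h2 m (pos + 1) s (by omega))

theorem exists_seq {F : Filter α} [F.NeBot] [CountableInterFilter F] {κ : Type} [Countable κ]
    (P : κ → (ℕ → α) → Prop) (n : κ → ℕ) (s₀ : ℕ → α) (h : ∀ c, Full F (P c) (n c) 0 s₀) :
    ∃ ω : ℕ → α, ∀ c, ∃ s, P c s ∧ ∀ i < n c, s i = ω i := by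
  have step : ∀ (j : ℕ) (s : ℕ → α), ∃ t, (∀ c m, n c = j + m → Full F (P c) m j s) →
      ∀ c m, n c = j + 1 + m → Full F (P c) m (j + 1) (update s j t) := by
    intro j s
    by_cases hs : ∀ c m, n c = j + m → Full F (P c) m j s
    · have : ∀ᶠ t in F, ∀ c m, n c = j + 1 + m → Full F (P c) m (j + 1) (update s j t) := by
        refine eventually_countable_forall.2 fun c => eventually_countable_forall.2 fun m => ?_
        by_cases hm : n c = j + 1 + m
        · exact (hs c (m + 1) (by omega)).mono fun t ht _ => ht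
        · exact Eventually.of_forall fun t h' => absurd h' hm
      obtain ⟨t, ht⟩ := this.exists
      exact ⟨t, fun _ => ht⟩
    · exact ⟨s₀ 0, fun h' => absurd h' hs⟩
  choose nx hnx using step
  let S : ℕ → ℕ → α := fun j => Nat.rec s₀ (fun j s => update s j (nx j s)) j
  have hS : ∀ j, S (j + 1) = update (S j) j (nx j (S j)) := fun j => rfl
  have hinv : ∀ j c m, n c = j + m → Full F (P c) m j (S j) := by
    intro j
    induction j with
    | zero => intro c m hm; rw [zero_add] at hm; exact hm ▸ h c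
    | succ j ih => exact hnx j _ ih
  refine ⟨fun i => S (i + 1) i, fun c => ⟨S (n c), hinv (n c) c 0 rfl, fun i hi => ?_⟩⟩
  have key : ∀ j, i + 1 ≤ j → S j i = S (i + 1) i := by
    intro j hj
    induction hj with
    | refl => rfl
    | step hle ih => rw [hS, update_of_ne (Nat.ne_of_lt hle), ih]
  exact key _ hi

end Free

/-- free sequences for null-set valued maps, from a total extension of Lebesgue measure -/
theorem exists_free (μ : @Measure unitInterval ⊤)
    (hμ : ∀ s : Set unitInterval, MeasurableSet s → μ s = volume s)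
    {κ : Type} [Countable κ] (n k : κ → ℕ) (Ψ : κ → (ℕ → unitInterval) → Set unitInterval)
    (hnull : ∀ c s, volume (Ψ c s) = 0)
    (hdep : ∀ c s s', (∀ i < n c, i ≠ k c → s i = s' i) → Ψ c s = Ψ c s') :
    ∃ ω : ℕ → unitInterval, ∀ c, ω (k c) ∉ Ψ c ω := by
  have h1 : μ Set.univ = 1 := by rw [hμ _ MeasurableSet.univ, measure_univ]
  have hP : @IsProbabilityMeasure _ ⊤ μ := @IsProbabilityMeasure.mk _ ⊤ μ h1
  have hle : ae μ ≤ ae (volume : Measure unitInterval) := by
    intro s hs
    obtain ⟨t, hst, ht, h0⟩ := exists_measurable_superset_of_null (mem_ae_iff.1 hs)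
    exact mem_ae_iff.2 (measure_mono_null hst ((hμ t ht).trans h0))
  have hKF := @Free.kf unitInterval ⊤ (@DiscreteMeasurableSpace.mk _ ⊤ fun _ => trivial) μ
    inferInstance
  obtain ⟨ω, hω⟩ := Free.exists_seq (F := ae μ) (fun c s => s (k c) ∉ Ψ c s)
    (fun c => max (n c) (k c + 1)) (fun _ => 0) fun c =>
      Free.full_B (Q := fun s t => t ∉ Ψ c s) hle hKF
        (fun s => measure_eq_zero_iff_ae_notMem.1 (hnull c s))
        (fun s t => by rw [hdep c _ s fun i _ hi => Function.update_of_ne hi _ _]) _ 0 _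
        (Nat.zero_le _) (by omega)
  refine ⟨ω, fun c => ?_⟩
  obtain ⟨s, hs, hs'⟩ := hω c
  rwa [← hs' (k c) (by omega), ← hdep c s ω fun i hi _ => hs' i (by omega)]

end Vale.Agent.P129
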