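import Vale.Agent.P129.Basic

namespace Vale.Agent.P129

open Finset

/-- exact pairs exist in every tail of a block sequence (statement of the main analytic theorem) -/
def Cod.Exact {ι : Type} [LinearOrder ι] (K : Cod ι) : Prop :=
  ∀ v : ℕ → ι →₀ ℝ, IsBlock v → ∃ C : ℝ, ∀ j n₀, ∃ u ∈ tailSp v n₀, ∃ f, Wt K.G j f ∧
    (f.support : Set ι) ⊆ hull u ∧ ev f u = 1 ∧ K.N u ≤ C

namespace Hit1

noncomputable section

variable {ι : Type} [LinearOrder ι] (K : Cod ι)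

/-- state of the recursion -/
structure St (ι : Type) where
  B : Finset ι
  H : ι →₀ ℝ
  w : ℕ

open Classical in
/-- the functional played -/
def fOf (s : St ι) (m : (ι →₀ ℝ) × Finset ι) : ι →₀ ℝ :=
  if Wt K.G s.w m.1 ∧ ∀ a ∈ s.B, ∀ b ∈ m.1.support, a < b then m.1 else 0

/-- the level -/
def pOf (s : St ι) (m : (ι →₀ ℝ) × Finset ι) : ℕ :=
  max s.w (K.exists_RB (s.H + fOf K s m).support).choose

/-- the next state -/
def next (s : St ι) (m : (ι →₀ ℝ) × Finset ι) : St ι :=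
  ⟨s.B ∪ (fOf K s m).support ∪ m.2, s.H + fOf K s m,
    K.code (pOf K s m) ((s.H + fOf K s m).mapDomain (K.pos (pOf K s m)))⟩

/-- the sequence of states -/
def st (mv : ℕ → (ι →₀ ℝ) × Finset ι) : ℕ → St ι
  | 0 => ⟨∅, 0, 0⟩
  | l + 1 => next K (st mv l) (mv l)

/-- the functionals -/
def ff (mv : ℕ → (ι →₀ ℝ) × Finset ι) (l : ℕ) : ι →₀ ℝ := fOf K (st K mv l) (mv l)

variable {K}

theorem fOf_wt (s : St ι) (m : (ι →₀ ℝ) × Finset ι) : Wt K.G s.w (fOf K s m) := by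
  unfold fOf
  split_ifs with h
  exacts [h.1, Wt.zero _ _]

theorem fOf_lt (s : St ι) (m : (ι →₀ ℝ) × Finset ι) :
    ∀ a ∈ s.B, ∀ b ∈ (fOf K s m).support, a < b := by
  unfold fOf
  split_ifs with h
  · exact h.2
  · intro a _ b hb
    simp at hb

theorem fOf_support (s : St ι) (m : (ι →₀ ℝ) × Finset ι) :
    (fOf K s m).support ⊆ m.1.support := by
  unfold fOf
  split_ifs with h
  · exact subset_rfl
  · simp

variable (mv : ℕ → (ι →₀ ℝ) × Finset ι)

theorem st_H (l : ℕ) : (st K mv l).H = ∑ i ∈ range l, ff K mv i := by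
  induction l with
  | zero => rfl
  | succ l ih => rw [sum_range_succ, ← ih]; rfl

theorem st_B (l : ℕ) :
    (st K mv (l + 1)).B = (st K mv l).B ∪ (ff K mv l).support ∪ (mv l).2 := rfl

theorem st_B_mono : Monotone fun l => (st K mv l).B :=
  monotone_nat_of_le_succ fun l => by
    show _ ⊆ (st K mv (l + 1)).B
    rw [st_B]
    exact subset_union_left.trans subset_union_left

theorem ff_sub {i l : ℕ} (h : i < l) : (ff K mv i).support ⊆ (st K mv l).B := by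
  refine subset_trans ?_ (st_B_mono mv (show i + 1 ≤ l from h))
  show _ ⊆ (st K mv (i + 1)).B
  rw [st_B]
  exact subset_union_right.trans subset_union_left

theorem spec (t : ℕ) : K.Spec K.G t (ff K mv) (fun l => (st K mv l).w)
    (fun l => pOf K (st K mv l) (mv l)) := by
  refine ⟨fun l _ => fOf_wt _ _, fun l l' h _ a ha b hb => fOf_lt _ _ a (ff_sub mv h ha) b hb,
    fun l _ => ⟨le_max_left _ _, ?_, ?_⟩⟩
  · rw [← st_H]
    exact (K.exists_RB _).choose_spec _ (le_max_right _ _)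
  · rw [← st_H]
    rfl

theorem st_B_lt {β : ι} (h1 : ∀ l, ∀ ξ ∈ (mv l).1.support, ξ < β)
    (h2 : ∀ l, ∀ ξ ∈ (mv l).2, ξ < β) (l : ℕ) : ∀ ξ ∈ (st K mv l).B, ξ < β := by
  induction l with
  | zero => intro ξ hξ; simp [st] at hξ
  | succ l ih =>
    intro ξ hξ
    rw [st_B, mem_union, mem_union] at hξ
    rcases hξ with (h | h) | h
    exacts [ih ξ h, h1 l ξ (fOf_support _ _ h), h2 l ξ h]

theorem st_congr {mv mv' : ℕ → (ι →₀ ℝ) × Finset ι} {l : ℕ} (h : ∀ i < l, mv i = mv' i) :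
    st K mv l = st K mv' l := by
  induction l with
  | zero => rfl
  | succ l ih =>
    show next K _ _ = next K _ _
    rw [ih fun i hi => h i (by omega), h l (by omega)]

theorem ev_sum_eq {l : ℕ} {u : ι →₀ ℝ} (h1 : ev (ff K mv l) u = 1)
    (h2 : ∀ a ∈ (st K mv l).B, ∀ b ∈ u.support, a < b)
    (h3 : u.support ⊆ (st K mv (l + 1)).B) {t : ℕ} (ht : l + 1 ≤ t) :
    ev (∑ i ∈ range t, ff K mv i : ι →₀ ℝ) u = 1 := by
  rw [ev_sum_left, sum_eq_single l, h1]
  · intro i _ hi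
    rcases lt_or_gt_of_ne hi with h | h
    · exact Lt.ev_eq_zero fun a ha b hb => h2 a (ff_sub mv h ha) b hb
    · exact Lt.ev_eq_zero' fun a ha b hb =>
        fOf_lt _ _ a (st_B_mono mv (show l + 1 ≤ i from h) (h3 ha)) b hb
  · intro h
    exact absurd (mem_range.2 ht) h

omit [LinearOrder ι] in
theorem countable_finsets {α : Type} {S : Set α} (hS : S.Countable) :
    {A : Finset α | (A : Set α) ⊆ S}.Countable :=
  ((Set.countable_ofPred_finite_subset hS).preimage_of_injOn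
    (f := fun A : Finset α => (A : Set α)) Finset.coe_injective.injOn).mono
    fun A hA => And.intro A.finite_toSet hA

omit [LinearOrder ι] in
theorem exists_enum {S : Set ι} (hS : S.Countable) :
    ∃ e : ℕ → (ι →₀ ℝ) × Finset ι, (∀ l, ∀ ξ ∈ (e l).1.support, ξ ∈ S) ∧
      (∀ l, ∀ ξ ∈ (e l).2, ξ ∈ S) ∧ ∀ g A, IsRat g → (∀ ξ ∈ g.support, ξ ∈ S) →
        (∀ ξ ∈ A, ξ ∈ S) → ∃ l, e l = (g, A) := by
  classical
  have h1 : {g : ι →₀ ℝ | IsRat g ∧ ∀ ξ ∈ g.support, ξ ∈ S}.Countable := by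
    refine ((countable_finsets (hS.prod (Set.countable_range ((↑) : ℚ → ℝ)))).preimage_of_injOn
      (f := Finsupp.graph) (Finsupp.graph_injective ι ℝ).injOn).mono ?_
    rintro g ⟨hg, hs⟩ ⟨a, b⟩ hab
    obtain ⟨h1, h2⟩ := Finsupp.mk_mem_graph_iff.1 hab
    obtain ⟨q, hq⟩ := hg a
    exact ⟨hs a (Finsupp.mem_support_iff.2 (h1 ▸ h2)), q, by rw [← hq, h1]⟩
  obtain ⟨e, he⟩ := (h1.prod (countable_finsets hS)).exists_eq_range
    ⟨(0, ∅), ⟨IsRat.zero, by simp⟩, by simp⟩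
  have h2 : ∀ l, e l ∈ _ := fun l => he ▸ Set.mem_range_self l
  refine ⟨e, fun l => (h2 l).1.2, fun l ξ hξ => (h2 l).2 hξ, fun g A hg hs hA => ?_⟩
  have : (g, A) ∈ Set.range e := he ▸ ⟨⟨hg, hs⟩, fun ξ hξ => hA ξ hξ⟩
  exact this

theorem exists_bound [WellFoundedLT ι] [Uncountable ι] (hc : ∀ a : ι, (Set.Iio a).Countable)
    (v : ℕ → ι →₀ ℝ) : ∃ β, (∀ n, ∀ a ∈ (v n).support, a < β) ∧
      ∀ ξ < β, ∃ n, ∃ a ∈ (v n).support, ξ ≤ a := by
  have h1 : (⋃ n, ⋃ a ∈ ((v n).support : Set ι), Set.Iic a).Countable :=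
    Set.countable_iUnion fun n => (v n).support.countable_toSet.biUnion fun a _ => by
      rw [← Set.Iio_insert]
      exact (hc a).insert a
  have h2 : {b | ∀ n, ∀ a ∈ (v n).support, a < b}.Nonempty := by
    by_contra h
    refine Set.not_countable_univ (h1.mono fun b _ => ?_)
    by_contra hb
    refine h ⟨b, fun n a ha => ?_⟩
    by_contra hab
    exact hb (Set.mem_iUnion.2 ⟨n, Set.mem_biUnion ha (not_lt.1 hab)⟩)
  refine ⟨wellFounded_lt.min _ h2, wellFounded_lt.min_mem _ h2, fun ξ hξ => ?_⟩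
  by_contra h
  push Not at h
  exact wellFounded_lt.not_lt_min _ (show ξ ∈ {b | ∀ n, ∀ a ∈ (v n).support, a < b} from h) hξ

end

end Hit1

open Hit1 in
/-- a family of infinite special sequences indexed by `ι × (ℕ → ℕ)` such that every block sequence
is hit by a member whose second index lies in a given nonmeagre set -/
theorem Cod.exists_branches {ι : Type} [LinearOrder ι] [WellFoundedLT ι] [Uncountable ι]
    (hc : ∀ a : ι, (Set.Iio a).Countable) (K : Cod ι) (hK : K.Exact) :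
    ∃ (f : ι → (ℕ → ℕ) → ℕ → ι →₀ ℝ) (w p : ι → (ℕ → ℕ) → ℕ → ℕ),
      (∀ β r t, K.Spec K.G t (f β r) (w β r) (p β r)) ∧
      (∀ β r l, ∀ ξ ∈ (f β r l).support, ξ < β) ∧
      ∀ A : Set (ℕ → ℕ), ¬ IsMeagre A → ∀ v : ℕ → ι →₀ ℝ, IsBlock v → ∃ β, ∃ r ∈ A, ∃ C : ℝ,
        (∀ ξ < β, ∃ n, ∃ a ∈ (v n).support, ξ ≤ a) ∧
        ∀ n₀, ∃ u ∈ tailSp v n₀, K.N u ≤ C ∧
          ∃ t₀, ∀ t, t₀ ≤ t → ev (∑ l ∈ range t, f β r l : ι →₀ ℝ) u = 1 := by
  classical
  choose e he1 he2 he3 using fun β : ι => exists_enum (hc β)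
  refine ⟨fun β r => ff K fun l => e β (r l), fun β r l => (st K (fun l => e β (r l)) l).w,
    fun β r l => pOf K (st K (fun l => e β (r l)) l) (e β (r l)), fun β r t => spec _ t,
    fun β r l ξ hξ => he1 β _ ξ (fOf_support _ _ hξ), fun A hA v hv => ?_⟩
  obtain ⟨β, hβ1, hβ2⟩ := exists_bound hc v
  obtain ⟨C, hC⟩ := hK v hv
  let U : ℕ → Set (ℕ → ℕ) := fun n₀ => {r | ∃ l, ∃ u ∈ tailSp v n₀, K.N u ≤ C ∧
    ev (ff K (fun l => e β (r l)) l) u = 1 ∧
    (∀ a ∈ (st K (fun l => e β (r l)) l).B, ∀ b ∈ u.support, a < b) ∧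
    u.support ⊆ (st K (fun l => e β (r l)) (l + 1)).B}
  have hopen : ∀ n₀, IsOpen (U n₀) := by
    intro n₀
    refine (PiNat.isTopologicalBasis_cylinders _).isOpen_iff.2 ?_
    rintro r ⟨l, u, hu, h1, h2, h3, h4⟩
    refine ⟨PiNat.cylinder r (l + 1), ⟨r, l + 1, rfl⟩, PiNat.self_mem_cylinder _ _, ?_⟩
    intro r' hr'
    rw [PiNat.mem_cylinder_iff] at hr'
    have e1 : st K (fun l => e β (r' l)) l = st K (fun l => e β (r l)) l :=
      st_congr fun i hi => by rw [hr' i (by omega)]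
    have e2 : st K (fun l => e β (r' l)) (l + 1) = st K (fun l => e β (r l)) (l + 1) :=
      st_congr fun i hi => by rw [hr' i hi]
    refine ⟨l, u, hu, h1, ?_, e1 ▸ h3, e2 ▸ h4⟩
    rw [← h2]
    unfold ff
    beta_reduce
    rw [e1, hr' l (by omega)]
  have hdense : ∀ n₀, Dense (U n₀) := by
    intro n₀
    refine (PiNat.isTopologicalBasis_cylinders _).dense_iff.2 ?_
    rintro _ ⟨x, n, rfl⟩ -
    have hB := st_B_lt (K := K) (fun l => e β (x l)) (fun l => he1 β _) (fun l => he2 β _) n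
    obtain ⟨n₁, hn₁, hlt⟩ := hv.exists_lt (st K (fun l => e β (x l)) n).B
      (fun ξ hξ => hβ2 ξ (hB ξ hξ)) n₀
    obtain ⟨u, hu, f, hf1, hf2, hf3, hf4⟩ := hC (st K (fun l => e β (x l)) n).w n₁
    have hus : ∀ ξ ∈ u.support, ξ < β := fun ξ hξ => by
      obtain ⟨k, -, hk⟩ := exists_support_of_mem_tailSp hu hξ
      exact hβ1 k ξ hk
    obtain ⟨m, hm⟩ := he3 β f u.support (Cod.isRat_of_mem (Cod.wt_mem hf1))
      (fun ξ hξ => by
        obtain ⟨-, -, b, hb, -, h⟩ := hf2 hξ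
        exact h.trans_lt (hus b hb)) hus
    have e1 : st K (fun l => e β (Function.update x n m l)) n = st K (fun l => e β (x l)) n :=
      st_congr fun i hi => by rw [Function.update_of_ne hi.ne]
    refine ⟨Function.update x n m, PiNat.update_mem_cylinder _ _ _, n, u,
      tailSp_anti v hn₁ hu, hf4, ?_, e1 ▸ hlt u hu, ?_⟩
    · unfold ff fOf
      beta_reduce
      rw [e1, Function.update_self, hm, if_pos, hf3]
      refine ⟨hf1, fun a ha b hb => ?_⟩
      obtain ⟨c, hc, -, -, h, -⟩ := hf2 hb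
      exact (hlt u hu a ha c hc).trans_le h
    · rw [st_B, Function.update_self, hm]
      exact subset_union_right
  have hres : ⋂ n₀, U n₀ ∈ residual (ℕ → ℕ) :=
    countable_iInter_mem.2 fun n₀ => residual_of_dense_open (hopen n₀) (hdense n₀)
  have hne : ∃ r ∈ A, r ∈ ⋂ n₀, U n₀ := by
    by_contra h
    exact hA (Filter.mem_of_superset hres fun r hr hrA => h ⟨r, hrA, hr⟩)
  obtain ⟨r, hrA, hr⟩ := hne
  refine ⟨β, r, hrA, C, hβ2, fun n₀ => ?_⟩
  obtain ⟨l, u, hu, h1, h2, h3, h4⟩ := Set.mem_iInter.1 hr n₀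
  exact ⟨u, hu, h1, l + 1, fun t ht => ev_sum_eq _ h2 h3 h4 ht⟩

end Vale.Agent.P129
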