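import Vale.Agent.P129.Pre
import Vale.Agent.P129.Stmt

/-! Auxiliary lemmas for `Data.kill`: linear algebra, annihilators, projections. -/

namespace Vale.Agent.P129

open Finset

theorem kill_shrink {V : Type*} [AddCommGroup V] [Module ℝ V] {Z : Submodule ℝ V}
    (hZ : ¬ Z.FG) : ∃ w : ℕ → V, Submodule.span ℝ (Set.range w) ≤ Z ∧
      ¬ (Submodule.span ℝ (Set.range w)).FG := by
  obtain ⟨b, hb, hspan, hli⟩ := exists_linearIndependent ℝ (Z : Set V)
  have hinf : b.Infinite := by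
    intro hfin
    apply hZ
    rw [Submodule.span_eq] at hspan
    rw [← hspan]
    exact Submodule.fg_span hfin
  let w : ℕ → V := fun n => (hinf.natEmbedding b n : V)
  have hw : LinearIndependent ℝ w := hli.comp _ (hinf.natEmbedding b).injective
  refine ⟨w, ?_, ?_⟩
  · rw [Submodule.span_le]
    rintro _ ⟨n, rfl⟩
    exact hb (hinf.natEmbedding b n).2
  · intro hfg
    haveI : Module.Finite ℝ (Submodule.span ℝ (Set.range w)) := Module.Finite.iff_fg.2 hfg
    exact Module.Finite.not_linearIndependent_of_infinite _ (linearIndependent_span hw)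

theorem kill_inf_ker {V W : Type*} [AddCommGroup V] [Module ℝ V] [AddCommGroup W] [Module ℝ W]
    [FiniteDimensional ℝ W] {Z : Submodule ℝ V} (hZ : ¬ Z.FG) (f : V →ₗ[ℝ] W) :
    ¬ (Z ⊓ LinearMap.ker f).FG := fun h =>
  hZ (Submodule.fg_of_fg_map_of_fg_inf_ker f (IsNoetherian.noetherian _) h)

theorem kill_dual_finite {V : Type*} [AddCommGroup V] [Module ℝ V] {Z : Submodule ℝ V}
    (hZ : Z.FG) : Module.Finite ℝ (Module.Dual ℝ Z) := by
  haveI : Module.Finite ℝ Z := Module.Finite.iff_fg.2 hZ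
  infer_instance

/-- the annihilator of a subspace -/
def killAnn {X : Type*} [NormedAddCommGroup X] [NormedSpace ℝ X] (M : Submodule ℝ X) :
    Submodule ℝ (StrongDual ℝ X) where
  carrier := {z | ∀ m ∈ M, z m = 0}
  add_mem' := fun {a b} ha hb m hm => by simp [ha m hm, hb m hm]
  zero_mem' := fun m _ => by simp
  smul_mem' := fun c z hz m hm => by simp [hz m hm]

theorem killAnn_not_fg {X : Type*} [NormedAddCommGroup X] [NormedSpace ℝ X] {M : Submodule ℝ X}
    (hM : IsClosed (M : Set X)) (hinf : ¬ FiniteDimensional ℝ (X ⧸ M)) : ¬ (killAnn M).FG := by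
  intro hfg
  apply hinf
  let T : X →ₗ[ℝ] Module.Dual ℝ (killAnn M) :=
    { toFun := fun x =>
        { toFun := fun z => (z : StrongDual ℝ X) x
          map_add' := fun a b => by simp
          map_smul' := fun c a => by simp }
      map_add' := fun a b => by ext; simp
      map_smul' := fun c a => by ext; simp }
  have hle : M ≤ LinearMap.ker T := fun m hm => by
    rw [LinearMap.mem_ker]
    ext z
    exact z.2 m hm
  have hge : LinearMap.ker T ≤ M := fun x hx => by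
    haveI : IsClosed (M : Set X) := hM
    rw [← Submodule.Quotient.mk_eq_zero]
    refine SeparatingDual.eq_zero_of_forall_dual_eq_zero (R := ℝ) fun g => ?_
    have hz : g.comp M.mkQL ∈ killAnn M := fun m hm => by
      have : M.mkQL m = 0 := (Submodule.Quotient.mk_eq_zero M).2 hm
      simp [this]
    have := LinearMap.congr_fun (LinearMap.mem_ker.1 hx) ⟨_, hz⟩
    exact this
  haveI : Module.Finite ℝ (Module.Dual ℝ (killAnn M)) := kill_dual_finite hfg
  exact FiniteDimensional.of_injective (M.liftQ T hle)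
    (LinearMap.ker_eq_bot.1 (Submodule.ker_liftQ_eq_bot _ _ _ hge))

theorem kill_dense_seq {X : Type*} [NormedAddCommGroup X] [NormedSpace ℝ X] (M : Submodule ℝ X)
    (hsep : TopologicalSpace.SeparableSpace (X ⧸ M)) :
    ∃ x : ℕ → X, ∀ y ε, 0 < ε → ∃ i, ∃ m ∈ M, ‖y - x i - m‖ < ε := by
  obtain ⟨q, hq⟩ := TopologicalSpace.exists_dense_seq (X ⧸ M)
  choose x hx using fun i => Submodule.Quotient.mk_surjective M (q i)
  refine ⟨x, fun y ε hε => ?_⟩
  have hopen : IsOpen (M.mkQL '' Metric.ball y ε) :=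
    M.isOpenQuotientMap_mkQL.isOpenMap _ Metric.isOpen_ball
  obtain ⟨i, y', hy', hi⟩ := hq.exists_mem_open hopen ⟨_, y, Metric.mem_ball_self hε, rfl⟩
  refine ⟨i, y' - x i, ?_, ?_⟩
  · rw [← Submodule.Quotient.eq, hx]
    exact hi
  · have : y - x i - (y' - x i) = y - y' := by abel
    rw [this, ← dist_eq_norm, dist_comm]
    exact hy'

variable {ι : Type} [LinearOrder ι]

theorem Data.kill_proj (D : Data ι) {V : Type*} [NormedAddCommGroup V] [NormedSpace ℝ V]
    [CompleteSpace V] (j : (ι →₀ ℝ) →ₗ[ℝ] V)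
    (hj₁ : ∀ y, ‖j y‖ ≤ D.N y) (hj₂ : ∀ y, D.N y ≤ 3 * ‖j y‖) (hj₃ : DenseRange j) :
    ∃ (P : Set ι → V →L[ℝ] V) (c : ι → V →L[ℝ] ℝ),
      (∀ E : Set ι, E.OrdConnected → (∀ y, P E (j y) = j (res E y)) ∧ ∀ z, ‖P E z‖ ≤ 3 * ‖z‖) ∧
      ∀ d y, c d (j y) = y d := by
  refine ⟨fun E => (j ∘ₗ res E).extendOfNorm j, fun d => (Finsupp.lapply d).extendOfNorm j,
    fun E hE => ?_, fun d y => ?_⟩
  · have h : ∀ y, ‖(j ∘ₗ res E) y‖ ≤ 3 * ‖j y‖ := fun y =>
      (hj₁ _).trans ((D.res_le E hE y).trans (hj₂ y))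
    exact ⟨fun y => LinearMap.extendOfNorm_eq hj₃ ⟨3, h⟩ y,
      fun z => LinearMap.norm_extendOfNorm_apply_le hj₃ 3 h z⟩
  · have h : ∀ y, ‖(Finsupp.lapply d : (ι →₀ ℝ) →ₗ[ℝ] ℝ) y‖ ≤ 3 * ‖j y‖ := fun y =>
      (D.coord_le y d).trans (hj₂ y)
    exact LinearMap.extendOfNorm_eq hj₃ ⟨3, h⟩ y

omit [LinearOrder ι] in
theorem kill_countable {V : Type*} [NormedAddCommGroup V] [NormedSpace ℝ V]
    (j : (ι →₀ ℝ) →ₗ[ℝ] V) (hj₃ : DenseRange j) (c : ι → V →L[ℝ] ℝ)
    (hc : ∀ d y, c d (j y) = y d) (w : V) : {d | c d w ≠ 0}.Countable := by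
  obtain ⟨s, hs, hlim⟩ := mem_closure_iff_seq_limit.1 (hj₃ w)
  choose y hy using hs
  refine (Set.countable_iUnion fun k => (y k).support.countable_toSet).mono fun d hd => ?_
  by_contra hnot
  apply hd
  have h0 : ∀ k, c d (s k) = 0 := fun k => by
    rw [← hy k, hc]
    by_contra h
    exact hnot (Set.mem_iUnion.2 ⟨k, Finsupp.mem_support_iff.2 h⟩)
  have h1 := ((c d).continuous.tendsto w).comp hlim
  have h2 : (c d) ∘ s = fun _ => 0 := funext h0
  rw [h2] at h1
  exact tendsto_nhds_unique h1 tendsto_const_nhds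

end Vale.Agent.P129
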