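import Vale.Agent.P129.L2

namespace Vale.Agent.P129

open Finset Filter Topology

/-- the space of null sequences -/
abbrev CZ : Type := ZeroAtInftyContinuousMap ℕ ℝ

/-- a null sequence as an element of `CZ` -/
def CZ.mk' (w : ℕ → ℝ) (h : Tendsto w atTop (𝓝 0)) : CZ :=
  ⟨⟨w, continuous_of_discreteTopology⟩, by rw [cocompact_eq_atTop]; exact h⟩

theorem CZ.norm_le (w : CZ) {C : ℝ} (hC : 0 ≤ C) (h : ∀ k, |w k| ≤ C) : ‖w‖ ≤ C := by
  rw [← ZeroAtInftyContinuousMap.norm_toBCF_eq_norm]
  exact (BoundedContinuousFunction.norm_le hC).2 h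

theorem CZ.abs_le (w : CZ) (k : ℕ) : |w k| ≤ ‖w‖ := by
  rw [← ZeroAtInftyContinuousMap.norm_toBCF_eq_norm]
  exact w.toBCF.norm_coe_le_norm k

theorem CZ.tendsto (w : CZ) : Tendsto w atTop (𝓝 0) := by
  rw [← cocompact_eq_atTop]
  exact zero_at_infty w

/-- the unit vectors -/
def CZ.e (k : ℕ) : CZ := CZ.mk' (Pi.single k 1) (by
  refine tendsto_const_nhds.congr' ?_
  filter_upwards [eventually_gt_atTop k] with j hj
  simp [hj.ne'])

theorem CZ.sum_apply (A : Finset ℕ) (a : ℕ → ℝ) (j : ℕ) :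
    (∑ k ∈ A, a k • CZ.e k : CZ) j = if j ∈ A then a j else 0 := by
  induction A using Finset.induction_on with
  | empty => simp
  | insert i A hi ih =>
    rw [Finset.sum_insert hi, ZeroAtInftyContinuousMap.add_apply, ih,
      ZeroAtInftyContinuousMap.smul_apply]
    have he : CZ.e i j = (Pi.single i 1 : ℕ → ℝ) j := rfl
    rw [he]
    by_cases h : j = i
    · subst h
      simp [hi]
    · simp [h]

theorem CZ.tendsto_partial (w : CZ) :
    Tendsto (fun N => ∑ k ∈ range N, w k • CZ.e k) atTop (𝓝 w) := by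
  rw [Metric.tendsto_atTop]
  intro ε hε
  obtain ⟨N, hN⟩ := Metric.tendsto_atTop.1 w.tendsto (ε / 2) (by positivity)
  refine ⟨N, fun n hn => ?_⟩
  rw [dist_eq_norm]
  refine lt_of_le_of_lt (CZ.norm_le _ (C := ε / 2) (by positivity) fun k => ?_) (by linarith)
  rw [ZeroAtInftyContinuousMap.sub_apply, CZ.sum_apply]
  split_ifs with h
  · rw [sub_self, abs_zero]; positivity
  · have := hN k (hn.trans (not_lt.1 fun h' => h (Finset.mem_range.2 h')))
    rw [Real.dist_eq, sub_zero] at this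
    rw [zero_sub, abs_neg]
    exact this.le

theorem CZ.separable : TopologicalSpace.SeparableSpace CZ := by
  rw [← TopologicalSpace.isSeparable_univ_iff]
  refine ((Set.countable_range CZ.e).isSeparable.span (R := ℝ)).closure.mono fun w _ => ?_
  refine mem_closure_of_tendsto w.tendsto_partial (Eventually.of_forall fun N => ?_)
  exact Submodule.sum_mem _ fun k _ => Submodule.smul_mem _ _ (Submodule.subset_span ⟨k, rfl⟩)

theorem CZ.not_finite : ¬ FiniteDimensional ℝ CZ := by
  intro h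
  have : LinearIndependent ℝ CZ.e := by
    rw [linearIndependent_iff']
    intro A a hA i hi
    have := CZ.sum_apply A a i
    rw [hA, if_pos hi] at this
    exact this.symm
  exact Module.Finite.not_linearIndependent_of_infinite _ this

section

variable {X : Type*} [NormedAddCommGroup X] [NormedSpace ℝ X]

/-- bounded sequences with a lower `ℓ¹` estimate -/
def GoodSeq (κ : ℝ) (u : ℕ → StrongDual ℝ X) : Prop :=
  (∀ j, ‖u j‖ ≤ 1) ∧ ∀ (A : Finset ℕ) (a : ℕ → ℝ), κ * ∑ j ∈ A, |a j| ≤ ‖∑ j ∈ A, a j • u j‖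

theorem hasSepQuotient_of_null [CompleteSpace X] {κ : ℝ} (hκ : 0 < κ) {d : ℕ → StrongDual ℝ X}
    (hd : GoodSeq κ d) (h0 : ∀ x, Tendsto (fun k => d k x) atTop (𝓝 0)) :
    HasSepQuotient ℝ X := by
  let T₀ : X →ₗ[ℝ] CZ :=
    { toFun := fun x => CZ.mk' (fun k => d k x) (h0 x)
      map_add' := fun x y => by ext k; exact map_add (d k) x y
      map_smul' := fun c x => by ext k; exact map_smul (d k) c x }
  let T : X →L[ℝ] CZ := T₀.mkContinuous 1 fun x => CZ.norm_le _ (by positivity) fun k =>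
    (d k).le_of_opNorm_le (hd.1 k) x
  have hT : ∀ x k, T x k = d k x := fun x k => rfl
  haveI := CZ.separable
  refine hasSepQuotient_of_surj CZ.not_finite T fun w =>
    (surj_of_adjoint T κ hκ (fun φ => ?_) w).imp fun x hx => hx.1
  have hφ : ∀ w : CZ, Tendsto (fun N => ∑ k ∈ range N, w k * φ (CZ.e k)) atTop (𝓝 (φ w)) :=
    fun w => by
      have := (φ.continuous.tendsto w).comp w.tendsto_partial
      simpa [Function.comp_def, map_sum] using this
  have hb : ∀ N, ∑ k ∈ range N, |φ (CZ.e k)| ≤ ‖φ‖ := fun N => by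
    have h1 : ‖(∑ k ∈ range N, (if 0 ≤ φ (CZ.e k) then (1 : ℝ) else -1) • CZ.e k : CZ)‖ ≤ 1 :=
      CZ.norm_le _ zero_le_one fun k => by
        rw [CZ.sum_apply]
        split_ifs <;> simp
    have h2 := φ.le_of_opNorm_le_of_le le_rfl h1
    rw [mul_one, map_sum] at h2
    refine le_trans (le_of_eq (Finset.sum_congr rfl fun k _ => ?_)) ((le_abs_self _).trans h2)
    rw [map_smul, smul_eq_mul]
    split_ifs with h
    · rw [one_mul, abs_of_nonneg h]
    · rw [neg_one_mul, abs_of_neg (not_le.1 h)]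
  have hs : Summable fun k => |φ (CZ.e k)| := summable_of_sum_range_le (fun _ => abs_nonneg _) hb
  have h1 : ‖φ‖ ≤ ∑' k, |φ (CZ.e k)| := by
    refine φ.opNorm_le_bound (tsum_nonneg fun _ => abs_nonneg _) fun w => ?_
    refine le_of_tendsto' (hφ w).norm fun N => ?_
    refine (norm_sum_le _ _).trans ?_
    refine le_trans ?_ (mul_le_mul_of_nonneg_right
      (hs.sum_le_tsum (range N) fun _ _ => abs_nonneg _) (norm_nonneg w))
    rw [Finset.sum_mul]
    refine Finset.sum_le_sum fun k _ => ?_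
    rw [norm_mul, mul_comm]
    exact mul_le_mul_of_nonneg_left (w.abs_le k) (abs_nonneg _)
  have hs2 : Summable fun k => φ (CZ.e k) • d k :=
    Summable.of_norm_bounded hs fun k => by
      rw [norm_smul]
      exact mul_le_of_le_one_right (norm_nonneg _) (hd.1 k)
  have h2 : ∑' k, φ (CZ.e k) • d k = φ.comp T := by
    ext x
    have h3 := ((ContinuousLinearMap.apply ℝ ℝ x).continuous.tendsto _).comp
      hs2.hasSum.tendsto_sum_nat
    refine tendsto_nhds_unique h3 ((hφ (T x)).congr fun N => ?_)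
    simp [hT, ContinuousLinearMap.sum_apply, mul_comm]
  refine (mul_le_mul_of_nonneg_left h1 hκ.le).trans ?_
  rw [← h2]
  exact le_of_tendsto_of_tendsto' (hs.hasSum.tendsto_sum_nat.const_mul κ)
    hs2.hasSum.tendsto_sum_nat.norm fun N => hd.2 _ _

theorem Blk.norm_le {b' b : ℕ → StrongDual ℝ X} (h : Blk b' b) (hb : ∀ j, ‖b j‖ ≤ 1) (j : ℕ) :
    ‖b' j‖ ≤ 1 := by
  obtain ⟨c, h1, -, h3⟩ := h
  rw [h3, ← h1 j]
  refine (norm_sum_le _ _).trans (Finset.sum_le_sum fun i _ => ?_)
  rw [norm_smul]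
  exact mul_le_of_le_one_right (norm_nonneg _) (hb i)

theorem Blk.good {κ : ℝ} {b' b : ℕ → StrongDual ℝ X} (h : Blk b' b) (hb : GoodSeq κ b) :
    GoodSeq κ b' := by
  refine ⟨h.norm_le hb.1, fun A a => ?_⟩
  obtain ⟨c, h1, h2, h3⟩ := h
  have hdis : ∀ j j', j ≠ j' → Disjoint (c j).support (c j').support := fun j j' hne =>
    Finset.disjoint_left.2 fun i hi hi' => by
      rcases lt_or_gt_of_ne hne with h | h
      exacts [lt_irrefl i (h2 j j' h i hi i hi'), lt_irrefl i (h2 j' j h i hi' i hi)]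
  have hd : ∀ j ∈ A, ∀ i ∈ (c j).support, ∑ j' ∈ A, a j' * c j' i = a j * c j i := by
    intro j hj i hi
    rw [Finset.sum_eq_single j]
    · intro j' _ hne
      rw [Finsupp.notMem_support_iff.1 (Finset.disjoint_right.1 (hdis j' j hne) hi), mul_zero]
    · exact fun h' => absurd hj h'
  have := hb.2 (A.biUnion fun j => (c j).support) fun i => ∑ j' ∈ A, a j' * c j' i
  rw [Finset.sum_biUnion fun j _ j' _ hne => hdis j j' hne,
    Finset.sum_biUnion fun j _ j' _ hne => hdis j j' hne] at this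
  convert this using 2
  · refine Finset.sum_congr rfl fun j hj => ?_
    rw [Finset.sum_congr rfl fun i hi => by rw [hd j hj i hi, abs_mul], ← Finset.mul_sum, h1,
      mul_one]
  · refine Finset.sum_congr rfl fun j hj => ?_
    rw [h3, Finset.smul_sum]
    exact Finset.sum_congr rfl fun i hi => by rw [hd j hj i hi, smul_smul]

theorem Blk.small {b' b : ℕ → StrongDual ℝ X} (h : Blk b' b) {x : X} {ε : ℝ} {n : ℕ}
    (hb : ∀ i, n ≤ i → |b i x| ≤ ε) {j : ℕ} (hj : n ≤ j) : |b' j x| ≤ ε := by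
  obtain ⟨c, h1, h2, h3⟩ := h
  have key : ∀ j, ∀ i ∈ (c j).support, j ≤ i := by
    intro j
    induction j with
    | zero => exact fun i _ => Nat.zero_le i
    | succ j ih =>
      intro i hi
      have hne : (c j).support.Nonempty := by
        rw [Finset.nonempty_iff_ne_empty]
        intro h0
        have := h1 j
        rw [h0] at this
        simp at this
      obtain ⟨i₀, hi₀⟩ := hne
      exact (ih i₀ hi₀).trans_lt (h2 j (j + 1) (by omega) i₀ hi₀ i hi)
  rw [h3, ← one_mul ε, ← h1 j, Finset.sum_mul, ContinuousLinearMap.sum_apply]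
  refine (Finset.abs_sum_le_sum_abs _ _).trans (Finset.sum_le_sum fun i hi => ?_)
  rw [ContinuousLinearMap.smul_apply, smul_eq_mul, abs_mul]
  exact mul_le_mul_of_nonneg_left (hb i (hj.trans (key j i hi))) (abs_nonneg _)

theorem blk_tail (b : ℕ → StrongDual ℝ X) (n : ℕ) : Blk (fun j => b (n + j)) b := by
  refine ⟨fun j => Finsupp.single (n + j) 1, fun j => by simp, fun j j' h i hi i' hi' => ?_,
    fun j => by simp⟩
  have h1 := Finset.mem_singleton.1 (Finsupp.support_single_subset hi)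
  have h2 := Finset.mem_singleton.1 (Finsupp.support_single_subset hi')
  omega

theorem Blk.glue {b' b : ℕ → StrongDual ℝ X} {n : ℕ} (h : Blk b' fun j => b (n + j)) :
    Blk (fun j => if j < n then b j else b' (j - n)) b := by
  obtain ⟨c, h1, h2, h3⟩ := h
  refine ⟨fun j => if j < n then Finsupp.single j 1 else
    (c (j - n)).embDomain (addLeftEmbedding n), fun j => ?_, fun j j' h i hi i' hi' => ?_,
    fun j => ?_⟩
  · by_cases hj : j < n
    · simp [hj]
    · simp only [if_neg hj, Finsupp.support_embDomain, Finset.sum_map,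
        Finsupp.embDomain_apply_self, h1]
  · by_cases hj' : j' < n
    · simp only [if_pos hj', if_pos (h.trans hj')] at hi hi'
      have h1 := Finset.mem_singleton.1 (Finsupp.support_single_subset hi)
      have h2 := Finset.mem_singleton.1 (Finsupp.support_single_subset hi')
      omega
    · simp only [if_neg hj', Finsupp.support_embDomain, Finset.mem_map,
        addLeftEmbedding_apply] at hi'
      obtain ⟨k', hk', rfl⟩ := hi'
      by_cases hj : j < n
      · simp only [if_pos hj] at hi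
        have h1 := Finset.mem_singleton.1 (Finsupp.support_single_subset hi)
        omega
      · simp only [if_neg hj, Finsupp.support_embDomain, Finset.mem_map,
          addLeftEmbedding_apply] at hi
        obtain ⟨k, hk, rfl⟩ := hi
        have := h2 (j - n) (j' - n) (by omega) k hk k' hk'
        omega
  · by_cases hj : j < n
    · simp [hj]
    · simp only [if_neg hj, Finsupp.support_embDomain, Finset.sum_map,
        Finsupp.embDomain_apply_self, h3]
      rfl

end

/-- if the dual contains `ℓ¹`, there is a separable quotient -/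
theorem hasSepQuotient_of_l1 {X : Type*} [NormedAddCommGroup X] [NormedSpace ℝ X]
    [CompleteSpace X] (u : ℕ → StrongDual ℝ X) (hu : ∀ j, ‖u j‖ ≤ 1) (κ : ℝ) (hκ : 0 < κ)
    (h : ∀ (A : Finset ℕ) (a : ℕ → ℝ), κ * ∑ j ∈ A, |a j| ≤ ‖∑ j ∈ A, a j • u j‖) :
    HasSepQuotient ℝ X := by
  by_cases hc : ∃ b : ℕ → StrongDual ℝ X, GoodSeq κ b ∧ ∃ ε, 0 < ε ∧
      ∀ b', Blk b' b → ¬ SmallSeq b' ε
  · obtain ⟨b, hb, ε, hε, h'⟩ := hc
    exact hasSepQuotient_of_not_small b hb.1 ε hε h'
  push Not at hc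
  have step : ∀ (n : ℕ) (b : {b : ℕ → StrongDual ℝ X // GoodSeq κ b}),
      ∃ b' : {b : ℕ → StrongDual ℝ X // GoodSeq κ b}, Blk b'.1 b.1 ∧
        SmallSeq b'.1 (1 / ((n : ℝ) + 1)) ∧ ∀ j < n, b'.1 j = b.1 j := by
    intro n b
    obtain ⟨b', h1, h2⟩ := hc _ ((blk_tail b.1 n).good b.2) (1 / ((n : ℝ) + 1)) (by positivity)
    refine ⟨⟨_, h1.glue.good b.2⟩, h1.glue, fun x hx => ?_, fun j hj => if_pos hj⟩
    obtain ⟨j₀, hj₀⟩ := eventually_atTop.1 (h2 x hx)
    filter_upwards [eventually_ge_atTop (n + j₀)] with j hj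
    simp only [if_neg (show ¬ j < n by omega)]
    exact hj₀ _ (by omega)
  choose S hS1 hS2 hS3 using step
  let B : ℕ → {b : ℕ → StrongDual ℝ X // GoodSeq κ b} := fun n =>
    Nat.rec ⟨u, hu, h⟩ (fun n b => S n b) n
  have hB : ∀ n, B (n + 1) = S n (B n) := fun n => rfl
  have hstab : ∀ j m, j + 1 ≤ m → (B m).1 j = (B (j + 1)).1 j := by
    intro j m hm
    induction hm with
    | refl => rfl
    | step hm ih => rw [hB, hS3 _ _ j hm, ih]
  refine hasSepQuotient_of_null hκ (d := fun j => (B (j + 1)).1 j)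
    ⟨fun j => (B (j + 1)).2.1 j, fun A a => ?_⟩ fun x => ?_
  · refine ((B (A.sup id + 1)).2.2 A a).trans (le_of_eq ?_)
    congr 1
    refine Finset.sum_congr rfl fun j hj => ?_
    rw [hstab j _ (Nat.succ_le_succ (Finset.le_sup (f := id) hj))]
  · have key : ∀ x : X, ‖x‖ ≤ 1 → Tendsto (fun j => (B (j + 1)).1 j x) atTop (𝓝 0) := by
      intro x hx
      rw [Metric.tendsto_atTop]
      intro ε hε
      obtain ⟨n, hn⟩ := exists_nat_one_div_lt hε
      obtain ⟨j₀, hj₀⟩ := eventually_atTop.1 (hS2 n (B n) x hx)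
      have h2 : ∀ m, n + 1 ≤ m → ∀ j, j₀ ≤ j → |(B m).1 j x| ≤ 1 / ((n : ℝ) + 1) := by
        intro m hm
        induction hm with
        | refl => exact hj₀
        | step hm ih => exact fun j hj => (hS1 _ _).small ih hj
      refine ⟨n + j₀, fun j hj => ?_⟩
      rw [Real.dist_eq, sub_zero]
      exact (h2 (j + 1) (by omega) j (by omega)).trans_lt hn
    have h1 : (0 : ℝ) < ‖x‖ + 1 := by positivity
    have := (key ((‖x‖ + 1)⁻¹ • x) (by
      rw [norm_smul, norm_inv, Real.norm_eq_abs, abs_of_pos h1, inv_mul_le_iff₀ h1]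
      linarith)).const_mul (‖x‖ + 1)
    simpa [← mul_assoc, mul_inv_cancel₀ h1.ne'] using this

end Vale.Agent.P129
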