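import Vale.Agent.P129.Tools

namespace Vale.Agent.P129

open Finset

/-- normalized block sequences of a sequence of functionals, in the `ℓ¹` sense -/
def Blk {X : Type*} [NormedAddCommGroup X] [NormedSpace ℝ X] (b' b : ℕ → StrongDual ℝ X) : Prop :=
  ∃ c : ℕ → ℕ →₀ ℝ, (∀ j, ∑ i ∈ (c j).support, |c j i| = 1) ∧
    (∀ j j', j < j' → ∀ i ∈ (c j).support, ∀ i' ∈ (c j').support, i < i') ∧
    ∀ j, b' j = ∑ i ∈ (c j).support, c j i • b i

/-- eventually small on every vector of the unit ball -/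
def SmallSeq {X : Type*} [NormedAddCommGroup X] [NormedSpace ℝ X] (b : ℕ → StrongDual ℝ X)
    (ε : ℝ) : Prop :=
  ∀ x : X, ‖x‖ ≤ 1 → ∀ᶠ j in Filter.atTop, |b j x| ≤ ε

namespace L2

open Filter Topology

/-- Rademacher signs -/
def r (k s : ℕ) : ℝ := if s.testBit k then 1 else -1

/-- Rademacher sums -/
def S (a : ℕ → ℝ) (n s : ℕ) : ℝ := ∑ k ∈ range n, a k * r k s

theorem abs_r (k s : ℕ) : |r k s| = 1 := by
  unfold r
  split_ifs <;> simp

theorem sum_step (a : ℕ → ℝ) (n : ℕ) (F : ℝ → ℝ) :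
    ∑ s ∈ range (2 ^ (n + 1)), F (S a (n + 1) s) =
      ∑ s ∈ range (2 ^ n), (F (S a n s - a n) + F (S a n s + a n)) := by
  rw [pow_succ, mul_two, sum_range_add, sum_add_distrib]
  congr 1
  · refine sum_congr rfl fun s hs => ?_
    rw [S, sum_range_succ, r, Nat.testBit_lt_two_pow (mem_range.1 hs)]
    simp [S, sub_eq_add_neg]
  · refine sum_congr rfl fun s hs => ?_
    rw [S, sum_range_succ, r, Nat.testBit_two_pow_add_eq, Nat.testBit_lt_two_pow (mem_range.1 hs)]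
    have : ∑ k ∈ range n, a k * r k (2 ^ n + s) = S a n s :=
      sum_congr rfl fun k hk => by rw [r, r, Nat.testBit_two_pow_add_gt (mem_range.1 hk)]
    simp [this]

theorem sum_sq (a : ℕ → ℝ) (n : ℕ) :
    ∑ s ∈ range (2 ^ n), S a n s ^ 2 = 2 ^ n * ∑ k ∈ range n, a k ^ 2 := by
  induction n with
  | zero => simp [S]
  | succ n ih =>
    rw [sum_step a n (fun x => x ^ 2), sum_range_succ]
    have : ∀ s, (S a n s - a n) ^ 2 + (S a n s + a n) ^ 2 = 2 * S a n s ^ 2 + 2 * a n ^ 2 :=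
      fun s => by ring
    simp only [this, sum_add_distrib, ← mul_sum, ih, sum_const, card_range, nsmul_eq_mul]
    push_cast
    ring

theorem sum_four (a : ℕ → ℝ) (n : ℕ) :
    ∑ s ∈ range (2 ^ n), S a n s ^ 4 ≤ 3 * 2 ^ n * (∑ k ∈ range n, a k ^ 2) ^ 2 := by
  induction n with
  | zero => simp [S]
  | succ n ih =>
    rw [sum_step a n (fun x => x ^ 4), sum_range_succ]
    have : ∀ s, (S a n s - a n) ^ 4 + (S a n s + a n) ^ 4 =
        2 * S a n s ^ 4 + 12 * a n ^ 2 * S a n s ^ 2 + 2 * a n ^ 4 := fun s => by ring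
    simp only [this, sum_add_distrib, ← mul_sum, sum_sq, sum_const, card_range, nsmul_eq_mul]
    push_cast
    have h1 : (0 : ℝ) ≤ 2 ^ n * a n ^ 4 := by positivity
    rw [pow_succ (2 : ℝ) n]
    nlinarith

theorem khintchine (a : ℕ → ℝ) (n : ℕ) :
    2 ^ n * √(∑ k ∈ range n, a k ^ 2) / 2 ≤ ∑ s ∈ range (2 ^ n), |S a n s| := by
  have hA : 0 ≤ ∑ k ∈ range n, a k ^ 2 := sum_nonneg fun _ _ => sq_nonneg _
  set t := √(∑ k ∈ range n, a k ^ 2) with ht
  have ht0 : 0 ≤ t := Real.sqrt_nonneg _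
  have ht2 : t ^ 2 = ∑ k ∈ range n, a k ^ 2 := Real.sq_sqrt hA
  rcases ht0.eq_or_lt with h | h
  · rw [← h, mul_zero, zero_div]
    exact sum_nonneg fun _ _ => abs_nonneg _
  have key : ∀ x : ℝ, 6 * t ^ 2 * x ^ 2 - x ^ 4 ≤ 6 * t ^ 3 * |x| := fun x => by
    have hu := abs_nonneg x
    have h2 : x ^ 2 = |x| ^ 2 := (sq_abs x).symm
    have h4 : x ^ 4 = |x| ^ 4 := by rw [show x ^ 4 = (x ^ 2) ^ 2 by ring, h2]; ring
    rw [h2, h4]
    generalize |x| = u at hu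
    have h5 : 0 ≤ u ^ 3 - 6 * t ^ 2 * u + 6 * t ^ 3 := by
      have e1 : 0 ≤ (u - 10 / 7 * t) ^ 2 * (u + 20 / 7 * t) := by positivity
      have e2 : 0 ≤ t ^ 2 * u := by positivity
      have e3 : 0 ≤ t ^ 3 := by positivity
      nlinarith
    nlinarith [mul_nonneg hu h5]
  have h1 := sum_le_sum fun s (_ : s ∈ range (2 ^ n)) => key (S a n s)
  rw [sum_sub_distrib, ← mul_sum, ← mul_sum, sum_sq, ← ht2] at h1
  have h2 := sum_four a n
  rw [← ht2] at h2
  have h3 : 0 < 6 * t ^ 3 := by positivity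
  refine le_of_mul_le_mul_left ?_ h3
  nlinarith

variable {X : Type*} [NormedAddCommGroup X] [NormedSpace ℝ X] (b : ℕ → StrongDual ℝ X)

/-- the Rademacher averages of the `n`-th dyadic block -/
noncomputable def g (n k : ℕ) : StrongDual ℝ X :=
  ∑ s ∈ range (2 ^ n), (r k s / 2 ^ n) • b (2 ^ n + s)

theorem g_apply (n k : ℕ) (x : X) :
    g b n k x = (∑ s ∈ range (2 ^ n), r k s * b (2 ^ n + s) x) / 2 ^ n := by
  rw [g, _root_.sum_apply, sum_div]
  exact sum_congr rfl fun s _ => by simp [div_mul_eq_mul_div]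

theorem sum_g (a : ℕ → ℝ) (n : ℕ) (x : X) : ∑ k ∈ range n, a k * g b n k x =
    (∑ s ∈ range (2 ^ n), S a n s * b (2 ^ n + s) x) / 2 ^ n := by
  simp only [g_apply, S, sum_mul, mul_sum, sum_div, mul_div_assoc']
  rw [sum_comm]
  exact sum_congr rfl fun s _ => sum_congr rfl fun k _ => by ring

variable {b}

theorem bessel (hb : ∀ j, ‖b j‖ ≤ 1) (n : ℕ) (x : X) :
    ∑ k ∈ range n, g b n k x ^ 2 ≤ ‖x‖ ^ 2 := by
  set c : ℕ → ℝ := fun k => g b n k x with hc
  have h1 := sum_g b c n x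
  have h2 := sum_sq c n
  have h3 : ∑ s ∈ range (2 ^ n), b (2 ^ n + s) x ^ 2 ≤ 2 ^ n * ‖x‖ ^ 2 := by
    refine (sum_le_card_nsmul _ _ (‖x‖ ^ 2) fun s _ => ?_).trans (by simp)
    have : |b (2 ^ n + s) x| ≤ ‖x‖ :=
      ((b (2 ^ n + s)).le_opNorm x).trans (mul_le_of_le_one_left (norm_nonneg _) (hb _))
    rw [← sq_abs]
    exact pow_le_pow_left₀ (abs_nonneg _) this 2
  have h4 : 0 ≤ ∑ s ∈ range (2 ^ n), (b (2 ^ n + s) x - S c n s) ^ 2 :=
    sum_nonneg fun _ _ => sq_nonneg _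
  have h5 : ∀ s, (b (2 ^ n + s) x - S c n s) ^ 2 =
      b (2 ^ n + s) x ^ 2 - 2 * (S c n s * b (2 ^ n + s) x) + S c n s ^ 2 := fun s => by ring
  simp only [h5, sum_add_distrib, sum_sub_distrib, ← mul_sum] at h4
  have h6 : (0 : ℝ) < 2 ^ n := by positivity
  rw [eq_div_iff h6.ne'] at h1
  have h7 : ∑ k ∈ range n, c k * g b n k x = ∑ k ∈ range n, c k ^ 2 :=
    sum_congr rfl fun k _ => by rw [sq]
  rw [h7] at h1
  refine le_of_mul_le_mul_left ?_ h6
  change 2 ^ n * ∑ k ∈ range n, c k ^ 2 ≤ _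
  linarith

theorem abs_g_le (hb : ∀ j, ‖b j‖ ≤ 1) (n k : ℕ) (x : X) : |g b n k x| ≤ ‖x‖ := by
  have h6 : (0 : ℝ) < 2 ^ n := by positivity
  rw [g_apply, abs_div, abs_of_pos h6, div_le_iff₀ h6]
  refine (abs_sum_le_sum_abs _ _).trans ((sum_le_card_nsmul _ _ ‖x‖ fun s _ => ?_).trans ?_)
  · rw [abs_mul, abs_r, one_mul]
    exact ((b (2 ^ n + s)).le_opNorm x).trans (mul_le_of_le_one_left (norm_nonneg _) (hb _))
  · simp [mul_comm]

theorem blk_of (b : ℕ → StrongDual ℝ X) (w : ℕ → ℕ → ℝ) {φ : ℕ → ℕ} (hφ : StrictMono φ)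
    (hw : ∀ j, ∑ s ∈ range (2 ^ φ j), |w j s| = 1) :
    Blk (fun j => ∑ s ∈ range (2 ^ φ j), w j s • b (2 ^ φ j + s)) b := by
  let c : ℕ → ℕ →₀ ℝ := fun j =>
    Finsupp.indicator (Ico (2 ^ φ j) (2 ^ φ j + 2 ^ φ j)) fun i _ => w j (i - 2 ^ φ j)
  have hs : ∀ j, (c j).support ⊆ Ico (2 ^ φ j) (2 ^ φ j + 2 ^ φ j) := fun j =>
    Finsupp.support_indicator_subset _ _
  have hv : ∀ j, ∀ s ∈ range (2 ^ φ j), c j (2 ^ φ j + s) = w j s := fun j s hs => by
    have : 2 ^ φ j + s ∈ Ico (2 ^ φ j) (2 ^ φ j + 2 ^ φ j) :=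
      mem_Ico.2 ⟨Nat.le_add_right _ _, Nat.add_lt_add_left (mem_range.1 hs) _⟩
    simp only [c]
    rw [Finsupp.indicator_of_mem this, Nat.add_sub_cancel_left]
  refine ⟨c, fun j => ?_, fun j j' hj i hi i' hi' => ?_, fun j => ?_⟩
  · rw [sum_subset (hs j) fun i _ hi => by rw [Finsupp.notMem_support_iff.1 hi, abs_zero],
      sum_Ico_eq_sum_range, Nat.add_sub_cancel_left, ← hw j]
    exact sum_congr rfl fun s hs => by rw [hv j s hs]
  · have h1 := (mem_Ico.1 (hs j hi)).2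
    have h2 := (mem_Ico.1 (hs j' hi')).1
    have h3 : 2 ^ (φ j + 1) ≤ 2 ^ φ j' := Nat.pow_le_pow_right two_pos (hφ hj)
    rw [pow_succ] at h3
    omega
  · rw [sum_subset (hs j) fun i _ hi => by rw [Finsupp.notMem_support_iff.1 hi, zero_smul],
      sum_Ico_eq_sum_range, Nat.add_sub_cancel_left]
    exact sum_congr rfl fun s hs => by rw [hv j s hs]

theorem step {ε : ℝ} (hε : 0 < ε) (h : ∀ b', Blk b' b → ¬ SmallSeq b' ε) (N : ℕ) (a : ℕ → ℝ)
    (I : Set ℕ) (hI : I.Infinite) : ∃ (x : X) (I' : Set ℕ), ‖x‖ ≤ 1 ∧ I' ⊆ I ∧ I'.Infinite ∧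
      ∀ n ∈ I', ε / 2 * √(∑ k ∈ range N, a k ^ 2) ≤ ∑ k ∈ range N, a k * g b n k x := by
  rcases (Real.sqrt_nonneg (∑ k ∈ range N, a k ^ 2)).eq_or_lt with h0 | h0
  · exact ⟨0, I, by simp, subset_rfl, hI, fun n _ => by simp [← h0]⟩
  let a' : ℕ → ℝ := fun k => if k < N then a k else 0
  have ha : ∀ n, N ≤ n → ∀ F : ℕ → ℝ → ℝ, (∀ k, F k 0 = 0) →
      ∑ k ∈ range n, F k (a' k) = ∑ k ∈ range N, F k (a k) := fun n hn F hF => by
    rw [← sum_subset (range_mono hn) fun k _ hk => by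
      simp only [a', if_neg (fun h => hk (mem_range.2 h)), hF]]
    exact sum_congr rfl fun k hk => by simp only [a', if_pos (mem_range.1 hk)]
  have hI' : {n | n ∈ I ∧ N ≤ n}.Infinite := by
    refine (hI.sdiff (Set.finite_Iio N)).mono fun n hn => ⟨hn.1, not_lt.1 hn.2⟩
  let φ : ℕ → ℕ := Nat.nth fun n => n ∈ I ∧ N ≤ n
  have hφ : StrictMono φ := Nat.nth_strictMono hI'
  have hφI : ∀ j, φ j ∈ I ∧ N ≤ φ j := fun j => Nat.nth_mem_of_infinite hI' j
  let Z : ℕ → ℝ := fun n => ∑ s ∈ range (2 ^ n), |S a' n s|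
  have hZ : ∀ j, 2 ^ φ j * √(∑ k ∈ range N, a k ^ 2) / 2 ≤ Z (φ j) := fun j => by
    have := khintchine a' (φ j)
    rwa [ha _ (hφI j).2 (fun _ t => t ^ 2) (fun _ => by simp)] at this
  have hZ0 : ∀ j, 0 < Z (φ j) := fun j => lt_of_lt_of_le (by positivity) (hZ j)
  have hB := blk_of b (fun j s => S a' (φ j) s / Z (φ j)) hφ fun j => by
    simp only [abs_div, abs_of_pos (hZ0 j), ← sum_div]
    exact div_self (hZ0 j).ne'
  set b' : ℕ → StrongDual ℝ X :=
    fun j => ∑ s ∈ range (2 ^ φ j), (S a' (φ j) s / Z (φ j)) • b (2 ^ φ j + s) with hb'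
  obtain ⟨x, hx, hfr⟩ : ∃ x : X, ‖x‖ ≤ 1 ∧ ∃ᶠ j in atTop, ε < b' j x := by
    have := h _ hB
    simp only [SmallSeq, not_forall, not_eventually, not_le, lt_abs,
      frequently_or_distrib] at this
    obtain ⟨x, hx, h1 | h1⟩ := this
    · exact ⟨x, hx, h1⟩
    · exact ⟨-x, by simpa using hx, by simpa using h1⟩
  refine ⟨x, φ '' {j | ε < b' j x}, hx, ?_, ?_, ?_⟩
  · rintro _ ⟨j, -, rfl⟩
    exact (hφI j).1
  · exact (Nat.frequently_atTop_iff_infinite.1 hfr).image hφ.injective.injOn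
  · rintro _ ⟨j, hj, rfl⟩
    have h1 : b' j x = (∑ s ∈ range (2 ^ φ j), S a' (φ j) s * b (2 ^ φ j + s) x) / Z (φ j) := by
      rw [hb', _root_.sum_apply, sum_div]
      exact sum_congr rfl fun s _ => by simp [div_mul_eq_mul_div]
    have h2 : ε < b' j x := hj
    rw [h1, lt_div_iff₀ (hZ0 j)] at h2
    rw [← ha _ (hφI j).2 (fun k t => t * g b (φ j) k x) (fun _ => by simp), sum_g,
      le_div_iff₀ (by positivity)]
    nlinarith [mul_le_mul_of_nonneg_left (hZ j) hε.le]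

theorem exists_ultra {ε : ℝ} (hε : 0 < ε) (h : ∀ b', Blk b' b → ¬ SmallSeq b' ε) :
    ∃ U : Ultrafilter ℕ, (U : Filter ℕ) ≤ atTop ∧ ∀ (N : ℕ) (a : ℕ →₀ ℚ), ∃ x : X, ‖x‖ ≤ 1 ∧
      ∀ᶠ n in (U : Filter ℕ), ε / 2 * √(∑ k ∈ range N, (a k : ℝ) ^ 2) ≤
        ∑ k ∈ range N, (a k : ℝ) * g b n k x := by
  choose x I' h1 h2 h3 h4 using step hε h
  obtain ⟨e, he⟩ := exists_surjective_nat (ℕ × (ℕ →₀ ℚ))
  let J : ℕ → {I : Set ℕ // I.Infinite} := fun m => Nat.rec ⟨Set.univ, Set.infinite_univ⟩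
    (fun m I => ⟨I' (e m).1 (fun k => ((e m).2 k : ℝ)) I.1 I.2, h3 _ _ _ _⟩) m
  have hJ : Antitone fun m => (J m).1 := antitone_nat_of_succ_le fun m => h2 _ _ _ (J m).2
  have hne : (⨅ m, atTop ⊓ 𝓟 (J m).1).NeBot := by
    refine iInf_neBot_of_directed (Antitone.directed_ge fun m m' hm => ?_) fun m => ?_
    · exact inf_le_inf_left _ (principal_mono.2 (hJ hm))
    · exact frequently_mem_iff_neBot.1 (Nat.frequently_atTop_iff_infinite.2 (J m).2)
  refine ⟨Ultrafilter.of (⨅ m, atTop ⊓ 𝓟 (J m).1),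
    (Ultrafilter.of_le _).trans ((iInf_le _ 0).trans inf_le_left), fun N a => ?_⟩
  obtain ⟨m, hm⟩ := he (N, a)
  have hle : (Ultrafilter.of (⨅ m, atTop ⊓ 𝓟 (J m).1) : Filter ℕ) ≤ 𝓟 (J (m + 1)).1 :=
    (Ultrafilter.of_le _).trans ((iInf_le _ (m + 1)).trans inf_le_right)
  refine ⟨x N (fun k => (a k : ℝ)) (J m).1 (J m).2, h1 _ _ _ _, ?_⟩
  refine mem_of_superset (le_principal_iff.1 hle) fun n hn => h4 _ _ _ (J m).2 n ?_
  have : (J (m + 1)).1 = I' (e m).1 (fun k => ((e m).2 k : ℝ)) (J m).1 (J m).2 := rfl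
  rw [this, hm] at hn
  exact hn

theorem exists_G (hb : ∀ j, ‖b j‖ ≤ 1) {ε : ℝ} (hε : 0 < ε)
    (h : ∀ b', Blk b' b → ¬ SmallSeq b' ε) : ∃ G : ℕ → StrongDual ℝ X,
      (∀ N x, ∑ k ∈ range N, G k x ^ 2 ≤ ‖x‖ ^ 2) ∧
      ∀ (N : ℕ) (a : ℕ → ℝ), ε / 2 * √(∑ k ∈ range N, a k ^ 2) ≤ ‖∑ k ∈ range N, a k • G k‖ := by
  obtain ⟨U, hU, hx⟩ := exists_ultra hε h
  have key : ∀ k (x : X), ∃ y, Tendsto (fun n => g b n k x) U (𝓝 y) := fun k x => by
    obtain ⟨y, -, hy⟩ := (isCompact_closedBall (0 : ℝ) ‖x‖).ultrafilter_le_nhds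
      (U.map fun n => g b n k x) (by
        rw [le_principal_iff, Ultrafilter.coe_map, Filter.mem_map]
        exact Eventually.of_forall fun n => by simpa using abs_g_le hb n k x)
    exact ⟨y, hy⟩
  choose γ hγ using key
  let G : ℕ → StrongDual ℝ X := fun k => LinearMap.mkContinuous
    { toFun := γ k
      map_add' := fun x y => tendsto_nhds_unique (hγ k (x + y))
        (by simpa only [map_add] using (hγ k x).add (hγ k y))
      map_smul' := fun c x => tendsto_nhds_unique (hγ k (c • x))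
        (by simpa only [map_smul, RingHom.id_apply] using (hγ k x).const_smul c) } 1
    fun x => by
      rw [one_mul]
      exact le_of_tendsto' (hγ k x).norm fun n => abs_g_le hb n k x
  have hG : ∀ k x, Tendsto (fun n => g b n k x) U (𝓝 (G k x)) := hγ
  refine ⟨G, fun N x => ?_, fun N a => ?_⟩
  · refine le_of_tendsto (tendsto_finsetSum (range N) fun k _ => (hG k x).pow 2) ?_
    filter_upwards [hU (eventually_ge_atTop N)] with n hn
    exact (sum_le_sum_of_subset_of_nonneg (range_mono hn) fun _ _ _ => sq_nonneg _).trans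
      (bessel hb n x)
  · have hd : DenseRange (Pi.map fun _ : ℕ => ((↑) : ℚ → ℝ)) :=
      DenseRange.piMap fun _ => Rat.denseRange_cast
    refine hd.induction_on a (isClosed_le (by fun_prop) (by fun_prop)) fun q => ?_
    obtain ⟨x, hx1, hx2⟩ := hx N (Finsupp.indicator (range N) fun k _ => q k)
    have h1 := ge_of_tendsto (tendsto_finsetSum (range N) fun k _ => (hG k x).const_mul
      ((Finsupp.indicator (range N) (fun k _ => q k) : ℕ →₀ ℚ) k : ℝ)) hx2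
    have h2 : ∀ k ∈ range N, ((Finsupp.indicator (range N) (fun k _ => q k) : ℕ →₀ ℚ) k : ℝ) =
        Pi.map (fun _ : ℕ => ((↑) : ℚ → ℝ)) q k := fun k hk => by
      rw [Finsupp.indicator_of_mem hk]
      rfl
    rw [sum_congr rfl fun k hk => by rw [h2 k hk]] at h1
    refine h1.trans (le_trans (le_of_eq ?_) ((le_abs_self _).trans
      (((∑ k ∈ range N, Pi.map (fun _ : ℕ => ((↑) : ℚ → ℝ)) q k • G k).le_opNorm x).trans
        (mul_le_of_le_one_right (norm_nonneg _) hx1))))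
    rw [_root_.sum_apply]
    exact sum_congr rfl fun k hk => by rw [h2 k hk]; rfl

end L2

open L2 Filter Topology in
/-- the `ℓ²` case -/
theorem hasSepQuotient_of_not_small {X : Type*} [NormedAddCommGroup X] [NormedSpace ℝ X]
    [CompleteSpace X] (b : ℕ → StrongDual ℝ X) (hb : ∀ j, ‖b j‖ ≤ 1) (ε : ℝ) (hε : 0 < ε)
    (h : ∀ b', Blk b' b → ¬ SmallSeq b' ε) : HasSepQuotient ℝ X := by
  obtain ⟨G, hG1, hG2⟩ := exists_G hb hε h
  have h2 : (0 : ℝ) < (2 : ENNReal).toReal := by norm_num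
  have hs : ∀ (x : X) (s : Finset ℕ),
      ∑ i ∈ s, ‖G i x‖ ^ (2 : ENNReal).toReal ≤ ‖x‖ ^ (2 : ENNReal).toReal := fun x s => by
    obtain ⟨N, hN⟩ := s.exists_nat_subset_range
    simp only [ENNReal.toReal_ofNat, Real.rpow_two, Real.norm_eq_abs, sq_abs]
    exact (sum_le_sum_of_subset_of_nonneg hN fun _ _ _ => sq_nonneg _).trans (hG1 N x)
  let T : X →L[ℝ] lp (fun _ : ℕ => ℝ) 2 := LinearMap.mkContinuous
    { toFun := fun x => ⟨fun k => G k x, memℓp_gen' (hs x)⟩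
      map_add' := fun x y => by
        ext k
        exact map_add (G k) x y
      map_smul' := fun c x => by
        ext k
        simp } 1
    fun x => by
      rw [one_mul]
      exact lp.norm_le_of_forall_sum_le h2 (norm_nonneg _) (hs x)
  have hT : ∀ x k, T x k = G k x := fun _ _ => rfl
  let B : HilbertBasis ℕ ℝ (lp (fun _ : ℕ => ℝ) 2) := default
  have hsep : TopologicalSpace.SeparableSpace (lp (fun _ : ℕ => ℝ) 2) := by
    rw [← TopologicalSpace.isSeparable_univ_iff]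
    have := ((Set.countable_range B).isSeparable.span (R := ℝ)).closure
    rwa [← Submodule.topologicalClosure_coe, B.dense_span] at this
  refine hasSepQuotient_of_surj (fun hW => Module.Finite.not_linearIndependent_of_infinite B
    B.orthonormal.linearIndependent) T fun w => ?_
  refine (surj_of_adjoint T (ε / 2) (half_pos hε) (fun φ => ?_) w).imp fun _ hx => hx.1
  obtain ⟨a, rfl⟩ := (InnerProductSpace.toDual ℝ (lp (fun _ : ℕ => ℝ) 2)).surjective φ
  have hc : IsClosed {a : lp (fun _ : ℕ => ℝ) 2 | ε / 2 * ‖InnerProductSpace.toDual ℝ _ a‖ ≤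
      ‖(InnerProductSpace.toDual ℝ _ a).comp T‖} := isClosed_le (by fun_prop) (by fun_prop)
  refine hc.mem_of_tendsto (lp.hasSum_single (by norm_num) a).tendsto_sum_nat
    (Eventually.of_forall fun N => ?_)
  have e1 : ‖∑ k ∈ range N, (lp.single 2 k (a k) : lp (fun _ : ℕ => ℝ) 2)‖ =
      √(∑ k ∈ range N, a k ^ 2) := by
    have := lp.norm_sum_single (E := fun _ : ℕ => ℝ) h2 a (range N)
    simp only [ENNReal.toReal_ofNat, Real.rpow_two, Real.norm_eq_abs, sq_abs] at this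
    rw [← this, Real.sqrt_sq (norm_nonneg _)]
  have e2 : (InnerProductSpace.toDual ℝ _
      (∑ k ∈ range N, (lp.single 2 k (a k) : lp (fun _ : ℕ => ℝ) 2))).comp T =
      ∑ k ∈ range N, a k • G k := by
    ext x
    simp only [ContinuousLinearMap.comp_apply, InnerProductSpace.toDual_apply_apply, sum_inner,
      lp.inner_single_left, hT, _root_.sum_apply, _root_.smul_apply,
      smul_eq_mul]
    exact sum_congr rfl fun k _ => by simp [mul_comm]
  rw [Set.mem_ofPred_eq, LinearIsometryEquiv.norm_map, e1, e2]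
  exact hG2 N a

end Vale.Agent.P129
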