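import Vale.Agent.P129.Defs

/-! Elementary lemmas on `ev`, `res`, `Lt`, `hull`, block sequences. -/

namespace Vale.Agent.P129

open Finset

variable {ι : Type}

theorem ev_apply (φ : ι → ℝ) (y : ι →₀ ℝ) : ev φ y = ∑ ξ ∈ y.support, y ξ * φ ξ := by
  simp [ev, Finsupp.linearCombination_apply, Finsupp.sum]

theorem ev_single (φ : ι → ℝ) (ξ : ι) (c : ℝ) : ev φ (Finsupp.single ξ c) = c * φ ξ := by
  simp [ev]

theorem ev_congr {φ ψ : ι → ℝ} {y : ι →₀ ℝ} (h : ∀ ξ ∈ y.support, φ ξ = ψ ξ) :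
    ev φ y = ev ψ y := by
  rw [ev_apply, ev_apply]
  exact Finset.sum_congr rfl fun ξ hξ => by rw [h ξ hξ]

theorem ev_eq_zero {φ : ι → ℝ} {y : ι →₀ ℝ} (h : ∀ ξ ∈ y.support, φ ξ = 0) : ev φ y = 0 := by
  rw [ev_apply]
  exact Finset.sum_eq_zero fun ξ hξ => by rw [h ξ hξ, mul_zero]

theorem ev_zero_left (y : ι →₀ ℝ) : ev (0 : ι →₀ ℝ) y = 0 := ev_eq_zero fun _ _ => rfl

theorem ev_add_left (f g y : ι →₀ ℝ) : ev (f + g : ι →₀ ℝ) y = ev f y + ev g y := by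
  simp only [ev_apply, Finsupp.add_apply, mul_add, Finset.sum_add_distrib]

theorem ev_smul_left (c : ℝ) (f y : ι →₀ ℝ) : ev (c • f : ι →₀ ℝ) y = c * ev f y := by
  simp only [ev_apply, Finsupp.smul_apply, smul_eq_mul, Finset.mul_sum]
  exact Finset.sum_congr rfl fun ξ _ => by ring

theorem ev_neg_left (f y : ι →₀ ℝ) : ev (-f : ι →₀ ℝ) y = - ev f y := by
  have := ev_smul_left (-1) f y
  simpa using this

theorem ev_sub_left (f g y : ι →₀ ℝ) : ev (f - g : ι →₀ ℝ) y = ev f y - ev g y := by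
  rw [sub_eq_add_neg, ev_add_left, ev_neg_left, sub_eq_add_neg]

theorem ev_sum_left {κ : Type*} (A : Finset κ) (f : κ → ι →₀ ℝ) (y : ι →₀ ℝ) :
    ev (∑ i ∈ A, f i : ι →₀ ℝ) y = ∑ i ∈ A, ev (f i) y := by
  classical
  induction A using Finset.induction_on with
  | empty => simpa using ev_zero_left y
  | insert a A ha ih => rw [Finset.sum_insert ha, Finset.sum_insert ha, ev_add_left, ih]

theorem ev_single_left (ξ : ι) (c : ℝ) (y : ι →₀ ℝ) :
    ev (Finsupp.single ξ c : ι →₀ ℝ) y = c * y ξ := by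
  classical
  rw [ev_apply]
  rw [Finset.sum_eq_single ξ]
  · simp [mul_comm]
  · intro b _ hb
    simp [Ne.symm hb]
  · intro h
    simp [Finsupp.notMem_support_iff.1 h]

theorem l1_nonneg (y : ι →₀ ℝ) : 0 ≤ l1 y := Finset.sum_nonneg fun _ _ => abs_nonneg _

theorem abs_ev_le_l1 {φ : ι → ℝ} {κ : ℝ} (h : ∀ ξ, |φ ξ| ≤ κ) (y : ι →₀ ℝ) :
    |ev φ y| ≤ κ * l1 y := by
  rw [ev_apply, l1, Finset.mul_sum]
  refine (Finset.abs_sum_le_sum_abs _ _).trans (Finset.sum_le_sum fun ξ _ => ?_)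
  rw [abs_mul, mul_comm]
  exact mul_le_mul_of_nonneg_right (h ξ) (abs_nonneg _)

theorem exists_mem_of_ev_ne_zero {φ : ι → ℝ} {y : ι →₀ ℝ} (h : ev φ y ≠ 0) :
    ∃ ξ ∈ y.support, φ ξ ≠ 0 := by
  by_contra h'
  push Not at h'
  exact h (ev_eq_zero h')

theorem res_apply_of_mem {E : Set ι} (y : ι →₀ ℝ) {ξ : ι} (h : ξ ∈ E) : res E y ξ = y ξ := by
  simp [res, h]

theorem res_apply_of_notMem {E : Set ι} (y : ι →₀ ℝ) {ξ : ι} (h : ξ ∉ E) : res E y ξ = 0 := by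
  simp [res, h]

theorem mem_support_res {E : Set ι} {y : ι →₀ ℝ} {ξ : ι} :
    ξ ∈ (res E y).support ↔ ξ ∈ y.support ∧ ξ ∈ E := by
  by_cases h : ξ ∈ E
  · simp [Finsupp.mem_support_iff, res_apply_of_mem y h, h]
  · simp [Finsupp.mem_support_iff, res_apply_of_notMem y h, h]

theorem support_res_subset (E : Set ι) (y : ι →₀ ℝ) : (res E y).support ⊆ y.support :=
  fun _ h => (mem_support_res.1 h).1

theorem support_res_subset' (E : Set ι) (y : ι →₀ ℝ) : ((res E y).support : Set ι) ⊆ E :=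
  fun _ h => (mem_support_res.1 h).2

theorem abs_res_apply_le (E : Set ι) (y : ι →₀ ℝ) (ξ : ι) : |res E y ξ| ≤ |y ξ| := by
  by_cases h : ξ ∈ E
  · rw [res_apply_of_mem y h]
  · rw [res_apply_of_notMem y h]; simp

theorem res_res (E E' : Set ι) (y : ι →₀ ℝ) : res E (res E' y) = res (E' ∩ E) y := by
  ext ξ
  by_cases h : ξ ∈ E <;> by_cases h' : ξ ∈ E' <;>
    simp [res_apply_of_mem, res_apply_of_notMem, h, h']

theorem res_eq_self {E : Set ι} {y : ι →₀ ℝ} (h : (y.support : Set ι) ⊆ E) : res E y = y := by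
  ext ξ
  by_cases hξ : ξ ∈ E
  · exact res_apply_of_mem y hξ
  · rw [res_apply_of_notMem y hξ]
    exact (Finsupp.notMem_support_iff.1 fun h' => hξ (h h')).symm

theorem res_eq_zero {E : Set ι} {y : ι →₀ ℝ} (h : ∀ ξ ∈ y.support, ξ ∉ E) : res E y = 0 := by
  ext ξ
  by_cases hξ : ξ ∈ E
  · rw [res_apply_of_mem y hξ]
    exact Finsupp.notMem_support_iff.1 fun h' => h ξ h' hξ
  · exact res_apply_of_notMem y hξ

theorem res_univ (y : ι →₀ ℝ) : res Set.univ y = y := res_eq_self (Set.subset_univ _)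

theorem res_add_res_compl (E : Set ι) (y : ι →₀ ℝ) : res E y + res Eᶜ y = y := by
  ext ξ
  by_cases h : ξ ∈ E <;> simp [res_apply_of_mem, res_apply_of_notMem, h]

theorem res_union {E E' : Set ι} (h : Disjoint E E') (y : ι →₀ ℝ) :
    res (E ∪ E') y = res E y + res E' y := by
  ext ξ
  by_cases h1 : ξ ∈ E
  · have h2 : ξ ∉ E' := Set.disjoint_left.1 h h1
    simp [res_apply_of_mem, res_apply_of_notMem, h1, h2]
  · by_cases h2 : ξ ∈ E' <;> simp [res_apply_of_mem, res_apply_of_notMem, h1, h2]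

theorem ev_res (E : Set ι) (g y : ι →₀ ℝ) : ev (res E g) y = ev g (res E y) := by
  rw [ev_apply, ev_apply]
  rw [← Finset.sum_subset (support_res_subset E y)]
  · refine Finset.sum_congr rfl fun ξ hξ => ?_
    have := (mem_support_res.1 hξ).2
    rw [res_apply_of_mem _ this, res_apply_of_mem _ this]
  · intro ξ h1 h2
    have : ξ ∉ E := fun h => h2 (mem_support_res.2 ⟨h1, h⟩)
    rw [res_apply_of_notMem _ this, mul_zero]

theorem IsRat.zero {κ : Type} : IsRat (0 : κ →₀ ℝ) := fun _ => ⟨0, by simp⟩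

theorem IsRat.add {κ : Type} {f g : κ →₀ ℝ} (hf : IsRat f) (hg : IsRat g) : IsRat (f + g) :=
  fun k => by
    obtain ⟨a, ha⟩ := hf k
    obtain ⟨b, hb⟩ := hg k
    exact ⟨a + b, by simp [ha, hb]⟩

theorem IsRat.sum {κ κ' : Type} {A : Finset κ'} {f : κ' → κ →₀ ℝ} (h : ∀ i ∈ A, IsRat (f i)) :
    IsRat (∑ i ∈ A, f i) :=
  Finset.sum_induction _ IsRat (fun _ _ => IsRat.add) IsRat.zero h

theorem IsRat.smul {κ : Type} {f : κ →₀ ℝ} (hf : IsRat f) (q : ℚ) : IsRat ((q : ℝ) • f) :=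
  fun k => by
    obtain ⟨a, ha⟩ := hf k
    exact ⟨q * a, by simp [ha]⟩

theorem IsRat.restrict {f : ι →₀ ℝ} (hf : IsRat f) (E : Set ι) : IsRat (res E f) := fun k => by
  by_cases h : k ∈ E
  · rw [res_apply_of_mem _ h]; exact hf k
  · rw [res_apply_of_notMem _ h]; exact ⟨0, by simp⟩

theorem IsRat.mapDomain {κ κ' : Type} {f : κ →₀ ℝ} (hf : IsRat f) (φ : κ → κ') :
    IsRat (f.mapDomain φ) := by
  classical
  rw [Finsupp.mapDomain, Finsupp.sum]
  refine IsRat.sum fun i _ k => ?_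
  obtain ⟨q, hq⟩ := hf i
  by_cases h : φ i = k
  · exact ⟨q, by simp [h, hq]⟩
  · exact ⟨0, by simp [h]⟩

variable [LinearOrder ι]

theorem Lt.mono {f g f' g' : ι →₀ ℝ} (h : Lt f g) (hf : f'.support ⊆ f.support)
    (hg : g'.support ⊆ g.support) : Lt f' g' := fun a ha b hb => h a (hf ha) b (hg hb)

theorem Lt.zero_left (g : ι →₀ ℝ) : Lt 0 g := fun a ha => by simp at ha

theorem Lt.zero_right (g : ι →₀ ℝ) : Lt g 0 := fun _ _ b hb => by simp at hb

theorem Lt.add_left {f f' g : ι →₀ ℝ} (h : Lt f g) (h' : Lt f' g) : Lt (f + f') g :=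
  fun a ha b hb => by
    classical
    rcases Finset.mem_union.1 (Finsupp.support_add ha) with h1 | h1
    exacts [h a h1 b hb, h' a h1 b hb]

theorem Lt.add_right {f g g' : ι →₀ ℝ} (h : Lt f g) (h' : Lt f g') : Lt f (g + g') :=
  fun a ha b hb => by
    classical
    rcases Finset.mem_union.1 (Finsupp.support_add hb) with h1 | h1
    exacts [h a ha b h1, h' a ha b h1]

theorem Lt.sum_left {κ : Type*} {A : Finset κ} {f : κ → ι →₀ ℝ} {g : ι →₀ ℝ}
    (h : ∀ i ∈ A, Lt (f i) g) : Lt (∑ i ∈ A, f i) g :=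
  Finset.sum_induction _ (fun x => Lt x g) (fun _ _ => Lt.add_left) (Lt.zero_left g) h

theorem Lt.sum_right {κ : Type*} {A : Finset κ} {f : κ → ι →₀ ℝ} {g : ι →₀ ℝ}
    (h : ∀ i ∈ A, Lt g (f i)) : Lt g (∑ i ∈ A, f i) :=
  Finset.sum_induction _ (fun x => Lt g x) (fun _ _ => Lt.add_right) (Lt.zero_right g) h

theorem Lt.smul_left {f g : ι →₀ ℝ} (h : Lt f g) (c : ℝ) : Lt (c • f) g :=
  h.mono Finsupp.support_smul subset_rfl

theorem Lt.smul_right {f g : ι →₀ ℝ} (h : Lt f g) (c : ℝ) : Lt f (c • g) :=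
  h.mono subset_rfl Finsupp.support_smul

theorem Lt.res_both {f g : ι →₀ ℝ} (h : Lt f g) (E E' : Set ι) : Lt (res E f) (res E' g) :=
  h.mono (support_res_subset _ _) (support_res_subset _ _)

theorem Lt.trans {f g h : ι →₀ ℝ} (h1 : Lt f g) (h2 : Lt g h) (hg : g ≠ 0) : Lt f h := by
  obtain ⟨c, hc⟩ := Finsupp.support_nonempty_iff.2 hg
  exact fun a ha b hb => (h1 a ha c hc).trans (h2 c hc b hb)

theorem Lt.apply_left {f g : ι →₀ ℝ} (h : Lt f g) {ξ : ι} (hξ : ξ ∈ g.support) : f ξ = 0 :=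
  Finsupp.notMem_support_iff.1 fun h' => lt_irrefl _ (h ξ h' ξ hξ)

theorem Lt.apply_right {f g : ι →₀ ℝ} (h : Lt f g) {ξ : ι} (hξ : ξ ∈ f.support) : g ξ = 0 :=
  Finsupp.notMem_support_iff.1 fun h' => lt_irrefl _ (h ξ hξ ξ h')

theorem Lt.ev_eq_zero {f g : ι →₀ ℝ} (h : Lt f g) : ev f g = 0 :=
  Vale.Agent.P129.ev_eq_zero fun _ hξ => h.apply_left hξ

theorem Lt.ev_eq_zero' {f g : ι →₀ ℝ} (h : Lt f g) : ev g f = 0 :=
  Vale.Agent.P129.ev_eq_zero fun _ hξ => h.apply_right hξ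

/-- value of a successive sum at a point of the support of one term -/
theorem sum_apply_of_succ {A : Finset ℕ} {f : ℕ → ι →₀ ℝ}
    (h : ∀ l ∈ A, ∀ l' ∈ A, l < l' → Lt (f l) (f l')) {l : ℕ} (hl : l ∈ A) {ξ : ι}
    (hξ : ξ ∈ (f l).support) : (∑ i ∈ A, f i) ξ = f l ξ := by
  rw [Finsupp.finsetSum_apply, Finset.sum_eq_single l]
  · intro b hb hne
    rcases lt_or_gt_of_ne hne with h1 | h1
    · exact (h b hb l hl h1).apply_left hξ
    · exact (h l hl b hb h1).apply_right hξ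
  · exact fun h' => absurd hl h'

theorem support_subset_sum_of_succ {A : Finset ℕ} {f : ℕ → ι →₀ ℝ}
    (h : ∀ l ∈ A, ∀ l' ∈ A, l < l' → Lt (f l) (f l')) {l : ℕ} (hl : l ∈ A) :
    (f l).support ⊆ (∑ i ∈ A, f i).support := fun ξ hξ => by
  rw [Finsupp.mem_support_iff, sum_apply_of_succ h hl hξ]
  exact Finsupp.mem_support_iff.1 hξ

omit [LinearOrder ι] in
theorem exists_of_mem_support_sum {κ : Type*} {A : Finset κ} {f : κ → ι →₀ ℝ} {ξ : ι}
    (h : ξ ∈ (∑ i ∈ A, f i).support) : ∃ i ∈ A, ξ ∈ (f i).support := by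
  by_contra h'
  push Not at h'
  rw [Finsupp.mem_support_iff, Finsupp.finsetSum_apply] at h
  exact h (Finset.sum_eq_zero fun i hi => Finsupp.notMem_support_iff.1 (h' i hi))

theorem Lt.support_left {f g : ι →₀ ℝ} (h : Lt f g) : f.support ⊆ (f + g).support :=
  fun ξ hξ => by
    rw [Finsupp.mem_support_iff, Finsupp.add_apply, h.apply_right hξ, add_zero]
    exact Finsupp.mem_support_iff.1 hξ

theorem Lt.support_right {f g : ι →₀ ℝ} (h : Lt f g) : g.support ⊆ (f + g).support :=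
  fun ξ hξ => by
    rw [Finsupp.mem_support_iff, Finsupp.add_apply, h.apply_left hξ, zero_add]
    exact Finsupp.mem_support_iff.1 hξ

theorem ordConnected_hull (x : ι →₀ ℝ) : (hull x).OrdConnected := by
  refine ⟨?_⟩
  rintro ξ ⟨a, ha, -, -, h1, -⟩ ξ' ⟨-, -, b, hb, -, h2⟩ ζ hζ
  exact ⟨a, ha, b, hb, h1.trans hζ.1, hζ.2.trans h2⟩

theorem support_subset_hull (x : ι →₀ ℝ) : (x.support : Set ι) ⊆ hull x :=
  fun ξ hξ => ⟨ξ, hξ, ξ, hξ, le_rfl, le_rfl⟩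

theorem hull_mono {x y : ι →₀ ℝ} (h : x.support ⊆ y.support) : hull x ⊆ hull y := by
  rintro ξ ⟨a, ha, b, hb, h1, h2⟩
  exact ⟨a, h ha, b, h hb, h1, h2⟩

theorem Lt.lt_of_hull {x y : ι →₀ ℝ} (h : Lt x y) {a b : ι} (ha : a ∈ hull x) (hb : b ∈ hull y) :
    a < b := by
  obtain ⟨-, -, c, hc, -, h1⟩ := ha
  obtain ⟨d, hd, -, -, h2, -⟩ := hb
  exact (h1.trans_lt (h c hc d hd)).trans_le h2

theorem Lt.of_hull {x y g g' : ι →₀ ℝ} (h : Lt x y) (hg : (g.support : Set ι) ⊆ hull x)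
    (hg' : (g'.support : Set ι) ⊆ hull y) : Lt g g' :=
  fun _ ha _ hb => h.lt_of_hull (hg ha) (hg' hb)

theorem res_hull_self (x : ι →₀ ℝ) : res (hull x) x = x := res_eq_self (support_subset_hull x)

theorem Lt.res_hull_left {x y : ι →₀ ℝ} (h : Lt x y) : res (hull x) y = 0 :=
  res_eq_zero fun ξ hξ h' => lt_irrefl ξ (h.lt_of_hull h' (support_subset_hull y hξ))

theorem Lt.res_hull_right {x y : ι →₀ ℝ} (h : Lt x y) : res (hull y) x = 0 :=
  res_eq_zero fun ξ hξ h' => lt_irrefl ξ (h.lt_of_hull (support_subset_hull x hξ) h')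

omit [LinearOrder ι] in
theorem tailSp_anti (v : ℕ → ι →₀ ℝ) {n n' : ℕ} (h : n ≤ n') : tailSp v n' ≤ tailSp v n :=
  Submodule.span_mono (Set.image_mono (Set.Ici_subset_Ici.2 h))

omit [LinearOrder ι] in
theorem mem_tailSp (v : ℕ → ι →₀ ℝ) {n n' : ℕ} (h : n ≤ n') : v n' ∈ tailSp v n :=
  Submodule.subset_span ⟨n', h, rfl⟩

theorem lt_of_mem_tailSp {v : ℕ → ι →₀ ℝ} {g : ι →₀ ℝ} {n : ℕ} (h : ∀ k, n ≤ k → Lt g (v k))
    {y : ι →₀ ℝ} (hy : y ∈ tailSp v n) : Lt g y := by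
  induction hy using Submodule.span_induction with
  | mem x hx => obtain ⟨k, hk, rfl⟩ := hx; exact h k hk
  | zero => exact Lt.zero_right g
  | add x y _ _ h1 h2 => exact h1.add_right h2
  | smul c x _ h1 => exact h1.smul_right c

theorem IsBlock.lt_tailSp {v : ℕ → ι →₀ ℝ} (hv : IsBlock v) {g : ι →₀ ℝ} {n : ℕ}
    (h : Lt g (v n)) {y : ι →₀ ℝ} (hy : y ∈ tailSp v n) : Lt g y :=
  lt_of_mem_tailSp (fun k hk => by
    rcases hk.eq_or_lt with rfl | hk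
    · exact h
    · exact h.trans (hv.2 n k hk) (hv.1 n)) hy

omit [LinearOrder ι] in
theorem exists_support_of_mem_tailSp {v : ℕ → ι →₀ ℝ} {n : ℕ} {y : ι →₀ ℝ}
    (hy : y ∈ tailSp v n) {ξ : ι} (hξ : ξ ∈ y.support) : ∃ k, n ≤ k ∧ ξ ∈ (v k).support := by
  classical
  induction hy using Submodule.span_induction with
  | mem x hx => obtain ⟨k, hk, rfl⟩ := hx; exact ⟨k, hk, hξ⟩
  | zero => simp at hξ
  | add x y _ _ h1 h2 =>
    rcases Finset.mem_union.1 (Finsupp.support_add hξ) with h | h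
    exacts [h1 h, h2 h]
  | smul c x _ h1 => exact h1 (Finsupp.support_smul hξ)

/-- a vector whose support points are dominated by support points of the block sequence lies
below a tail -/
theorem IsBlock.exists_lt {v : ℕ → ι →₀ ℝ} (hv : IsBlock v) (A : Finset ι)
    (hA : ∀ ξ ∈ A, ∃ k, ∃ a ∈ (v k).support, ξ ≤ a) (n₀ : ℕ) :
    ∃ n, n₀ ≤ n ∧ ∀ y ∈ tailSp v n, ∀ ξ ∈ A, ∀ b ∈ y.support, ξ < b := by
  classical
  choose! k a ha hle using hA
  refine ⟨max n₀ (A.sup k + 1), le_max_left _ _, fun y hy ξ hξ b hb => ?_⟩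
  obtain ⟨k', hk', hb'⟩ := exists_support_of_mem_tailSp hy hb
  have : k ξ < k' := by
    have := Finset.le_sup (f := k) hξ
    have := le_max_right n₀ (A.sup k + 1)
    omega
  exact (hle ξ hξ).trans_lt (hv.2 _ _ this _ (ha ξ hξ) b hb')

theorem IsBlock.exists_lt_tailSp {v : ℕ → ι →₀ ℝ} (hv : IsBlock v) {n : ℕ} {x : ι →₀ ℝ}
    (hx : x ∈ tailSp v n) (n₀ : ℕ) : ∃ n', n₀ ≤ n' ∧ ∀ y ∈ tailSp v n', Lt x y := by
  obtain ⟨n', h1, h2⟩ := hv.exists_lt x.support (fun ξ hξ => by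
    obtain ⟨k, -, hk⟩ := exists_support_of_mem_tailSp hx hξ
    exact ⟨k, ξ, hk, le_rfl⟩) n₀
  exact ⟨n', h1, fun y hy a ha b hb => h2 y hy a ha b hb⟩

end Vale.Agent.P129
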