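import Vale.Agent.P129.L1

namespace Vale.Agent.P129

open Finset

section Unc

variable {X : Type*} [NormedAddCommGroup X] [NormedSpace ℝ X]

/-- the free lifting property with real coefficients -/
def FreeR (y : ℕ → StrongDual ℝ X) : Prop :=
  ∀ (A : Finset ℕ) (a : ℕ → ℝ) (δ : ℝ), 0 < δ → ∃ x : X, ‖x‖ ≤ 1 ∧ (∀ k, k ∉ A → y k x = 0) ∧
    ‖∑ i ∈ A, a i • y i‖ ≤ 2 * (∑ i ∈ A, a i • y i) x + δ

theorem freeR_of_rat (y : ℕ → StrongDual ℝ X) (hy : ∀ k, ‖y k‖ = 1)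
    (h : ∀ (A : Finset ℕ) (a : ℕ → ℚ), ∃ x : X, ‖x‖ ≤ 1 ∧ (∀ k, k ∉ A → y k x = 0) ∧
      ‖∑ i ∈ A, (a i : ℝ) • y i‖ ≤ 2 * (∑ i ∈ A, (a i : ℝ) • y i) x) : FreeR y := by
  intro A a δ hδ
  have hc : (0 : ℝ) < A.card + 1 := by positivity
  set δ' := δ / (3 * (A.card + 1)) with hδ'
  have hδ0 : 0 < δ' := by positivity
  choose q hq using fun i => exists_rat_near (a i) hδ0
  obtain ⟨x, h1, h2, h3⟩ := h A q
  refine ⟨x, h1, h2, ?_⟩
  have h4 : ‖∑ i ∈ A, a i • y i - ∑ i ∈ A, (q i : ℝ) • y i‖ ≤ δ / 3 := by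
    rw [← Finset.sum_sub_distrib]
    refine (norm_sum_le _ _).trans ?_
    have := Finset.sum_le_card_nsmul A (fun i => ‖a i • y i - (q i : ℝ) • y i‖) δ' fun i _ => by
      have e : a i • y i - (q i : ℝ) • y i = (a i - q i) • y i := by
        ext z
        simp [sub_mul]
      rw [e, norm_smul, hy, mul_one]
      exact (hq i).le
    refine this.trans ?_
    rw [nsmul_eq_mul, hδ', mul_div_assoc', div_le_div_iff₀ (by positivity) (by norm_num)]
    nlinarith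
  have h5 := norm_sub_norm_le (∑ i ∈ A, a i • y i) (∑ i ∈ A, (q i : ℝ) • y i)
  have h6 := (∑ i ∈ A, a i • y i - ∑ i ∈ A, (q i : ℝ) • y i).le_of_opNorm_le_of_le h4 h1
  rw [ContinuousLinearMap.sub_apply, Real.norm_eq_abs, abs_le] at h6
  linarith [h6.1]

theorem FreeR.suppress {y : ℕ → StrongDual ℝ X} (h : FreeR y) {A B : Finset ℕ} (hB : B ⊆ A)
    (a : ℕ → ℝ) : ‖∑ i ∈ B, a i • y i‖ ≤ 2 * ‖∑ i ∈ A, a i • y i‖ := by
  refine le_of_forall_pos_le_add fun δ hδ => ?_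
  obtain ⟨x, h1, h2, h3⟩ := h B a δ hδ
  have h4 : (∑ i ∈ B, a i • y i) x = (∑ i ∈ A, a i • y i) x := by
    rw [ContinuousLinearMap.sum_apply, ContinuousLinearMap.sum_apply]
    exact Finset.sum_subset hB fun i _ hi => by simp [h2 i hi]
  have h5 := (∑ i ∈ A, a i • y i).le_of_opNorm_le_of_le le_rfl h1
  rw [Real.norm_eq_abs, abs_le] at h5
  linarith [h5.2]

theorem FreeR.lift {y : ℕ → StrongDual ℝ X} (h : FreeR y) (A : Finset ℕ) (t : ℕ → ℝ) {γ : ℝ}
    (hγ : 0 < γ) (ht : ∀ a : ℕ → ℝ, |∑ i ∈ A, a i * t i| ≤ γ * ‖∑ i ∈ A, a i • y i‖) :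
    ∃ x : X, ‖x‖ ≤ 3 * γ ∧ (∀ k, k ∉ A → y k x = 0) ∧ ∀ i ∈ A, y i x = t i := by
  let V : Submodule ℝ X := ⨅ k : {k // k ∉ A}, LinearMap.ker (y k : X →ₗ[ℝ] ℝ)
  have hV : ∀ x, x ∈ V ↔ ∀ k, k ∉ A → y k x = 0 := fun x => by
    simp [V, Submodule.mem_iInf]
  obtain ⟨x, h1, h2⟩ := helly (𝕜 := ℝ) (V := V) A (fun i => (y i).comp V.subtypeL) t (2 * γ)
    (by positivity) (fun a => by
      refine (ht a).trans ?_
      rw [mul_comm 2 γ, mul_assoc]
      refine mul_le_mul_of_nonneg_left (le_of_forall_pos_le_add fun δ hδ => ?_) hγ.le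
      obtain ⟨x, h1, h2, h3⟩ := h A a δ hδ
      have h5 := (∑ i ∈ A, a i • (y i).comp V.subtypeL).le_of_opNorm_le_of_le le_rfl
        (x := ⟨x, (hV x).2 h2⟩) h1
      have h6 : (∑ i ∈ A, a i • (y i).comp V.subtypeL) ⟨x, (hV x).2 h2⟩ =
          (∑ i ∈ A, a i • y i) x := by
        simp [ContinuousLinearMap.sum_apply]
      rw [h6, Real.norm_eq_abs, abs_le] at h5
      linarith [h5.2]) γ hγ
  exact ⟨x, by rw [show 3 * γ = 2 * γ + γ by ring]; exact h1, (hV x).1 x.2, h2⟩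

theorem FreeR.linearIndependent {y : ℕ → StrongDual ℝ X} (h : FreeR y) (hy : ∀ k, ‖y k‖ = 1) :
    LinearIndependent ℝ y := by
  rw [linearIndependent_iff']
  intro A a hA i hi
  have := h.suppress (Finset.singleton_subset_iff.2 hi) a
  rw [hA, Finset.sum_singleton, norm_smul, hy, norm_zero] at this
  exact norm_le_zero_iff.1 (by linarith)

theorem FreeR.tails [CompleteSpace X] {y : ℕ → StrongDual ℝ X} (h : FreeR y)
    (hs : ∀ (x : X) (ε : ℝ), 0 < ε → ∃ n, ∀ A : Finset ℕ, (∀ i ∈ A, n ≤ i) → ∀ a : ℕ → ℝ,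
      |(∑ i ∈ A, a i • y i) x| ≤ ε * ‖∑ i ∈ A, a i • y i‖) (x : X) (ε : ℝ) (hε : 0 < ε) :
    ∃ n x', ‖x'‖ ≤ ε ∧ ∀ k, n ≤ k → y k x' = y k x := by
  choose n hn using fun l : ℕ => hs x (ε / 6 * (1 / 2) ^ l) (by positivity)
  let m : ℕ → ℕ := fun l => ∑ j ∈ range (l + 1), (n j + 1)
  have hm : StrictMono m := strictMono_nat_of_lt_succ fun l => by
    simp only [m]
    rw [Finset.sum_range_succ _ (l + 1)]
    omega
  have hnm : ∀ l, n l ≤ m l := fun l => by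
    simp only [m]
    rw [Finset.sum_range_succ]
    omega
  choose z hz1 hz2 hz3 using fun l : ℕ => h.lift (Ico (m l) (m (l + 1))) (fun i => y i x)
    (γ := ε / 6 * (1 / 2) ^ l) (by positivity) fun a => by
      have := hn l (Ico (m l) (m (l + 1)))
        (fun i hi => (hnm l).trans (Finset.mem_Ico.1 hi).1) a
      simpa [ContinuousLinearMap.sum_apply] using this
  have hg : HasSum (fun l : ℕ => 3 * (ε / 6 * (1 / 2) ^ l)) ε := by
    have := (hasSum_geometric_two.mul_left (ε / 6)).mul_left 3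
    rwa [show 3 * (ε / 6 * 2) = ε by ring] at this
  have hsum : Summable z := Summable.of_norm_bounded hg.summable hz1
  refine ⟨m 0, ∑' l, z l, tsum_of_norm_bounded hg hz1, fun k hk => ?_⟩
  have hex : ∃ l, k < m (l + 1) := ⟨k, (Nat.lt_succ_self k).trans_le (hm.id_le (k + 1))⟩
  have hl : k ∈ Ico (m (Nat.find hex)) (m (Nat.find hex + 1)) := by
    refine Finset.mem_Ico.2 ⟨?_, Nat.find_spec hex⟩
    rcases Nat.eq_zero_or_eq_succ_pred (Nat.find hex) with h0 | h0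
    · rw [h0]; exact hk
    · rw [h0]; exact not_lt.1 (Nat.find_min hex (by omega))
  rw [(y k).map_tsum hsum, tsum_eq_single (Nat.find hex), hz3 _ k hl]
  intro l hne
  refine hz2 l k fun hk' => hne ?_
  rw [Finset.mem_Ico] at hl hk'
  have h1 := hm.lt_iff_lt.1 (hl.1.trans_lt hk'.2)
  have h2 := hm.lt_iff_lt.1 (hk'.1.trans_lt hl.2)
  omega

theorem FreeR.blocks {y : ℕ → StrongDual ℝ X} (h : FreeR y) (B : ℕ → Finset ℕ) (b : ℕ → ℕ → ℝ)
    (hB : ∀ j j', j ≠ j' → Disjoint (B j) (B j')) {J J' : Finset ℕ} (hJ : J' ⊆ J) (c : ℕ → ℝ) :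
    ‖∑ j ∈ J', c j • ∑ i ∈ B j, b j i • y i‖ ≤ 2 * ‖∑ j ∈ J, c j • ∑ i ∈ B j, b j i • y i‖ := by
  let d : ℕ → ℝ := fun i => ∑ j ∈ J, if i ∈ B j then c j * b j i else 0
  have key : ∀ I ⊆ J, ∑ j ∈ I, c j • ∑ i ∈ B j, b j i • y i = ∑ i ∈ I.biUnion B, d i • y i := by
    intro I hI
    rw [Finset.sum_biUnion fun j _ j' _ hne => hB j j' hne]
    refine Finset.sum_congr rfl fun j hj => ?_
    rw [Finset.smul_sum]
    refine Finset.sum_congr rfl fun i hi => ?_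
    rw [smul_smul]
    congr 1
    simp only [d]
    rw [Finset.sum_eq_single j, if_pos hi]
    · intro j' _ hne
      exact if_neg fun h' => Finset.disjoint_left.1 (hB j' j hne) h' hi
    · exact fun h' => absurd (hI hj) h'
  rw [key J' hJ, key J subset_rfl]
  exact h.suppress (Finset.biUnion_subset_biUnion_of_subset_left B hJ) d

end Unc

/-- a sequence of functionals with the free lifting property gives a separable quotient -/
theorem hasSepQuotient_of_free {X : Type*} [NormedAddCommGroup X] [NormedSpace ℝ X]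
    [CompleteSpace X] (y : ℕ → StrongDual ℝ X) (hy : ∀ k, ‖y k‖ = 1)
    (h : ∀ (A : Finset ℕ) (a : ℕ → ℚ), ∃ x : X, ‖x‖ ≤ 1 ∧ (∀ k, k ∉ A → y k x = 0) ∧
      ‖∑ i ∈ A, (a i : ℝ) • y i‖ ≤ 2 * (∑ i ∈ A, (a i : ℝ) • y i) x) :
    HasSepQuotient ℝ X := by
  have hF := freeR_of_rat y hy h
  by_cases hs : ∀ (x : X) (ε : ℝ), 0 < ε → ∃ n, ∀ A : Finset ℕ, (∀ i ∈ A, n ≤ i) →
      ∀ a : ℕ → ℝ, |(∑ i ∈ A, a i • y i) x| ≤ ε * ‖∑ i ∈ A, a i • y i‖
  · exact hasSepQuotient_of_tails y (hF.linearIndependent hy) (hF.tails hs)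
  push Not at hs
  obtain ⟨x, ε, hε, hs⟩ := hs
  have hs' : ∀ n, ∃ A : Finset ℕ, (∀ i ∈ A, n ≤ i) ∧ ∃ a : ℕ → ℝ,
      ‖∑ i ∈ A, a i • y i‖ ≤ 1 ∧ ε ≤ (∑ i ∈ A, a i • y i) x := fun n => by
    obtain ⟨A, h1, a, h2⟩ := hs n
    set φ := ∑ i ∈ A, a i • y i with hφ
    have h3 : 0 < ‖φ‖ := norm_pos_iff.2 fun h0 => by simp [h0] at h2
    have key : ∀ s : ℝ, ∑ i ∈ A, (s * a i) • y i = s • φ := fun s => by
      rw [hφ, Finset.smul_sum]
      exact Finset.sum_congr rfl fun i _ => (smul_smul _ _ _).symm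
    rcases le_total 0 (φ x) with h4 | h4
    · refine ⟨A, h1, fun i => ‖φ‖⁻¹ * a i, ?_, ?_⟩
      · rw [key, norm_smul, norm_inv, norm_norm, inv_mul_cancel₀ h3.ne']
      · rw [key, ContinuousLinearMap.smul_apply, smul_eq_mul, le_inv_mul_iff₀ h3]
        rw [abs_of_nonneg h4] at h2
        linarith
    · refine ⟨A, h1, fun i => (-‖φ‖⁻¹) * a i, ?_, ?_⟩
      · rw [key, norm_smul, norm_neg, norm_inv, norm_norm, inv_mul_cancel₀ h3.ne']
      · rw [key, ContinuousLinearMap.smul_apply, smul_eq_mul, neg_mul, ← mul_neg,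
          le_inv_mul_iff₀ h3]
        rw [abs_of_nonpos h4] at h2
        linarith
  choose A hA a ha1 ha2 using hs'
  let n : ℕ → ℕ := fun j => Nat.rec 0 (fun _ m => m + (A m).sup id + 1) j
  have hn : ∀ j, n (j + 1) = n j + (A (n j)).sup id + 1 := fun j => rfl
  have hmono : StrictMono n := strictMono_nat_of_lt_succ fun j => by rw [hn]; omega
  have hlt : ∀ j j', j < j' → Disjoint (A (n j)) (A (n j')) := fun j j' hj =>
    Finset.disjoint_left.2 fun i hi hi' => by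
      have h1 := Finset.le_sup (f := id) hi
      have h2 := hA _ i hi'
      have h3 := hmono.monotone (show j + 1 ≤ j' from hj)
      rw [hn] at h3
      simp only [id] at h1
      omega
  have hB : ∀ j j', j ≠ j' → Disjoint (A (n j)) (A (n j')) := fun j j' hne => by
    rcases lt_or_gt_of_ne hne with h1 | h1
    exacts [hlt j j' h1, (hlt j' j h1).symm]
  refine hasSepQuotient_of_l1 (fun j => ∑ i ∈ A (n j), a (n j) i • y i) (fun j => ha1 _)
    (ε / (4 * (‖x‖ + 1))) (by positivity) fun J c => ?_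
  set u : ℕ → StrongDual ℝ X := fun j => ∑ i ∈ A (n j), a (n j) i • y i with hu
  have hu2 : ∀ j, ε ≤ u j x := fun j => ha2 _
  have key : ∀ I ⊆ J, |∑ j ∈ I, c j * u j x| ≤ 2 * ‖∑ j ∈ J, c j • u j‖ * ‖x‖ := fun I hI => by
    have h1 := (∑ j ∈ I, c j • u j).le_of_opNorm_le
      (hF.blocks (fun j => A (n j)) (fun j => a (n j)) hB hI c) x
    simpa [ContinuousLinearMap.sum_apply] using h1
  have h1 := (le_abs_self _).trans (key _ (Finset.filter_subset (fun j => 0 ≤ c j) J))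
  have h2 := (neg_le_abs _).trans (key _ (Finset.filter_subset (fun j => ¬ 0 ≤ c j) J))
  have h3 : ε * ∑ j ∈ J.filter (fun j => 0 ≤ c j), |c j| ≤
      ∑ j ∈ J.filter (fun j => 0 ≤ c j), c j * u j x := by
    rw [Finset.mul_sum]
    refine Finset.sum_le_sum fun j hj => ?_
    have h0 := (Finset.mem_filter.1 hj).2
    rw [abs_of_nonneg h0, mul_comm]
    exact mul_le_mul_of_nonneg_left (hu2 j) h0
  have h4 : ε * ∑ j ∈ J.filter (fun j => ¬ 0 ≤ c j), |c j| ≤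
      -∑ j ∈ J.filter (fun j => ¬ 0 ≤ c j), c j * u j x := by
    rw [Finset.mul_sum, ← Finset.sum_neg_distrib]
    refine Finset.sum_le_sum fun j hj => ?_
    have h0 := (not_le.1 (Finset.mem_filter.1 hj).2).le
    rw [abs_of_nonpos h0, mul_comm, ← neg_mul]
    exact mul_le_mul_of_nonneg_left (hu2 j) (neg_nonneg.2 h0)
  rw [← Finset.sum_filter_add_sum_filter_not J (fun j => 0 ≤ c j), div_mul_eq_mul_div,
    div_le_iff₀ (by positivity), mul_add]
  have h5 := norm_nonneg (∑ j ∈ J, c j • u j)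
  nlinarith

end Vale.Agent.P129
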