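import Vale.Agent.P129.SN
import Vale.Agent.P129.DR
import Vale.Agent.P129.Free
import Vale.Agent.P129.Unc

namespace Vale.Agent.P129

open Finset

open MeasureTheory

theorem exists_random_seq (X : Type*) [NormedAddCommGroup X] [NormedSpace ℝ X]
    (hX : ¬ FiniteDimensional ℝ X) :
    ∃ Z : ℕ → unitInterval → StrongDual ℝ X, (∀ n t, ‖Z n t‖ = 1) ∧
      ∀ x, volume {t | ¬ Summable fun n => ‖Z n t x‖} = 0 := by
  have key : ∀ n : ℕ, ∃ Z : unitInterval → StrongDual ℝ X, (∀ t, ‖Z t‖ = 1) ∧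
      ∀ x, Measurable (fun t => ‖Z t x‖ₑ) ∧
        ∫⁻ t, ‖Z t x‖ₑ ≤ ENNReal.ofReal ((1 / 2) ^ n * ‖x‖) := by
    intro n
    obtain ⟨L, z, a, h1, h2, h3, h4⟩ := exists_small_average hX ((1 / 2) ^ n) (by positivity)
    have : Nonempty (Fin L) := by
      by_contra h
      rw [not_nonempty_iff] at h
      simp at h3
    let ν : Measure (Fin L) := ∑ i, ENNReal.ofReal (a i) • Measure.dirac i
    have : IsProbabilityMeasure ν := ⟨by
      simp only [ν, Measure.coe_finset_sum, Finset.sum_apply, Measure.smul_apply, measure_univ,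
        smul_eq_mul, mul_one]
      rw [← ENNReal.ofReal_sum_of_nonneg fun i _ => h2 i, h3, ENNReal.ofReal_one]⟩
    obtain ⟨f, hf1, hf2⟩ := ν.exists_measurable_map_eq
    refine ⟨fun t => z (f t), fun t => h1 _, fun x =>
      ⟨(measurable_of_finite fun i => ‖z i x‖ₑ).comp hf1, ?_⟩⟩
    rw [← lintegral_map (f := fun i => ‖z i x‖ₑ) (measurable_of_finite _) hf1, hf2]
    simp only [ν, lintegral_finset_sum_measure, lintegral_smul_measure, lintegral_dirac,
      smul_eq_mul]
    refine le_trans (le_of_eq ?_) (ENNReal.ofReal_le_ofReal (h4 x))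
    rw [ENNReal.ofReal_sum_of_nonneg fun i _ => mul_nonneg (h2 i) (abs_nonneg _)]
    refine Finset.sum_congr rfl fun i _ => ?_
    rw [ENNReal.ofReal_mul (h2 i), Real.enorm_eq_ofReal_abs]
  choose Z h1 h2 using key
  refine ⟨Z, h1, fun x => ?_⟩
  have e1 : ∫⁻ t, ∑' n, ‖Z n t x‖ₑ ≠ ⊤ := by
    rw [lintegral_tsum fun n => (h2 n x).1.aemeasurable]
    refine ne_top_of_le_ne_top ?_ (ENNReal.tsum_le_tsum fun n => (h2 n x).2)
    rw [← ENNReal.ofReal_tsum_of_nonneg (fun n => by positivity)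
      (summable_geometric_two.mul_right _)]
    exact ENNReal.ofReal_ne_top
  have e2 := ae_lt_top (Measurable.ennreal_tsum fun n => (h2 n x).1) e1
  refine measure_mono_null (fun t ht => ?_) e2
  exact fun h => ht (tsum_enorm_ne_top_iff_summable_norm.1 h.ne)

theorem exists_annihilator {X : Type*} [NormedAddCommGroup X] [NormedSpace ℝ X]
    (S : Submodule ℝ X) (hS : ¬ Dense (S : Set X)) :
    ∃ y : StrongDual ℝ X, ‖y‖ = 1 ∧ ∀ x ∈ S, y x = 0 := by
  rw [dense_iff_closure_eq, ← Ne, Set.ne_univ_iff_exists_notMem] at hS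
  obtain ⟨x₀, hx₀⟩ := hS
  obtain ⟨f, u, h1, h2⟩ := geometric_hahn_banach_closed_point S.convex.closure isClosed_closure hx₀
  have h0 : 0 < u := by simpa using h1 0 (subset_closure S.zero_mem)
  have hf : f ≠ 0 := by
    rintro rfl
    simp at h2
    linarith
  refine ⟨‖f‖⁻¹ • f, by rw [norm_smul, norm_inv, norm_norm, inv_mul_cancel₀ (norm_ne_zero_iff.2 hf)],
    fun x hx => ?_⟩
  have : f x = 0 := by
    by_contra hne
    have := h1 _ (subset_closure (S.smul_mem (u / f x) hx))
    rw [map_smul, smul_eq_mul, div_mul_cancel₀ _ hne] at this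
    exact lt_irrefl _ this
  simp [this]

/-- real case of part B -/
theorem hasSepQuotient_real (μ : @Measure unitInterval ⊤)
    (hμ : ∀ s : Set unitInterval, MeasurableSet s → μ s = volume s)
    (X : Type*) [NormedAddCommGroup X] [NormedSpace ℝ X] [CompleteSpace X]
    (hX : ¬ FiniteDimensional ℝ X) : HasSepQuotient ℝ X := by
  classical
  by_contra hneg
  obtain ⟨Z, hZ1, hZ2⟩ := exists_random_seq X hX
  have hy : ∀ t, ∃ y : StrongDual ℝ X, ‖y‖ = 1 ∧
      ∀ x, (Summable fun n => ‖Z n t x‖) → y x = 0 := fun t => by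
    let S : Submodule ℝ X :=
      { carrier := {x | Summable fun n => ‖Z n t x‖}
        add_mem' := fun {a b} ha hb => Summable.of_nonneg_of_le (fun _ => norm_nonneg _)
          (fun n => by rw [map_add]; exact norm_add_le _ _) (Summable.add ha hb)
        zero_mem' := by simp [summable_zero]
        smul_mem' := fun c a ha => by
          have := Summable.mul_left ‖c‖ ha
          simpa using this }
    exact exists_annihilator S fun hD => hneg (hasSepQuotient_of_summable (fun n => Z n t) 1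
      one_pos (fun n => (hZ1 n t).ge) (fun n => (hZ1 n t).le) hD)
  choose y hy1 hy2 using hy
  have hx : ∀ φ : StrongDual ℝ X, ∃ x : X, ‖x‖ ≤ 1 ∧ ‖φ‖ ≤ 2 * φ x := fun φ => by
    by_cases hφ : φ = 0
    · exact ⟨0, by simp, by simp [hφ]⟩
    obtain ⟨x, h1, h2⟩ := φ.exists_lt_apply_of_lt_opNorm (half_lt_self (norm_pos_iff.2 hφ))
    rcases le_total 0 (φ x) with h | h
    · rw [Real.norm_of_nonneg h] at h2
      exact ⟨x, h1.le, by linarith⟩
    · rw [Real.norm_of_nonpos h] at h2
      exact ⟨-x, by simpa using h1.le, by rw [map_neg]; linarith⟩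
  choose xf hx1 hx2 using hx
  obtain ⟨ω, hω⟩ := exists_free μ hμ (κ := Finset ℕ × (ℕ →₀ ℚ) × ℕ)
    (fun c => c.1.sup id + 1) (fun c => c.2.2)
    (fun c s => if c.2.2 ∈ c.1 then ∅ else
      {t | ¬ Summable fun n => ‖Z n t (xf (∑ i ∈ c.1, (c.2.1 i : ℝ) • y (s i)))‖})
    (fun c s => by
      split_ifs
      · exact measure_empty
      · exact hZ2 _)
    (fun c s s' h => by
      split_ifs with hc
      · rfl
      · rw [Finset.sum_congr rfl fun i hi => by
          rw [h i (Nat.lt_succ_of_le (Finset.le_sup (f := id) hi)) fun e => hc (e ▸ hi)]])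
  refine hneg (hasSepQuotient_of_free (fun k => y (ω k)) (fun k => hy1 _) fun A a => ?_)
  let a' : ℕ →₀ ℚ := Finsupp.onFinset A (fun i => if i ∈ A then a i else 0)
    fun i hi => by by_contra h; simp [h] at hi
  have e1 : ∑ i ∈ A, (a' i : ℝ) • y (ω i) = ∑ i ∈ A, (a i : ℝ) • y (ω i) :=
    Finset.sum_congr rfl fun i hi => by simp [a', hi]
  refine ⟨xf _, hx1 _, fun k hk => hy2 _ _ ?_, hx2 _⟩
  have := hω (A, a', k)
  simpa [hk, e1] using this

end Vale.Agent.P129
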