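import Mathlib

namespace Vale.Agent.P129

/-- Dependent choice along a well-order. -/
theorem exists_wf_choice {ι β : Type*} [LinearOrder ι] [WellFoundedLT ι] [Nonempty β]
    (P : ι → (ι → β) → β → Prop)
    (hP : ∀ δ f f' v, (∀ γ < δ, f γ = f' γ) → P δ f v → P δ f' v)
    (hex : ∀ δ f, (∀ γ < δ, P γ f (f γ)) → ∃ v, P δ f v) :
    ∃ f : ι → β, ∀ δ, P δ f (f δ) := by
  classical
  let ext : (δ : ι) → ((γ : ι) → γ < δ → β) → ι → β := fun δ prev γ =>
    if h : γ < δ then prev γ h else Classical.arbitrary β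
  let f : ι → β := (wellFounded_lt (α := ι)).fix fun δ prev =>
    Classical.epsilon (P δ (ext δ prev))
  have hf : ∀ δ, f δ = Classical.epsilon (P δ (ext δ fun γ _ => f γ)) := fun δ =>
    (wellFounded_lt (α := ι)).fix_eq _ δ
  refine ⟨f, fun δ => ?_⟩
  induction δ using (wellFounded_lt (α := ι)).induction with
  | _ δ ih =>
    have h1 : ∀ γ < δ, f γ = ext δ (fun γ _ => f γ) γ := fun γ hγ => by simp [ext, hγ]
    obtain ⟨v, hv⟩ := hex δ f ih
    have h2 : P δ (ext δ fun γ _ => f γ) (f δ) := by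
      rw [hf δ]
      exact Classical.epsilon_spec ⟨v, hP δ _ _ v h1 hv⟩
    exact hP δ _ _ _ (fun γ hγ => (h1 γ hγ).symm) h2

end Vale.Agent.P129
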