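import Vale.Agent.P129.Pre
import Vale.Agent.P129.WF

namespace Vale.Agent.P129

open Finset

theorem rho_cofinal {ι : Type} [LinearOrder ι] {η : ι} (hc : (Set.Iio η).Countable)
    (hne : (Set.Iio η).Nonempty) :
    ∃ s : ℕ → ι, Monotone s ∧ (∀ k, s k < η) ∧ ∀ ξ < η, ∃ k, ξ ≤ s k := by
  obtain ⟨e, he⟩ := hc.exists_eq_range hne
  have he1 : ∀ k, e k < η := fun k => by
    have : e k ∈ Set.Iio η := he ▸ Set.mem_range_self k
    exact this
  let s : ℕ → ι := fun k => Nat.rec (e 0) (fun k x => max x (e (k + 1))) k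
  have hs : ∀ k, s (k + 1) = max (s k) (e (k + 1)) := fun k => rfl
  refine ⟨s, monotone_nat_of_le_succ fun k => by rw [hs]; exact le_max_left _ _, ?_, ?_⟩
  · intro k
    induction k with
    | zero => exact he1 0
    | succ k ih => rw [hs]; exact max_lt ih (he1 _)
  · intro ξ hξ
    have : ξ ∈ Set.range e := he ▸ hξ
    obtain ⟨k, rfl⟩ := this
    refine ⟨k, ?_⟩
    cases k with
    | zero => exact le_rfl
    | succ k => rw [hs]; exact le_max_right _ _

/-- the invariant of the recursive construction of the rho-function -/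
def RhoP {ι : Type} [LinearOrder ι] (η : ι) (f : ι → ι → ℕ) (v : ι → ℕ) : Prop :=
  v η = 0 ∧ (∀ p, {a | a ≤ η ∧ v a ≤ p}.Finite) ∧
    ∀ a b, a ≤ b → b < η → v a ≤ max (f b a) (v b) ∧ f b a ≤ max (v a) (v b)

theorem RhoP.le {ι : Type} [LinearOrder ι] {c : ι} {f : ι → ι → ℕ} (h : RhoP c f (f c))
    {a b : ι} (hab : a ≤ b) (hbc : b ≤ c) :
    f c a ≤ max (f b a) (f c b) ∧ f b a ≤ max (f c a) (f c b) := by
  rcases hbc.lt_or_eq with hbc | rfl
  · exact h.2.2 a b hab hbc
  · exact ⟨le_max_left _ _, le_max_left _ _⟩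

theorem rho_step {ι : Type} [LinearOrder ι] {η : ι} (hc : (Set.Iio η).Countable)
    (f : ι → ι → ℕ) (hf : ∀ γ < η, RhoP γ f (f γ)) : ∃ v, RhoP η f v := by
  classical
  rcases (Set.Iio η).eq_empty_or_nonempty with he | hne
  · have hn : ∀ a, ¬ a < η := fun a ha => by
      have : a ∈ Set.Iio η := ha
      rw [he] at this
      exact this
    refine ⟨fun _ => 0, rfl, fun p => (Set.finite_singleton η).subset ?_, fun a b _ hb =>
      (hn b hb).elim⟩
    rintro a ⟨ha, -⟩
    exact ha.eq_of_not_lt (hn a)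
  obtain ⟨s, hmono, hlt, hcof⟩ := rho_cofinal hc hne
  let p : ℕ → ℕ := fun k => k + ∑ i ∈ range (k + 1), ∑ j ∈ range (k + 1), f (s i) (s j)
  have hp1 : ∀ k, k ≤ p k := fun k => Nat.le_add_right _ _
  have hp2 : ∀ j k, j ≤ k → f (s k) (s j) ≤ p k := by
    intro j k hjk
    refine le_trans ?_ (Nat.le_add_left _ _)
    refine le_trans ?_ (single_le_sum (f := fun i => ∑ j ∈ range (k + 1), f (s i) (s j))
      (fun _ _ => Nat.zero_le _) (mem_range.2 (Nat.lt_succ_self k)))
    exact single_le_sum (f := fun j => f (s k) (s j)) (fun _ _ => Nat.zero_le _)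
      (mem_range.2 (Nat.lt_succ_of_le hjk))
  have hp3 : Monotone p := by
    intro k k' hk
    have hsub : range (k + 1) ⊆ range (k' + 1) := range_subset_range.2 (by omega)
    refine Nat.add_le_add hk ?_
    refine le_trans (sum_le_sum fun i _ => sum_le_sum_of_subset hsub) ?_
    exact sum_le_sum_of_subset (f := fun i => ∑ j ∈ range (k' + 1), f (s i) (s j)) hsub
  let κ : ι → ℕ := fun ξ => if h : ξ < η then Nat.find (hcof ξ h) else 0
  have hκ1 : ∀ ξ < η, ξ ≤ s (κ ξ) := fun ξ h => by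
    simp only [κ, dif_pos h]
    exact Nat.find_spec (hcof ξ h)
  have hκ2 : ∀ a b, a ≤ b → b < η → κ a ≤ κ b := fun a b hab hb => by
    have ha : a < η := hab.trans_lt hb
    have h1 := hκ1 b hb
    conv_lhs => simp only [κ, dif_pos ha]
    exact Nat.find_min' _ (hab.trans h1)
  let v : ι → ℕ := fun ξ => if ξ < η then max (p (κ ξ)) (f (s (κ ξ)) ξ) else 0
  have hv : ∀ ξ < η, v ξ = max (p (κ ξ)) (f (s (κ ξ)) ξ) := fun ξ h => if_pos h
  refine ⟨v, if_neg (lt_irrefl η), fun q => ?_, fun a b hab hb => ?_⟩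
  · refine ((Set.finite_singleton η).union
      ((Set.finite_Iic q).biUnion fun k _ => (hf (s k) (hlt k)).2.1 q)).subset ?_
    rintro a ⟨ha, hq⟩
    rcases ha.lt_or_eq with ha | rfl
    · right
      rw [hv a ha, max_le_iff] at hq
      exact Set.mem_biUnion (show κ a ∈ Set.Iic q from (hp1 _).trans hq.1) ⟨hκ1 a ha, hq.2⟩
    · left; rfl
  · have ha : a < η := hab.trans_lt hb
    have hk := hκ2 a b hab hb
    have h1 := (hf _ (hlt (κ b))).le (hκ1 a ha) (hmono hk)
    have h2 := (hf _ (hlt (κ b))).le hab (hκ1 b hb)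
    have h3 := hp2 _ _ hk
    have h4 := hp3 hk
    rw [hv a ha, hv b hb]
    omega

theorem countable_isRat : {T : ℕ →₀ ℝ | IsRat T}.Countable := by
  refine (Set.countable_range fun U : ℕ →₀ ℚ =>
    U.mapRange (fun q : ℚ => (q : ℝ)) Rat.cast_zero).mono ?_
  intro T hT
  choose q hq using hT
  refine ⟨Finsupp.onFinset T.support q fun k hk => ?_, ?_⟩
  · rw [Finsupp.mem_support_iff, hq k]
    exact_mod_cast hk
  · ext k
    simp [hq k]

/-- existence of a rho-function and of a coding function -/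
theorem exists_cod {ι : Type} [LinearOrder ι] [WellFoundedLT ι]
    (hc : ∀ a : ι, (Set.Iio a).Countable) : Nonempty (Cod ι) := by
  obtain ⟨f, hf⟩ := exists_wf_choice (ι := ι) (β := ι → ℕ) RhoP
    (fun δ f f' v h hP => ⟨hP.1, hP.2.1, fun a b hab hb => h b hb ▸ hP.2.2 a b hab hb⟩)
    (fun δ f h => rho_step (hc δ) f h)
  obtain ⟨enc, henc⟩ := Set.countable_iff_exists_injOn.1 countable_isRat
  refine ⟨⟨fun a b => f b a, fun a => (hf a).1, fun b p => (hf b).2.1 p,
    fun a b c hab hbc => ((hf c).le hab hbc).1, fun a b c hab hbc => ((hf c).le hab hbc).2,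
    fun p T => Nat.pair p (enc T) + 1, fun p T => Nat.lt_succ_of_le (Nat.left_le_pair _ _),
    fun p p' T T' hT hT' h => ?_⟩⟩
  have h1 := Nat.pair_eq_pair.1 (Nat.succ_injective h)
  exact ⟨h1.1, henc hT hT' h1.2⟩

end Vale.Agent.P129
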