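import Vale.Agent.P129.Tools
import Vale.Agent.P129.WF

namespace Vale.Agent.P129

open Finset Filter Topology

section

variable {𝕜 : Type} [RCLike 𝕜] {X : Type*} [NormedAddCommGroup X] [NormedSpace 𝕜 X]

theorem sn_tendsto {z : ℕ → StrongDual 𝕜 X} (hz' : ∀ n, ‖z n‖ ≤ 1)
    (hD : Dense {x : X | Summable fun n => ‖z n x‖}) (x : X) {ε : ℝ} (hε : 0 < ε) :
    ∀ᶠ n in atTop, ‖z n x‖ ≤ ε := by
  obtain ⟨d, hd, hxd⟩ := hD.exists_dist_lt x (half_pos hε)
  have := (Summable.tendsto_atTop_zero hd).eventually (ge_mem_nhds (half_pos hε))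
  filter_upwards [this] with n hn
  have e1 : z n x = z n (x - d) + z n d := by simp
  have e2 := (z n).le_opNorm (x - d)
  rw [dist_eq_norm] at hxd
  have e3 : ‖z n‖ * ‖x - d‖ ≤ 1 * ‖x - d‖ := mul_le_mul_of_nonneg_right (hz' n) (norm_nonneg _)
  rw [e1]
  linarith [norm_add_le (z n (x - d)) (z n d)]

theorem sn_far {z : ℕ → StrongDual 𝕜 X} {c : ℝ} (hc : 0 < c) (hz : ∀ n, c ≤ ‖z n‖)
    (h0 : ∀ x ε, 0 < ε → ∀ᶠ n in atTop, ‖z n x‖ ≤ ε) (f : StrongDual 𝕜 X) :
    ∀ᶠ n in atTop, 5 * c / 12 ≤ ‖z n - f‖ := by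
  rcases le_or_gt ‖f‖ (c / 2) with h | h
  · refine Eventually.of_forall fun n => ?_
    linarith [norm_sub_norm_le (z n) f, hz n]
  · obtain ⟨x, hx1, hx2⟩ := f.exists_lt_apply_of_lt_opNorm h
    filter_upwards [h0 x (c / 12) (by positivity)] with n hn
    have e1 := (z n - f).le_opNorm x
    have e2 : ‖z n - f‖ * ‖x‖ ≤ ‖z n - f‖ * 1 :=
      mul_le_mul_of_nonneg_left hx1.le (norm_nonneg _)
    have e3 := norm_sub_norm_le (f x) (z n x)
    rw [norm_sub_rev] at e3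
    rw [sub_apply] at e1
    linarith

theorem sn_far_span {z : ℕ → StrongDual 𝕜 X} {c : ℝ} (hc : 0 < c) (hz : ∀ n, c ≤ ‖z n‖)
    (hz' : ∀ n, ‖z n‖ ≤ 1) (h0 : ∀ x ε, 0 < ε → ∀ᶠ n in atTop, ‖z n x‖ ≤ ε)
    (F : Submodule 𝕜 (StrongDual 𝕜 X)) [FiniteDimensional 𝕜 F] :
    ∀ᶠ n in atTop, ∀ f ∈ F, c / 3 ≤ ‖z n - f‖ := by
  have : ProperSpace F := FiniteDimensional.proper_rclike 𝕜 F
  have hK : IsCompact (Metric.closedBall (0 : F) 2) := isCompact_closedBall _ _
  have key : ∀ᶠ n in atTop, ∀ f ∈ Metric.closedBall (0 : F) 2, c / 3 ≤ ‖z n - f‖ := by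
    refine hK.induction_on (p := fun s => ∀ᶠ n in atTop, ∀ f ∈ s, c / 3 ≤ ‖z n - (f : F)‖)
      (by simp) (fun s t hst h => h.mono fun n hn f hf => hn f (hst hf))
      (fun s t h1 h2 => (h1.and h2).mono fun n hn f hf => hf.elim (hn.1 f) (hn.2 f)) ?_
    intro f _
    refine ⟨Metric.ball f (c / 12), mem_nhdsWithin_of_mem_nhds (Metric.ball_mem_nhds _
      (by positivity)), ?_⟩
    filter_upwards [sn_far hc hz h0 f] with n hn g hg
    rw [Metric.mem_ball, Subtype.dist_eq, dist_eq_norm] at hg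
    have e1 := norm_add_le (z n - g) (g - f)
    rw [sub_add_sub_cancel] at e1
    linarith
  filter_upwards [key] with n hn f hf
  rcases le_or_gt ‖f‖ 2 with h | h
  · exact hn ⟨f, hf⟩ (mem_closedBall_zero_iff.2 h)
  · have e1 := norm_sub_norm_le f (z n)
    rw [norm_sub_rev] at e1
    linarith [hz' n, hz n]

theorem sn_step {z : ℕ → StrongDual 𝕜 X} {c : ℝ} (hc : 0 < c) (hz : ∀ n, c ≤ ‖z n‖)
    (hz' : ∀ n, ‖z n‖ ≤ 1) (h0 : ∀ x ε, 0 < ε → ∀ᶠ n in atTop, ‖z n x‖ ≤ ε) (A : Finset ℕ) :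
    ∀ᶠ n in atTop, ∃ x, ‖x‖ ≤ 3 / c + 1 ∧ z n x = 1 ∧ ∀ i ∈ A, z i x = 0 := by
  classical
  have : FiniteDimensional 𝕜 (Submodule.span 𝕜 (z '' A)) :=
    FiniteDimensional.span_of_finite 𝕜 ((A.finite_toSet).image z)
  filter_upwards [sn_far_span hc hz hz' h0 (Submodule.span 𝕜 (z '' A)),
    eventually_gt_atTop (A.sup id)] with n hn hn'
  have hnA : n ∉ A := fun h => absurd (Finset.le_sup (f := id) h) (not_le.2 hn')
  obtain ⟨x, hx1, hx2⟩ := helly (insert n A) z (fun i => if i = n then 1 else 0) (3 / c)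
    (by positivity) (fun a => by
      rw [Finset.sum_insert hnA, Finset.sum_insert hnA, Finset.sum_eq_zero (s := A)
        (fun i hi => by rw [if_neg (by rintro rfl; exact hnA hi), mul_zero])]
      simp only [if_true, mul_one, add_zero]
      by_cases ha : a n = 0
      · rw [ha, norm_zero]; positivity
      have e1 := hn (-(a n)⁻¹ • ∑ i ∈ A, a i • z i) (Submodule.smul_mem _ _
        (Submodule.sum_mem _ fun i hi => Submodule.smul_mem _ _
          (Submodule.subset_span ⟨i, hi, rfl⟩)))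
      have e2 : a n • z n + ∑ i ∈ A, a i • z i = a n • (z n - -(a n)⁻¹ • ∑ i ∈ A, a i • z i) := by
        rw [smul_sub, smul_smul, mul_neg, mul_inv_cancel₀ ha]
        ext v
        simp
      rw [e2, norm_smul]
      have e3 : ‖a n‖ = 3 / c * (‖a n‖ * (c / 3)) := by field_simp
      conv_lhs => rw [e3]
      gcongr) 1 one_pos
  refine ⟨x, hx1, by simpa using hx2 n (Finset.mem_insert_self _ _), fun i hi => ?_⟩
  rw [hx2 i (Finset.mem_insert_of_mem hi), if_neg (by rintro rfl; exact hnA hi)]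

theorem sn_seq {z : ℕ → StrongDual 𝕜 X} {c : ℝ} (hc : 0 < c) (hz : ∀ n, c ≤ ‖z n‖)
    (hz' : ∀ n, ‖z n‖ ≤ 1) (h0 : ∀ x ε, 0 < ε → ∀ᶠ n in atTop, ‖z n x‖ ≤ ε) :
    ∃ (n : ℕ → ℕ) (x : ℕ → X), StrictMono n ∧ (∀ i, ‖x i‖ ≤ 3 / c + 1) ∧
      (∀ i, z (n i) (x i) = 1) ∧ (∀ l i, l < i → z (n l) (x i) = 0) ∧
      ∀ i l, i < l → ‖z (n l) (x i)‖ ≤ (1 / 2) ^ (l + 1) := by
  classical
  obtain ⟨a, ha1, ha2⟩ := exists_seq_of_forall_finset_exists
    (fun a : ℕ × X × ℕ => ‖a.2.1‖ ≤ 3 / c + 1 ∧ z a.1 a.2.1 = 1)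
    (fun a a' => a.1 < a'.1 ∧ a.2.2 < a'.2.2 ∧ z a.1 a'.2.1 = 0 ∧
      ‖z a'.1 a.2.1‖ ≤ (1 / 2) ^ (a'.2.2 + 1))
    (fun s _ => by
      set m := s.sup (fun a => a.2.2) + 1
      have e1 : ∀ᶠ n in atTop, ∀ a ∈ s, ‖z n a.2.1‖ ≤ (1 / 2) ^ (m + 1) :=
        (eventually_all_finset s).2 fun a _ => h0 _ _ (by positivity)
      obtain ⟨n, ⟨x, hx1, hx2, hx3⟩, hn1, hn2⟩ := ((sn_step hc hz hz' h0 (s.image (·.1))).and
        (e1.and (eventually_gt_atTop (s.sup (·.1))))).exists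
      exact ⟨(n, x, m), ⟨hx1, hx2⟩, fun a ha => ⟨(Finset.le_sup (f := (·.1)) ha).trans_lt hn2,
        Nat.lt_succ_of_le (Finset.le_sup (f := fun a => a.2.2) ha),
        hx3 _ (Finset.mem_image_of_mem _ ha), hn1 a ha⟩⟩)
  have hm : StrictMono fun i => (a i).2.2 := fun i l h => (ha2 i l h).2.1
  refine ⟨fun i => (a i).1, fun i => (a i).2.1, fun i l h => (ha2 i l h).1, fun i => (ha1 i).1,
    fun i => (ha1 i).2, fun l i h => (ha2 l i h).2.2.1, fun i l h => (ha2 i l h).2.2.2.trans ?_⟩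
  exact pow_le_pow_of_le_one (by norm_num) (by norm_num) (Nat.succ_le_succ (hm.id_le l))

theorem sn_solve [CompleteSpace X] {g : ℕ → StrongDual 𝕜 X} {x : ℕ → X} {C : ℝ}
    (hx : ∀ i, ‖x i‖ ≤ C) (h1 : ∀ i, g i (x i) = 1) (h2 : ∀ l i, l < i → g l (x i) = 0)
    (h3 : ∀ i l, i < l → ‖g l (x i)‖ ≤ (1 / 2) ^ (l + 1)) (τ : ℕ → 𝕜) {η : ℝ}
    (hτ : ∀ L, ∑ l ∈ range L, ‖τ l‖ ≤ η) : ∃ y, ‖y‖ ≤ 2 * η * C ∧ ∀ l, g l y = τ l := by
  obtain ⟨a, ha⟩ := exists_wf_choice
    (fun (l : ℕ) (f : ℕ → 𝕜) (v : 𝕜) => v = τ l - ∑ i ∈ range l, f i * g l (x i))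
    (fun l f f' v h hv => by
      rw [hv]
      congr 1
      exact Finset.sum_congr rfl fun i hi => by rw [h i (Finset.mem_range.1 hi)])
    (fun l f _ => ⟨_, rfl⟩)
  have hC : 0 ≤ C := (norm_nonneg _).trans (hx 0)
  have hb : ∀ L, ∑ l ∈ range L, ‖a l‖ ≤ 2 * η := by
    intro L
    have e1 : ∀ l ∈ range L, ‖a l‖ ≤ ‖τ l‖ + (∑ i ∈ range L, ‖a i‖) *
        if l = 0 then 0 else (1 / 2) ^ (l + 1) := fun l hl => by
      rw [ha l]
      refine (norm_sub_le _ _).trans (add_le_add le_rfl ((norm_sum_le _ _).trans ?_))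
      split_ifs with h
      · simp [h]
      · rw [Finset.sum_mul]
        refine (Finset.sum_le_sum fun i hi => ?_).trans (Finset.sum_le_sum_of_subset_of_nonneg
          (Finset.range_mono (Finset.mem_range.1 hl).le) fun i _ _ => by positivity)
        rw [norm_mul]
        exact mul_le_mul_of_nonneg_left (h3 i l (Finset.mem_range.1 hi)) (norm_nonneg _)
    have e2 : ∀ L : ℕ, ∑ l ∈ range L, (if l = 0 then (0 : ℝ) else (1 / 2) ^ (l + 1)) ≤ 1 / 2 := by
      have : ∀ L : ℕ, ∑ l ∈ range (L + 1), (if l = 0 then (0 : ℝ) else (1 / 2) ^ (l + 1)) =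
          1 / 2 - (1 / 2) ^ (L + 1) := fun L => by
        induction L with
        | zero => simp
        | succ L ih => rw [Finset.sum_range_succ, ih, if_neg (by omega)]; ring
      intro L
      cases L with
      | zero => simp
      | succ L => rw [this]; exact sub_le_self _ (by positivity)
    have e3 := Finset.sum_le_sum e1
    rw [Finset.sum_add_distrib, ← Finset.mul_sum] at e3
    have e4 : 0 ≤ ∑ i ∈ range L, ‖a i‖ := Finset.sum_nonneg fun _ _ => norm_nonneg _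
    nlinarith [hτ L, mul_le_mul_of_nonneg_left (e2 L) e4]
  have hb' : ∀ L, ∑ l ∈ range L, ‖a l • x l‖ ≤ 2 * η * C := fun L => by
    refine le_trans ?_ (mul_le_mul_of_nonneg_right (hb L) hC)
    rw [Finset.sum_mul]
    exact Finset.sum_le_sum fun l _ => by
      rw [norm_smul]; exact mul_le_mul_of_nonneg_left (hx l) (norm_nonneg _)
  have hs : Summable fun l => ‖a l • x l‖ :=
    summable_of_sum_range_le (fun _ => norm_nonneg _) hb'
  refine ⟨∑' l, a l • x l, (norm_tsum_le_tsum_norm hs).trans (hs.tsum_le_of_sum_range_le hb'),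
    fun l => ?_⟩
  rw [(g l).map_tsum hs.of_norm, tsum_eq_sum (s := range (l + 1)), Finset.sum_range_succ]
  · simp only [map_smul, smul_eq_mul, h1, mul_one]
    rw [ha l]; ring
  · intro i hi
    rw [map_smul, h2 l i (by simpa using hi), smul_zero]

end

/-- a strongly normal sequence gives a separable quotient -/
theorem hasSepQuotient_of_summable {𝕜 : Type} [RCLike 𝕜] {X : Type*} [NormedAddCommGroup X]
    [NormedSpace 𝕜 X] [CompleteSpace X] (z : ℕ → StrongDual 𝕜 X) (c : ℝ) (hc : 0 < c)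
    (hz : ∀ n, c ≤ ‖z n‖) (hz' : ∀ n, ‖z n‖ ≤ 1)
    (hD : Dense {x : X | Summable fun n => ‖z n x‖}) : HasSepQuotient 𝕜 X := by
  classical
  obtain ⟨n, x, hn, hx, h1, h2, h3⟩ := sn_seq hc hz hz' fun x ε hε => sn_tendsto hz' hD x hε
  refine hasSepQuotient_of_tails (fun l => z (n l)) ?_ fun y ε hε => ?_
  · rw [linearIndependent_iff']
    intro s a hs
    by_contra hne
    push Not at hne
    obtain ⟨i, hi, hmax⟩ := Finset.exists_max_image (s.filter fun i => a i ≠ 0) id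
      (by obtain ⟨i, h1, h2⟩ := hne; exact ⟨i, Finset.mem_filter.2 ⟨h1, h2⟩⟩)
    have := congrArg (fun f : StrongDual 𝕜 X => f (x i)) hs
    simp only [_root_.sum_apply, smul_apply, smul_eq_mul, zero_apply] at this
    rw [Finset.sum_eq_single i, h1, mul_one] at this
    · exact (Finset.mem_filter.1 hi).2 this
    · intro l hl hne
      by_cases hal : a l = 0
      · rw [hal, zero_mul]
      · rw [h2 l i (lt_of_le_of_ne (hmax l (Finset.mem_filter.2 ⟨hl, hal⟩)) hne), mul_zero]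
    · exact fun h => absurd (Finset.mem_filter.1 hi).1 h
  · obtain ⟨d, hd, hyd⟩ := hD.exists_dist_lt y (half_pos hε)
    have hC : 0 < 3 / c + 1 := by positivity
    have hs : Summable fun l => ‖z (n l) d‖ := 
      Summable.comp_injective (f := fun n => ‖z n d‖) hd hn.injective
    obtain ⟨s, hs'⟩ := summable_iff_vanishing_norm.1 hs (ε / 4 / (3 / c + 1)) (by positivity)
    obtain ⟨y', hy1, hy2⟩ := sn_solve (g := fun l => z (n l)) hx h1 h2 h3
      (fun l => if s.sup id + 1 ≤ l then z (n l) d else 0) (η := ε / 4 / (3 / c + 1)) fun L => by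
        have := hs' ((range L).filter fun l => s.sup id + 1 ≤ l)
          (Finset.disjoint_left.2 fun l hl hl' => by
            have := Finset.le_sup (f := id) hl'
            have := (Finset.mem_filter.1 hl).2
            simp only [id] at *
            omega)
        refine le_trans (le_of_eq ?_) ((le_abs_self _).trans this.le)
        rw [Finset.sum_filter]
        exact Finset.sum_congr rfl fun l _ => by split_ifs <;> simp
    refine ⟨s.sup id + 1, (y - d) + y', ?_, fun k hk => ?_⟩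
    · rw [dist_eq_norm] at hyd
      have : 2 * (ε / 4 / (3 / c + 1)) * (3 / c + 1) = ε / 2 := by field_simp; ring
      linarith [norm_add_le (y - d) y']
    · rw [map_add, hy2 k, if_pos hk, map_sub, sub_add_cancel]

end Vale.Agent.P129
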