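import Vale.Agent.P129.Stmt

namespace Vale.Agent.P129

open Finset

variable {𝕜 : Type} [RCLike 𝕜]

theorem tools_mem_closure {X W : Type*} [NormedAddCommGroup X] [NormedSpace 𝕜 X]
    [NormedAddCommGroup W] [NormedSpace 𝕜 W] (T : X →L[𝕜] W) (w : W) (r : ℝ) (hr : 0 ≤ r)
    (h : ∀ φ : StrongDual 𝕜 W, ‖φ w‖ ≤ r * ‖φ.comp T‖) :
    w ∈ closure (T '' Metric.closedBall 0 r) := by
  let _ : NormedSpace ℝ X := NormedSpace.restrictScalars ℝ 𝕜 X
  let _ : NormedSpace ℝ W := NormedSpace.restrictScalars ℝ 𝕜 W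
  have : IsScalarTower ℝ 𝕜 X := RestrictScalars.isScalarTower ℝ 𝕜 X
  have : IsScalarTower ℝ 𝕜 W := RestrictScalars.isScalarTower ℝ 𝕜 W
  by_contra hw
  have hconv : Convex ℝ (closure (T '' Metric.closedBall (0 : X) r)) := by
    apply Convex.closure
    exact (convex_closedBall (0 : X) r).linear_image (T.toLinearMap.restrictScalars ℝ)
  obtain ⟨φ, u, h1, h2⟩ :=
    RCLike.geometric_hahn_banach_closed_point (𝕜 := 𝕜) hconv isClosed_closure hw
  have key : ∀ x : X, ‖x‖ ≤ r → ‖φ (T x)‖ ≤ u := by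
    intro x hx
    obtain ⟨a, ha, hax⟩ := RCLike.exists_norm_eq_mul_self (φ (T x))
    have hmem : T (a • x) ∈ closure (T '' Metric.closedBall (0 : X) r) := by
      apply subset_closure
      refine ⟨a • x, ?_, rfl⟩
      rw [mem_closedBall_zero_iff, norm_smul, ha, one_mul]
      exact hx
    have := h1 _ hmem
    rw [map_smul, map_smul, smul_eq_mul, ← hax, RCLike.ofReal_re] at this
    exact this.le
  have hu : 0 ≤ u := le_trans (norm_nonneg _) (key 0 (by simpa using hr))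
  have hbound : r * ‖φ.comp T‖ ≤ u := by
    rcases hr.eq_or_lt with h0 | hpos
    · rw [← h0, zero_mul]; exact hu
    · rw [mul_comm, ← le_div_iff₀ hpos]
      refine ContinuousLinearMap.opNorm_le_bound _ (by positivity) fun x => ?_
      rcases eq_or_ne x 0 with rfl | hx
      · simp
      have hxn : 0 < ‖x‖ := norm_pos_iff.2 hx
      have h3 := key (((r / ‖x‖ : ℝ) : 𝕜) • x) (by
        rw [norm_smul, RCLike.norm_ofReal, abs_of_nonneg (by positivity)]
        field_simp
        exact le_rfl)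
      rw [map_smul, map_smul, norm_smul, RCLike.norm_ofReal, abs_of_nonneg (by positivity)] at h3
      rw [ContinuousLinearMap.comp_apply]
      rw [div_mul_eq_mul_div, div_le_iff₀ hxn] at h3
      rw [div_mul_eq_mul_div, le_div_iff₀ hpos]
      linarith
  have h4 : RCLike.re (φ w) ≤ ‖φ w‖ := RCLike.re_le_norm _
  have h5 := h φ
  linarith

/-- an operator whose adjoint is bounded below is onto -/
theorem surj_of_adjoint {X W : Type*} [NormedAddCommGroup X] [NormedSpace 𝕜 X] [CompleteSpace X]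
    [NormedAddCommGroup W] [NormedSpace 𝕜 W] (T : X →L[𝕜] W) (c : ℝ) (hc : 0 < c)
    (h : ∀ φ : StrongDual 𝕜 W, c * ‖φ‖ ≤ ‖φ.comp T‖) (w : W) :
    ∃ x, T x = w ∧ ‖x‖ ≤ 2 / c * ‖w‖ := by
  have hC : ∀ y : W, ∃ x, dist (T x) y ≤ 1 / 2 * ‖y‖ ∧ ‖x‖ ≤ 1 / c * ‖y‖ := by
    intro y
    rcases eq_or_ne y 0 with rfl | hy
    · exact ⟨0, by simp, by simp⟩
    have hyn : 0 < ‖y‖ := norm_pos_iff.2 hy
    have hm := tools_mem_closure T y (1 / c * ‖y‖) (by positivity) (fun φ => by
      have h1 := φ.le_opNorm y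
      have h2 := h φ
      have h3 : ‖φ‖ ≤ 1 / c * ‖φ.comp T‖ := by
        rw [div_mul_eq_mul_div, le_div_iff₀ hc]; linarith
      calc ‖φ y‖ ≤ ‖φ‖ * ‖y‖ := h1
        _ ≤ (1 / c * ‖φ.comp T‖) * ‖y‖ := by gcongr
        _ = 1 / c * ‖y‖ * ‖φ.comp T‖ := by ring)
    obtain ⟨z, ⟨x, hx, rfl⟩, hz⟩ := Metric.mem_closure_iff.1 hm (1 / 2 * ‖y‖) (by positivity)
    exact ⟨x, by rw [dist_comm]; exact hz.le, mem_closedBall_zero_iff.1 hx⟩
  set C : ℝ := 1 / c with hCdef
  have C0 : 0 ≤ C := by positivity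
  choose g hg using hC
  let k : W → W := fun y => y - T (g y)
  have hle : ∀ y, ‖k y‖ ≤ 1 / 2 * ‖y‖ := by
    intro y
    rw [← dist_eq_norm, dist_comm]
    exact (hg y).1
  have hnle : ∀ n : ℕ, ‖k^[n] w‖ ≤ (1 / 2) ^ n * ‖w‖ := by
    intro n
    induction n with
    | zero => simp
    | succ n IH =>
      rw [Function.iterate_succ']
      apply le_trans (hle _) _
      rw [pow_succ', mul_assoc]
      gcongr
  let u : ℕ → X := fun n => g (k^[n] w)
  have ule : ∀ n, ‖u n‖ ≤ (1 / 2) ^ n * (C * ‖w‖) := fun n ↦ by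
    apply le_trans (hg _).2
    calc
      C * ‖k^[n] w‖ ≤ C * ((1 / 2) ^ n * ‖w‖) := by gcongr; exact hnle n
      _ = (1 / 2) ^ n * (C * ‖w‖) := by ring
  have sNu : Summable fun n => ‖u n‖ := by
    refine .of_nonneg_of_le (fun n => norm_nonneg _) ule ?_
    exact Summable.mul_right _ (summable_geometric_of_lt_one (by simp) (by norm_num))
  have su : Summable u := sNu.of_norm
  have x_ineq : ‖tsum u‖ ≤ 2 / c * ‖w‖ :=
    calc
      ‖tsum u‖ ≤ ∑' n, ‖u n‖ := norm_tsum_le_tsum_norm sNu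
      _ ≤ ∑' n, (1 / 2) ^ n * (C * ‖w‖) :=
        sNu.tsum_le_tsum ule <| Summable.mul_right _ summable_geometric_two
      _ = (∑' n, (1 / 2) ^ n) * (C * ‖w‖) := tsum_mul_right
      _ = 2 * C * ‖w‖ := by rw [tsum_geometric_two, mul_assoc]
      _ = 2 / c * ‖w‖ := by rw [hCdef]; ring
  have fsumeq : ∀ n : ℕ, T (∑ i ∈ Finset.range n, u i) = w - k^[n] w := by
    intro n
    induction n with
    | zero => simp
    | succ n IH => rw [sum_range_succ, T.map_add, IH, Function.iterate_succ_apply', sub_add]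
  have h1 : Filter.Tendsto (fun n => ∑ i ∈ Finset.range n, u i) Filter.atTop (nhds (tsum u)) :=
    su.hasSum.tendsto_sum_nat
  have L₁ : Filter.Tendsto (fun n => T (∑ i ∈ Finset.range n, u i)) Filter.atTop
      (nhds (T (tsum u))) := (T.continuous.tendsto _).comp h1
  simp only [fsumeq] at L₁
  have L₂ : Filter.Tendsto (fun n => w - k^[n] w) Filter.atTop (nhds (w - 0)) := by
    refine tendsto_const_nhds.sub ?_
    rw [tendsto_iff_norm_sub_tendsto_zero]
    simp only [sub_zero]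
    refine squeeze_zero (fun _ => norm_nonneg _) hnle ?_
    rw [← zero_mul ‖w‖]
    refine (_root_.tendsto_pow_atTop_nhds_zero_of_lt_one ?_ ?_).mul tendsto_const_nhds <;> norm_num
  have feq : T (tsum u) = w - 0 := tendsto_nhds_unique L₁ L₂
  rw [sub_zero] at feq
  exact ⟨tsum u, feq, x_ineq⟩

theorem hasSepQuotient_of_surj {X W : Type*} [NormedAddCommGroup X] [NormedSpace 𝕜 X]
    [CompleteSpace X] [NormedAddCommGroup W] [NormedSpace 𝕜 W] [CompleteSpace W]
    [TopologicalSpace.SeparableSpace W] (hW : ¬ FiniteDimensional 𝕜 W) (T : X →L[𝕜] W)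
    (hT : Function.Surjective T) : HasSepQuotient 𝕜 X := by
  refine ⟨LinearMap.ker T.toLinearMap, T.isClosed_ker, ?_, ?_⟩
  · obtain ⟨D, hDc, hDd⟩ := TopologicalSpace.exists_countable_dense W
    obtain ⟨s, hs⟩ := hT.hasRightInverse
    refine ⟨⟨(fun d => (LinearMap.ker T.toLinearMap).mkQ (s d)) '' D, hDc.image _, ?_⟩⟩
    rw [dense_iff_inter_open]
    rintro U hU ⟨q, hq⟩
    obtain ⟨x, rfl⟩ := (LinearMap.ker T.toLinearMap).mkQ_surjective q
    have hopen : IsOpen (T '' ((LinearMap.ker T.toLinearMap).mkQ ⁻¹' U)) :=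
      T.isOpenMap hT _ (hU.preimage continuous_quot_mk)
    obtain ⟨d, ⟨y, hy, hyd⟩, hd⟩ := hDd.inter_open_nonempty _ hopen ⟨T x, x, hq, rfl⟩
    refine ⟨(LinearMap.ker T.toLinearMap).mkQ (s d), ?_, d, hd, rfl⟩
    have : (LinearMap.ker T.toLinearMap).mkQ (s d) = (LinearMap.ker T.toLinearMap).mkQ y := by
      rw [Submodule.mkQ_apply, Submodule.mkQ_apply, Submodule.Quotient.eq, LinearMap.mem_ker]
      simp only [map_sub, ContinuousLinearMap.coe_coe]
      rw [hs d, hyd, sub_self]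
    rw [this]; exact hy
  · intro hfin
    exact hW (LinearEquiv.finiteDimensional (T.toLinearMap.quotKerEquivOfSurjective hT))

theorem tools_gen_inv {V W : Type*} [AddCommGroup V] [Module 𝕜 V] [AddCommGroup W] [Module 𝕜 W]
    (T : V →ₗ[𝕜] W) : ∃ S : W →ₗ[𝕜] V, ∀ x, T (S (T x)) = T x := by
  obtain ⟨S0, hS0⟩ := T.rangeRestrict.exists_rightInverse_of_surjective T.range_rangeRestrict
  obtain ⟨S, hS⟩ := S0.exists_extend
  refine ⟨S, fun x => ?_⟩
  have h1 : S (T x) = S0 ⟨T x, x, rfl⟩ := by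
    rw [← hS]; rfl
  have h2 := LinearMap.congr_fun hS0 ⟨T x, x, rfl⟩
  rw [h1]
  exact congrArg Subtype.val h2

/-- Helly's theorem -/
theorem helly {V κ : Type*} [NormedAddCommGroup V] [NormedSpace 𝕜 V] (A : Finset κ)
    (g : κ → StrongDual 𝕜 V) (t : κ → 𝕜) (γ : ℝ) (hγ : 0 ≤ γ)
    (h : ∀ a : κ → 𝕜, ‖∑ i ∈ A, a i * t i‖ ≤ γ * ‖∑ i ∈ A, a i • g i‖) (η : ℝ) (hη : 0 < η) :
    ∃ x, ‖x‖ ≤ γ + η ∧ ∀ i ∈ A, g i x = t i := by
  classical
  let T : V →L[𝕜] (A → 𝕜) := ContinuousLinearMap.pi fun i : A => g i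
  let w : A → 𝕜 := fun i => t i
  have hm : w ∈ closure (T '' Metric.closedBall 0 γ) := by
    refine tools_mem_closure T w γ hγ fun φ => ?_
    let a : κ → 𝕜 := fun i => if hi : i ∈ A then φ (Pi.single ⟨i, hi⟩ 1) else 0
    have hφ : ∀ y : A → 𝕜, φ y = ∑ i : A, a i * y i := by
      intro y
      conv_lhs => rw [pi_eq_sum_univ' y]
      rw [map_sum]
      refine Finset.sum_congr rfl fun i _ => ?_
      rw [map_smul, smul_eq_mul, mul_comm]
      simp only [a, dif_pos i.2]
    have e1 : φ w = ∑ i ∈ A, a i * t i := by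
      rw [hφ, ← Finset.sum_coe_sort A]
    have e2 : φ.comp T = ∑ i ∈ A, a i • g i := by
      ext x
      rw [ContinuousLinearMap.comp_apply, hφ, _root_.sum_apply,
        ← Finset.sum_coe_sort A]
      rfl
    rw [e1, e2]; exact h a
  obtain ⟨S0, hS0⟩ := tools_gen_inv T.toLinearMap
  let S : (A → 𝕜) →L[𝕜] V := LinearMap.toContinuousLinearMap S0
  have hS : ∀ x, T (S (T x)) = T x := hS0
  have hw : T (S w) = w := by
    have hcl : IsClosed {y : A → 𝕜 | T (S y) = y} :=
      isClosed_eq (T.continuous.comp S.continuous) continuous_id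
    refine hcl.closure_subset_iff.2 ?_ hm
    rintro _ ⟨x, -, rfl⟩
    exact hS x
  obtain ⟨z, ⟨x, hx, rfl⟩, hz⟩ :=
    Metric.mem_closure_iff.1 hm (η / (‖S‖ + 1)) (by positivity)
  refine ⟨x + S (w - T x), ?_, fun i hi => ?_⟩
  · have h1 : ‖S (w - T x)‖ ≤ η := by
      rw [dist_eq_norm] at hz
      calc ‖S (w - T x)‖ ≤ ‖S‖ * ‖w - T x‖ := S.le_opNorm _
        _ ≤ (‖S‖ + 1) * (η / (‖S‖ + 1)) := by gcongr; linarith
        _ = η := by field_simp
    exact (norm_add_le _ _).trans (add_le_add (mem_closedBall_zero_iff.1 hx) h1)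
  · have h2 : T (x + S (w - T x)) = w := by
      rw [map_add, map_sub, map_sub, hw, hS]; abel
    exact congrFun h2 ⟨i, hi⟩

/-- a criterion: tails of the sequence can be matched by small vectors -/
theorem hasSepQuotient_of_tails {X : Type*} [NormedAddCommGroup X] [NormedSpace 𝕜 X]
    (g : ℕ → StrongDual 𝕜 X) (hg : LinearIndependent 𝕜 g)
    (h : ∀ x ε, 0 < ε → ∃ n x', ‖x'‖ ≤ ε ∧ ∀ k, n ≤ k → g k x' = g k x) :
    HasSepQuotient 𝕜 X := by
  let M : Submodule 𝕜 X := ⨅ k, LinearMap.ker (g k).toLinearMap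
  have hM : ∀ x, x ∈ M ↔ ∀ k, g k x = 0 := by
    intro x
    simp only [M, Submodule.mem_iInf, LinearMap.mem_ker, ContinuousLinearMap.coe_coe]
  refine ⟨M, ?_, ?_, ?_⟩
  · have : (M : Set X) = ⋂ k, {x | g k x = 0} := by
      ext x; simp [hM]
    rw [this]
    exact isClosed_iInter fun k => isClosed_eq (g k).continuous continuous_const
  · let N : ℕ → Submodule 𝕜 X := fun n => ⨅ k, ⨅ (_ : n ≤ k), LinearMap.ker (g k).toLinearMap
    have hN : ∀ n x, x ∈ N n ↔ ∀ k, n ≤ k → g k x = 0 := by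
      intro n x
      simp only [N, Submodule.mem_iInf, LinearMap.mem_ker, ContinuousLinearMap.coe_coe]
    have hsep : ∀ n, TopologicalSpace.IsSeparable (M.mkQ '' (N n : Set X)) := by
      intro n
      let G : N n →ₗ[𝕜] (Fin n → 𝕜) :=
        LinearMap.pi fun i : Fin n => (g i).toLinearMap.comp (N n).subtype
      obtain ⟨S, hS⟩ := tools_gen_inv G
      let S' : (Fin n → 𝕜) →L[𝕜] X := LinearMap.toContinuousLinearMap ((N n).subtype.comp S)
      have hc : Continuous fun y => M.mkQ (S' y) := continuous_quot_mk.comp S'.continuous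
      refine (TopologicalSpace.isSeparable_range hc).mono ?_
      rintro _ ⟨x, hx, rfl⟩
      refine ⟨G ⟨x, hx⟩, ?_⟩
      simp only [Submodule.mkQ_apply]
      rw [Submodule.Quotient.eq, hM]
      intro k
      rcases lt_or_ge k n with hk | hk
      · have := congrFun (hS ⟨x, hx⟩) ⟨k, hk⟩
        rw [map_sub, sub_eq_zero]
        exact this
      · rw [map_sub, (hN n x).1 hx k hk, sub_zero]
        exact (hN n _).1 (S (G ⟨x, hx⟩)).2 k hk
    rw [← TopologicalSpace.isSeparable_univ_iff]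
    refine (TopologicalSpace.IsSeparable.iUnion hsep).closure.mono ?_
    intro q _
    obtain ⟨x, rfl⟩ := M.mkQ_surjective q
    have hx : x ∈ closure (⋃ n, (N n : Set X)) := by
      rw [Metric.mem_closure_iff]
      intro ε hε
      obtain ⟨n, x', h1, h2⟩ := h x (ε / 2) (by positivity)
      refine ⟨x - x', Set.mem_iUnion.2 ⟨n, (hN n _).2 fun k hk => ?_⟩, ?_⟩
      · rw [map_sub, h2 k hk, sub_self]
      · rw [dist_eq_norm, sub_sub_cancel]; linarith
    have hc : Continuous M.mkQ := continuous_quot_mk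
    have := image_closure_subset_closure_image hc ⟨x, hx, rfl⟩
    rwa [Set.image_iUnion] at this
  · intro hfin
    let g' : ℕ → Module.Dual 𝕜 (X ⧸ M) := fun k =>
      M.liftQ (g k).toLinearMap (fun x hx => (hM x).1 hx k)
    have h1 : LinearIndependent 𝕜 (fun k => (g k).toLinearMap) :=
      hg.map' (ContinuousLinearMap.coeLM 𝕜) (by
        rw [LinearMap.ker_eq_bot]; exact ContinuousLinearMap.coe_injective)
    have h2 : LinearIndependent 𝕜 g' := by
      refine LinearIndependent.of_comp M.mkQ.dualMap ?_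
      convert h1 using 1
      funext k
      ext x
      rfl
    exact Module.Finite.not_linearIndependent_of_infinite g' h2

end Vale.Agent.P129
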