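import Vale.Agent.P129.Pre
import Vale.Agent.P129.WF

namespace Vale.Agent.P129

open Finset Filter

namespace XE

variable {ι : Type}

open Classical in
/-- pointwise sum of a series of linear functionals -/
noncomputable def tsumL (b : ℕ → ((ι →₀ ℝ) →ₗ[ℝ] ℝ)) : (ι →₀ ℝ) →ₗ[ℝ] ℝ :=
  if h : ∀ y, Summable fun l => b l y then
    { toFun := fun y => ∑' l, b l y
      map_add' := fun y z => by
        simp only [map_add]
        exact (h y).tsum_add (h z)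
      map_smul' := fun c y => by
        simp only [map_smul, smul_eq_mul, RingHom.id_apply]
        exact tsum_mul_left }
  else 0

theorem tsumL_apply {b : ℕ → ((ι →₀ ℝ) →ₗ[ℝ] ℝ)} (h : ∀ y, Summable fun l => b l y)
    (y : ι →₀ ℝ) : tsumL b y = ∑' l, b l y := by
  rw [tsumL, dif_pos h]
  rfl

theorem hasSum_geo (k : ℕ) (c : ℝ) :
    HasSum (fun l : ℕ => 2 * (1 / 2 : ℝ) ^ (l + k + 2) * c) ((1 / 2) ^ k * c) := by
  have := (hasSum_geometric_two.mul_left (2 * (1 / 2 : ℝ) ^ (k + 2))).mul_right c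
  have h1 : (fun l : ℕ => 2 * (1 / 2 : ℝ) ^ (l + k + 2) * c) =
      fun l : ℕ => 2 * (1 / 2 : ℝ) ^ (k + 2) * (1 / 2) ^ l * c := by
    funext l
    ring
  have h2 : (1 / 2 : ℝ) ^ k * c = 2 * (1 / 2) ^ (k + 2) * 2 * c := by ring
  rw [h1, h2]
  exact this

theorem summable_of_bd {a : ℕ → ℝ} {c : ℝ} (h : ∀ l, |a l| ≤ 2 * (1 / 2) ^ (l + 2) * c) (k : ℕ) :
    Summable fun l => a (l + k) :=
  Summable.of_norm_bounded (hasSum_geo k c).summable fun l => h (l + k)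

theorem abs_tail_le {a : ℕ → ℝ} {c : ℝ} (h : ∀ l, |a l| ≤ 2 * (1 / 2) ^ (l + 2) * c) (k : ℕ) :
    |∑' l, a (l + k)| ≤ (1 / 2) ^ k * c :=
  tsum_of_norm_bounded (f := fun l => a (l + k)) (hasSum_geo k c) fun l => h (l + k)

variable [LinearOrder ι] (D : Data ι)

/-- the limit of the finite sums of `F δ` -/
noncomputable def Phi (δ : ι) : (ι →₀ ℝ) →ₗ[ℝ] ℝ := ev fun ξ => ∑ᶠ l, D.F δ l ξ

theorem ev_eventually (δ : ι) (y : ι →₀ ℝ) :
    ∀ᶠ t in atTop, ev (∑ l ∈ range t, D.F δ l : ι →₀ ℝ) y = Phi D δ y := by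
  have key : ∀ ξ, ∀ᶠ t in atTop, (∑ l ∈ range t, D.F δ l : ι →₀ ℝ) ξ = ∑ᶠ l, D.F δ l ξ := by
    intro ξ
    have hs : (Function.support fun l => D.F δ l ξ).Subsingleton := by
      intro l hl l' hl'
      have h1 : ξ ∈ (D.F δ l).support := Finsupp.mem_support_iff.2 hl
      have h2 : ξ ∈ (D.F δ l').support := Finsupp.mem_support_iff.2 hl'
      rcases lt_trichotomy l l' with h | h | h
      · exact absurd (D.F_succ δ l l' h ξ h1 ξ h2) (lt_irrefl _)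
      · exact h
      · exact absurd (D.F_succ δ l' l h ξ h2 ξ h1) (lt_irrefl _)
    obtain ⟨t₀, ht₀⟩ := hs.finite.bddAbove
    filter_upwards [eventually_gt_atTop t₀] with t ht
    rw [Finsupp.finsetSum_apply, finsum_eq_sum_of_support_subset]
    intro l hl
    exact mem_coe.2 (mem_range.2 ((ht₀ hl).trans_lt ht))
  filter_upwards [(eventually_all_finset y.support).2 fun ξ _ => key ξ] with t ht
  exact ev_congr ht

theorem abs_Phi_le (δ : ι) (y : ι →₀ ℝ) : |Phi D δ y| ≤ D.N y := by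
  obtain ⟨t, ht⟩ := (ev_eventually D δ y).exists
  rw [← ht]
  exact D.F_norm δ t y

/-- the functional attached to `δ` and a sequence of corrections -/
noncomputable def E (δ : ι) (w : ℕ → ((ι →₀ ℝ) →ₗ[ℝ] ℝ)) : (ι →₀ ℝ) →ₗ[ℝ] ℝ :=
  Finsupp.lapply δ + Phi D δ + tsumL w

/-- the recursive requirement -/
def P (δ : ι) (f : ι → ℕ → ((ι →₀ ℝ) →ₗ[ℝ] ℝ)) (v : ℕ → ((ι →₀ ℝ) →ₗ[ℝ] ℝ)) : Prop :=
  ∀ l, (∀ y, |v l y| ≤ 2 * (1 / 2) ^ (l + 2) * D.N y) ∧ (∀ y, Lt (D.F δ l) y → v l y = 0) ∧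
    ev (D.F δ l) + v l ∈ Submodule.span ℝ {x | ∃ γ < δ, x = E D γ (f γ)}

variable {D}

theorem P.summable {δ : ι} {f : ι → ℕ → ((ι →₀ ℝ) →ₗ[ℝ] ℝ)} {v : ℕ → ((ι →₀ ℝ) →ₗ[ℝ] ℝ)}
    (h : P D δ f v) (k : ℕ) (y : ι →₀ ℝ) : Summable fun l => v (l + k) y :=
  summable_of_bd (a := fun l => v l y) (fun l => (h l).1 y) k

theorem P.tail_le {δ : ι} {f : ι → ℕ → ((ι →₀ ℝ) →ₗ[ℝ] ℝ)} {v : ℕ → ((ι →₀ ℝ) →ₗ[ℝ] ℝ)}
    (h : P D δ f v) (k : ℕ) (y : ι →₀ ℝ) :
    |tsumL (fun l => v (l + k)) y| ≤ (1 / 2) ^ k * D.N y := by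
  rw [tsumL_apply (h.summable k)]
  exact abs_tail_le (a := fun l => v l y) (fun l => (h l).1 y) k

theorem P.split {δ : ι} {f : ι → ℕ → ((ι →₀ ℝ) →ₗ[ℝ] ℝ)} {v : ℕ → ((ι →₀ ℝ) →ₗ[ℝ] ℝ)}
    (h : P D δ f v) (k : ℕ) : tsumL v = ∑ l ∈ range k, v l + tsumL fun l => v (l + k) := by
  refine LinearMap.ext fun y => ?_
  have h0 : ∀ y, Summable fun l => v l y := fun y => by simpa using h.summable 0 y
  rw [LinearMap.add_apply, tsumL_apply h0, tsumL_apply (h.summable k), LinearMap.sum_apply]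
  exact ((h0 y).sum_add_tsum_nat_add k).symm

theorem closure {f : ι → ℕ → ((ι →₀ ℝ) →ₗ[ℝ] ℝ)} {G : ι →₀ ℝ}
    (hP : ∀ g ∈ G.support, P D g f (f g)) {κ : ℝ} (hκ0 : 0 ≤ κ) (hκ : ∀ ξ, |G ξ| ≤ κ)
    (y₀ : ι →₀ ℝ) {ε : ℝ} (hε : 0 < ε) :
    ∃ b : (ι →₀ ℝ) →ₗ[ℝ] ℝ, (∀ y, |b y| ≤ 2 * κ * D.N y) ∧ |b y₀| ≤ ε ∧
      (∀ y, Lt G y → b y = 0) ∧
      ev G + b ∈ Submodule.span ℝ {x | ∃ γ, (∃ g ∈ G.support, γ ≤ g) ∧ x = E D γ (f γ)} := by
  obtain ⟨k₀, hk₀⟩ := D.F_c0 G.support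
  have hlim : Tendsto (fun k : ℕ => (1 / 2 : ℝ) ^ k) atTop (nhds 0) :=
    tendsto_pow_atTop_nhds_zero_of_lt_one (by norm_num) (by norm_num)
  have e1 : ∀ᶠ k : ℕ in atTop, (G.support.card : ℝ) * (1 / 2) ^ k ≤ 1 := by
    have := hlim.const_mul (G.support.card : ℝ)
    rw [mul_zero] at this
    exact this.eventually (ge_mem_nhds one_pos)
  have e2 : ∀ᶠ k : ℕ in atTop, κ * G.support.card * D.N y₀ * (1 / 2) ^ k ≤ ε := by
    have := hlim.const_mul (κ * G.support.card * D.N y₀)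
    rw [mul_zero] at this
    exact this.eventually (ge_mem_nhds hε)
  have e3 := (eventually_all_finset G.support).2 fun g _ => ev_eventually D g y₀
  obtain ⟨k, ⟨hk1, hk2⟩, hk3, hk4⟩ := ((e1.and e2).and (e3.and (eventually_ge_atTop k₀))).exists
  set b : (ι →₀ ℝ) →ₗ[ℝ] ℝ := ∑ g ∈ G.support, G g •
    (Phi D g - ev (∑ l ∈ range k, D.F g l : ι →₀ ℝ) + tsumL fun l => f g (l + k)) with hb
  have hby : ∀ y, b y = ∑ g ∈ G.support, G g *
      (Phi D g y - ev (∑ l ∈ range k, D.F g l : ι →₀ ℝ) y + tsumL (fun l => f g (l + k)) y) := by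
    intro y
    rw [hb, LinearMap.sum_apply]
    rfl
  have hbd : ∀ y, |b y| ≤ κ * ∑ g ∈ G.support,
      |Phi D g y - ev (∑ l ∈ range k, D.F g l : ι →₀ ℝ) y| +
        κ * G.support.card * D.N y * (1 / 2) ^ k := by
    intro y
    rw [hby]
    refine (abs_sum_le_sum_abs _ _).trans ((sum_le_sum (g := fun g => κ *
      (|Phi D g y - ev (∑ l ∈ range k, D.F g l : ι →₀ ℝ) y| + (1 / 2) ^ k * D.N y))
      fun g hg => ?_).trans (le_of_eq ?_))
    · rw [abs_mul]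
      exact mul_le_mul (hκ g) ((abs_add_le _ _).trans
        (add_le_add le_rfl ((hP g hg).tail_le k y))) (abs_nonneg _) hκ0
    · rw [← mul_sum, sum_add_distrib, sum_const, nsmul_eq_mul]
      ring
  refine ⟨b, fun y => ?_, ?_, fun y hy => ?_, ?_⟩
  · have e4 := (eventually_all_finset G.support).2 fun g _ => ev_eventually D g y
    obtain ⟨t, ht1, ht2⟩ := (e4.and (eventually_ge_atTop k)).exists
    have h1 : ∑ g ∈ G.support, |Phi D g y - ev (∑ l ∈ range k, D.F g l : ι →₀ ℝ) y| ≤ D.N y := by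
      refine le_trans (le_of_eq (sum_congr rfl fun g hg => ?_)) (hk₀ k hk4 t y)
      rw [← ht1 g hg, ← ev_sub_left, sum_Ico_eq_sub _ ht2]
    have hN : 0 ≤ D.N y := apply_nonneg _ _
    have h2 : κ * G.support.card * D.N y * (1 / 2) ^ k ≤ κ * D.N y := by
      have := mul_le_mul_of_nonneg_left hk1 (mul_nonneg hκ0 hN)
      linarith
    have h3 := mul_le_mul_of_nonneg_left h1 hκ0
    linarith [hbd y]
  · have h1 : ∑ g ∈ G.support, |Phi D g y₀ - ev (∑ l ∈ range k, D.F g l : ι →₀ ℝ) y₀| = 0 :=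
      sum_eq_zero fun g hg => by rw [hk3 g hg, sub_self, abs_zero]
    have := hbd y₀
    rw [h1] at this
    linarith
  · rw [hby]
    refine sum_eq_zero fun g hg => ?_
    have h1 : ∀ l, Lt (D.F g l) y := fun l a ha c hc => (D.F_lt g l a ha).trans (hy g hg c hc)
    have h2 : ∀ t, ev (∑ l ∈ range t, D.F g l : ι →₀ ℝ) y = 0 := fun t =>
      (Lt.sum_left fun l _ => h1 l).ev_eq_zero
    obtain ⟨t, ht⟩ := (ev_eventually D g y).exists
    rw [← ht, h2, h2, tsumL_apply ((hP g hg).summable k)]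
    simp [fun l => ((hP g hg) l).2.1 y (h1 l)]
  · have h1 : ev G + b = ∑ g ∈ G.support,
        G g • (E D g (f g) - ∑ l ∈ range k, (ev (D.F g l) + f g l)) := by
      have h2 : ev G = ∑ g ∈ G.support, G g • (Finsupp.lapply g : (ι →₀ ℝ) →ₗ[ℝ] ℝ) := by
        refine LinearMap.ext fun y => ?_
        conv_lhs => rw [← Finsupp.sum_single G, Finsupp.sum]
        rw [ev_sum_left, LinearMap.sum_apply]
        exact sum_congr rfl fun g _ => ev_single_left g _ y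
      rw [h2, hb, ← sum_add_distrib]
      refine sum_congr rfl fun g hg => ?_
      have h3 : ev (∑ l ∈ range k, D.F g l : ι →₀ ℝ) = ∑ l ∈ range k, ev (D.F g l) := by
        refine LinearMap.ext fun y => ?_
        rw [ev_sum_left, LinearMap.sum_apply]
      rw [← smul_add, E, (hP g hg).split k, sum_add_distrib, h3]
      congr 1
      abel
    rw [h1]
    refine Submodule.sum_mem _ fun g hg => Submodule.smul_mem _ _ (Submodule.sub_mem _
      (Submodule.subset_span ⟨g, ⟨g, hg, le_rfl⟩, rfl⟩) (Submodule.sum_mem _ fun l _ => ?_))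
    refine Submodule.span_mono ?_ ((hP g hg) l).2.2
    rintro x ⟨γ, hγ, rfl⟩
    exact ⟨γ, ⟨g, hg, hγ.le⟩, rfl⟩

theorem exists_f [WellFoundedLT ι] (D : Data ι) :
    ∃ f : ι → ℕ → ((ι →₀ ℝ) →ₗ[ℝ] ℝ), ∀ δ, P D δ f (f δ) := by
  refine exists_wf_choice (P D) (fun δ f f' v hff h l => ⟨(h l).1, (h l).2.1, ?_⟩) ?_
  · refine Submodule.span_mono ?_ (h l).2.2
    rintro x ⟨γ, hγ, rfl⟩
    exact ⟨γ, hγ, by rw [hff γ hγ]⟩
  · intro δ f hf
    have key := fun l => closure (D := D) (f := f) (G := D.F δ l)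
      (fun g hg => hf g (D.F_lt δ l g hg)) (by positivity) (D.F_le δ l) 0 one_pos
    choose v h1 _ h2 h3 using key
    refine ⟨v, fun l => ⟨h1 l, h2 l, Submodule.span_mono ?_ (h3 l)⟩⟩
    rintro x ⟨γ, ⟨g, hg, hγ⟩, rfl⟩
    exact ⟨γ, hγ.trans_lt (D.F_lt δ l g hg), rfl⟩

end XE

open XE in
/-- construction of the functionals `e δ` spanning the predual -/
theorem Data.exists_e {ι : Type} [LinearOrder ι] [WellFoundedLT ι] (D : Data ι) :
    ∃ e : ι → ((ι →₀ ℝ) →ₗ[ℝ] ℝ),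
      (∀ δ y, |e δ y| ≤ 3 * D.N y) ∧
      (∀ δ y (l₀ t₀ : ℕ) (c : ℝ), (∀ l < l₀, Lt (D.F δ l) y) →
        (∀ t, t₀ ≤ t → ev (∑ l ∈ range t, D.F δ l : ι →₀ ℝ) y = c) →
        |e δ y - y δ - c| ≤ (1 / 2) ^ l₀ * D.N y) ∧
      (∀ L : Set ι, IsLowerSet L → ∀ y : ι →₀ ℝ, (y.support : Set ι) ⊆ L → ∀ ε, 0 < ε →
        ∃ x ∈ Submodule.span ℝ (e '' L), (∀ z, |x z| ≤ 3 * D.N z) ∧ D.N y - ε < x y) := by
  obtain ⟨f, hf⟩ := exists_f D
  have hE : ∀ δ y, E D δ (f δ) y = y δ + Phi D δ y + tsumL (f δ) y := fun _ _ => rfl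
  refine ⟨fun δ => E D δ (f δ), fun δ y => ?_, fun δ y l₀ t₀ c h1 h2 => ?_,
    fun L hL y hy ε hε => ?_⟩
  · have h1 := D.coord_le y δ
    have h2 := abs_Phi_le D δ y
    have h3 := (hf δ).tail_le 0 y
    simp only [add_zero, pow_zero, one_mul] at h3
    rw [hE]
    have h4 := abs_add_le (y δ + Phi D δ y) (tsumL (f δ) y)
    have h5 := abs_add_le (y δ) (Phi D δ y)
    linarith
  · obtain ⟨t, ht1, ht2⟩ := ((ev_eventually D δ y).and (eventually_ge_atTop t₀)).exists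
    have h3 : ∑ l ∈ range l₀, f δ l y = 0 :=
      sum_eq_zero fun l hl => (hf δ l).2.1 y (h1 l (mem_range.1 hl))
    have h4 : E D δ (f δ) y - y δ - c = tsumL (fun l => f δ (l + l₀)) y := by
      rw [hE, ← ht1, h2 t ht2, (hf δ).split l₀, LinearMap.add_apply, LinearMap.sum_apply, h3]
      ring
    rw [h4]
    exact (hf δ).tail_le l₀ y
  · obtain ⟨G, hG1, hG2, hG3, hG4⟩ := D.norming y (ε / 2) (half_pos hε)
    obtain ⟨b, hb1, hb2, -, hb3⟩ := closure (D := D) (f := f) (G := G) (fun g _ => hf g)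
      zero_le_one hG2 y (half_pos hε)
    refine ⟨ev G + b, Submodule.span_mono ?_ hb3, fun z => ?_, ?_⟩
    · rintro x ⟨γ, ⟨g, hg, hγ⟩, rfl⟩
      obtain ⟨-, -, c, hc, -, h2⟩ := hG1 hg
      exact ⟨γ, hL (hγ.trans h2) (hy hc), rfl⟩
    · have := abs_add_le (ev G z) (b z)
      rw [LinearMap.add_apply]
      linarith [hG3 z, hb1 z]
    · rw [LinearMap.add_apply]
      linarith [(abs_le.1 hb2).1]

end Vale.Agent.P129
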